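import Mathlib

/-!
# P335 : two spectral lemmas for symmetric operators on `Ω → ℝ` (module Spec)
-/

open Finset

namespace Vale.Agent.Lib.P335

variable {Ω : Type} [Fintype Ω]

/-- Spectral theorem in the form needed: `f = ∑ r i e_i`, with eigenvalues `μ i`. -/
lemma spec_exists (A : (Ω → ℝ) →ₗ[ℝ] (Ω → ℝ))
    (hA : ∀ f g, ∑ x, A f x * g x = ∑ x, f x * A g x) :
    ∃ (n : ℕ) (μ : Fin n → ℝ) (e : Fin n → Ω → ℝ), (∀ i, A (e i) = μ i • e i) ∧
      (∀ i, e i ≠ 0) ∧ ∀ f g : Ω → ℝ,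
        ∑ x, f x * g x = ∑ i, (∑ x, f x * e i x) * (∑ x, g x * e i x) := by
  classical
  let E := EuclideanSpace ℝ Ω
  let φ : E ≃ₗ[ℝ] (Ω → ℝ) := WithLp.linearEquiv 2 ℝ (Ω → ℝ)
  let T : E →ₗ[ℝ] E := (φ.symm.toLinearMap.comp A).comp φ.toLinearMap
  have hin : ∀ u v : E, inner ℝ u v = ∑ x, φ u x * φ v x := by
    intro u v
    rw [PiLp.inner_apply]
    refine Finset.sum_congr rfl fun x _ => ?_
    simp only [RCLike.inner_apply, conj_trivial]
    rw [mul_comm]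
    rfl
  have hT : T.IsSymmetric := by
    intro u v
    rw [hin, hin]
    exact hA (φ u) (φ v)
  let b := hT.eigenvectorBasis rfl
  refine ⟨_, hT.eigenvalues rfl, fun i => φ (b i), ?_, ?_, ?_⟩
  · intro i
    have h := hT.apply_eigenvectorBasis rfl i
    have h2 : φ (T (b i)) = φ ((hT.eigenvalues rfl i : ℝ) • b i) := by
      rw [h]
      rfl
    rw [map_smul] at h2
    exact h2
  · intro i h
    have h1 : b i = 0 := φ.map_eq_zero_iff.1 h
    have h2 := b.orthonormal.ne_zero i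
    exact h2 h1
  · intro f g
    have h := b.sum_inner_mul_inner (φ.symm f) (φ.symm g)
    rw [hin] at h
    have e1 : ∀ i, inner ℝ (φ.symm f) (b i) = ∑ x, f x * φ (b i) x := by
      intro i
      rw [hin, LinearEquiv.apply_symm_apply]
    have e2 : ∀ i, inner ℝ (b i) (φ.symm g) = ∑ x, g x * φ (b i) x := by
      intro i
      rw [hin, LinearEquiv.apply_symm_apply]
      exact Finset.sum_congr rfl fun x _ => mul_comm _ _
    rw [LinearEquiv.apply_symm_apply, LinearEquiv.apply_symm_apply] at h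
    rw [← h]
    refine Finset.sum_congr rfl fun i _ => ?_
    rw [e1, e2]

lemma spec_coef (A : (Ω → ℝ) →ₗ[ℝ] (Ω → ℝ))
    (hA : ∀ f g, ∑ x, A f x * g x = ∑ x, f x * A g x) {μ : ℝ} {e : Ω → ℝ} (he : A e = μ • e)
    (f : Ω → ℝ) : ∑ x, A f x * e x = μ * ∑ x, f x * e x := by
  rw [hA, he, Finset.mul_sum]
  refine Finset.sum_congr rfl fun x _ => ?_
  simp only [Pi.smul_apply, smul_eq_mul]
  ring

theorem spec_sq {Ω : Type} [Fintype Ω] (A : (Ω → ℝ) →ₗ[ℝ] (Ω → ℝ))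
    (hA : ∀ f g, ∑ x, A f x * g x = ∑ x, f x * A g x) (c : ℝ)
    (heig : ∀ (μ : ℝ) (f : Ω → ℝ), f ≠ 0 → A f = μ • f → c * μ ≤ μ ^ 2) (f : Ω → ℝ) :
    c * ∑ x, A f x * f x ≤ ∑ x, (A f x) ^ 2 := by
  obtain ⟨n, μ, e, he, hne, hpars⟩ := spec_exists A hA
  have h1 := hpars (A f) f
  have h2 := hpars (A f) (A f)
  simp only [spec_coef A hA (he _)] at h1 h2
  have h3 : ∑ x, (A f x) ^ 2 = ∑ x, A f x * A f x :=
    Finset.sum_congr rfl fun x _ => sq _
  rw [h3, h1, h2, Finset.mul_sum]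
  refine Finset.sum_le_sum fun i _ => ?_
  have h4 := heig (μ i) (e i) (hne i) (he i)
  have h5 : 0 ≤ (∑ x, f x * e i x) ^ 2 := sq_nonneg _
  nlinarith [mul_le_mul_of_nonneg_right h4 h5]

theorem spec_gap {Ω : Type} [Fintype Ω] (A : (Ω → ℝ) →ₗ[ℝ] (Ω → ℝ))
    (hA : ∀ f g, ∑ x, A f x * g x = ∑ x, f x * A g x) (c : ℝ) (hc : 0 < c)
    (hpos : ∀ f, 0 ≤ ∑ x, A f x * f x)
    (hsq : ∀ f, c * ∑ x, A f x * f x ≤ ∑ x, (A f x) ^ 2) (f : Ω → ℝ)
    (hf : ∀ g, A g = 0 → ∑ x, f x * g x = 0) :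
    c * ∑ x, f x ^ 2 ≤ ∑ x, A f x * f x := by
  obtain ⟨n, μ, e, he, hne, hpars⟩ := spec_exists A hA
  have h1 := hpars (A f) f
  have h2 := hpars f f
  simp only [spec_coef A hA (he _)] at h1
  have h3 : ∑ x, f x ^ 2 = ∑ x, f x * f x := Finset.sum_congr rfl fun x _ => sq _
  rw [h3, h1, h2, Finset.mul_sum]
  refine Finset.sum_le_sum fun i _ => ?_
  -- the norm of `e i`
  have hpos_e : 0 < ∑ x, e i x ^ 2 := by
    have h4 : 0 ≤ ∑ x, e i x ^ 2 := Finset.sum_nonneg fun x _ => sq_nonneg _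
    rcases h4.lt_or_eq with h5 | h5
    · exact h5
    · exfalso
      apply hne i
      funext x
      have h6 := (Finset.sum_eq_zero_iff_of_nonneg (fun x _ => sq_nonneg (e i x))).1 h5.symm x
        (Finset.mem_univ x)
      exact pow_eq_zero_iff (two_ne_zero) |>.1 h6
  have e1 : ∑ x, A (e i) x * e i x = μ i * ∑ x, e i x ^ 2 := by
    rw [he i, Finset.mul_sum]
    refine Finset.sum_congr rfl fun x _ => ?_
    simp only [Pi.smul_apply, smul_eq_mul]
    ring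
  have e2 : ∑ x, (A (e i) x) ^ 2 = μ i ^ 2 * ∑ x, e i x ^ 2 := by
    rw [he i, Finset.mul_sum]
    refine Finset.sum_congr rfl fun x _ => ?_
    simp only [Pi.smul_apply, smul_eq_mul]
    ring
  have hμ0 : 0 ≤ μ i := by
    have h4 := hpos (e i)
    rw [e1] at h4
    by_contra hcon
    push Not at hcon
    nlinarith
  have hμ1 : c * μ i ≤ μ i ^ 2 := by
    have h4 := hsq (e i)
    rw [e1, e2] at h4
    have h5 : c * μ i * ∑ x, e i x ^ 2 ≤ μ i ^ 2 * ∑ x, e i x ^ 2 := by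
      calc c * μ i * ∑ x, e i x ^ 2 = c * (μ i * ∑ x, e i x ^ 2) := by ring
        _ ≤ _ := h4
    exact le_of_mul_le_mul_right h5 hpos_e
  rcases hμ0.lt_or_eq with h4 | h4
  · have h5 : c ≤ μ i := by
      have h6 : c * μ i ≤ μ i * μ i := by rw [← sq]; exact hμ1
      exact le_of_mul_le_mul_right h6 h4
    have h7 : 0 ≤ (∑ x, f x * e i x) ^ 2 := sq_nonneg _
    nlinarith [mul_le_mul_of_nonneg_right h5 h7]
  · have h5 : ∑ x, f x * e i x = 0 := by
      apply hf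
      rw [he i, ← h4, zero_smul]
    rw [h5]
    simp

end Vale.Agent.Lib.P335
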