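import Vale.Agent.Lib.P335.Mat

/-!
# P335 : averaging operators
-/

open Finset

namespace Vale.Agent.Lib.P335

section avg
variable {Ω : Type} [Fintype Ω] {s s' : Ω → Ω → Prop} [DecidableRel s] [DecidableRel s']

theorem cls_card_pos (hs : Equivalence s) (x : Ω) :
    0 < ((univ.filter (fun y => s x y)).card : ℝ) := by
  have : 0 < (univ.filter (fun y => s x y)).card :=
    card_pos.mpr ⟨x, by simp [hs.refl x]⟩
  exact_mod_cast this

theorem cls_eq (hs : Equivalence s) {x y : Ω} (h : s x y) :
    (univ.filter (fun z => s x z)) = univ.filter (fun z => s y z) := by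
  ext z
  simp only [mem_filter, mem_univ, true_and]
  exact ⟨fun h' => hs.trans (hs.symm h) h', fun h' => hs.trans h h'⟩

theorem avg_inv (hs : Equivalence s) (f : Ω → ℝ) {x y : Ω} (h : s x y) :
    avg s f x = avg s f y := by
  unfold avg
  rw [cls_eq hs h]

theorem avg_of_inv (hs : Equivalence s) (f : Ω → ℝ) (x : Ω) (h : ∀ y, s x y → f x = f y) :
    avg s f x = f x := by
  unfold avg
  have h1 : ∑ y with s x y, f y = ∑ y with s x y, f x := by
    apply sum_congr rfl
    intro y hy
    simp only [mem_filter, mem_univ, true_and] at hy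
    exact (h y hy).symm
  rw [h1, sum_const, nsmul_eq_mul]
  have := cls_card_pos hs x
  field_simp

theorem avg_idem (hs : Equivalence s) (f : Ω → ℝ) (x : Ω) :
    avg s (avg s f) x = avg s f x :=
  avg_of_inv hs _ _ (fun _ h => avg_inv hs f h)

theorem avg_add (f g : Ω → ℝ) (x : Ω) : avg s (fun y => f y + g y) x = avg s f x + avg s g x := by
  unfold avg
  rw [sum_add_distrib, add_div]

theorem avg_sub (f g : Ω → ℝ) (x : Ω) : avg s (fun y => f y - g y) x = avg s f x - avg s g x := by
  unfold avg
  rw [sum_sub_distrib, sub_div]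

theorem avg_smul (c : ℝ) (f : Ω → ℝ) (x : Ω) : avg s (fun y => c * f y) x = c * avg s f x := by
  unfold avg
  rw [← mul_sum, mul_div_assoc]

theorem avg_congr {f g : Ω → ℝ} {x : Ω} (h : ∀ y, s x y → f y = g y) : avg s f x = avg s g x := by
  unfold avg
  congr 1
  apply sum_congr rfl
  intro y hy
  simp only [mem_filter, mem_univ, true_and] at hy
  exact h y hy

/-- the averaging operator as a linear map -/
noncomputable def avgL (s : Ω → Ω → Prop) [DecidableRel s] : (Ω → ℝ) →ₗ[ℝ] (Ω → ℝ) where
  toFun f := avg s f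
  map_add' f g := by ext x; exact avg_add f g x
  map_smul' c f := by ext x; exact avg_smul c f x

theorem avgL_apply (f : Ω → ℝ) (x : Ω) : avgL s f x = avg s f x := rfl

theorem avg_sym (hs : Equivalence s) (f g : Ω → ℝ) :
    ∑ x, avg s f x * g x = ∑ x, f x * avg s g x := by
  unfold avg
  have e1 : ∀ x, (∑ y with s x y, f y) / ((univ.filter (fun y => s x y)).card : ℝ) * g x
      = ∑ y, if s x y then f y * g x / ((univ.filter (fun z => s x z)).card : ℝ) else 0 := by
    intro x
    rw [sum_filter, sum_div, sum_mul]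
    apply sum_congr rfl
    intro y _
    split_ifs <;> ring
  have e2 : ∀ x, f x * ((∑ y with s x y, g y) / ((univ.filter (fun y => s x y)).card : ℝ))
      = ∑ y, if s x y then f x * g y / ((univ.filter (fun z => s x z)).card : ℝ) else 0 := by
    intro x
    rw [sum_filter, sum_div, mul_sum]
    apply sum_congr rfl
    intro y _
    split_ifs <;> ring
  rw [sum_congr rfl (fun x _ => e1 x), sum_congr rfl (fun x _ => e2 x), sum_comm]
  apply sum_congr rfl
  intro y _
  apply sum_congr rfl
  intro x _
  by_cases h : s x y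
  · have h' : s y x := hs.symm h
    rw [if_pos h, if_pos h', cls_eq hs h]
  · have h' : ¬ s y x := fun h' => h (hs.symm h')
    rw [if_neg h, if_neg h']

theorem avg_proj (hs : Equivalence s) (f : Ω → ℝ) :
    ∑ x, (f x - avg s f x) ^ 2 = ∑ x, (f x - avg s f x) * f x := by
  have h1 : ∑ x, (f x - avg s f x) * avg s f x = 0 := by
    have h2 := avg_sym hs f (avg s f)
    have h3 : ∑ x, f x * avg s (avg s f) x = ∑ x, f x * avg s f x :=
      sum_congr rfl (fun x _ => by rw [avg_idem hs])
    have : ∑ x, (f x - avg s f x) * avg s f x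
        = ∑ x, f x * avg s f x - ∑ x, avg s f x * avg s f x := by
      rw [← sum_sub_distrib]; apply sum_congr rfl; intro x _; ring
    rw [this, h2, h3]; ring
  have : ∑ x, (f x - avg s f x) ^ 2
      = ∑ x, (f x - avg s f x) * f x - ∑ x, (f x - avg s f x) * avg s f x := by
    rw [← sum_sub_distrib]; apply sum_congr rfl; intro x _; ring
  rw [this, h1]; ring

/-- Two equivalence relations with unique completion of rectangles have commuting averages. -/
theorem avg_comm (hs : Equivalence s) (hs' : Equivalence s')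
    (hrect : ∀ x y z, s x y → s' x z → ∃! w, s' y w ∧ s z w) (f : Ω → ℝ) (x : Ω) :
    avg s (avg s' f) x = avg s' (avg s f) x := by
  classical
  -- cardinality of the `s'`-class is constant along `s`
  have hcard : ∀ (s s' : Ω → Ω → Prop) [DecidableRel s] [DecidableRel s'],
      Equivalence s → Equivalence s' →
      (∀ x y z, s x y → s' x z → ∃! w, s' y w ∧ s z w) → ∀ x y, s x y →
      (univ.filter (fun z => s' x z)).card ≤ (univ.filter (fun z => s' y z)).card := by
    intro s s' _ _ hs hs' hrect x y hxy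
    choose! F hF using (fun z (hz : s' x z) => (hrect x y z hxy hz).exists)
    apply card_le_card_of_injOn F
    · intro z hz
      simp only [coe_filter, mem_univ, true_and, Set.mem_ofPred_eq] at hz ⊢
      exact (hF z hz).1
    · intro z hz z' hz' he
      simp only [coe_filter, mem_univ, true_and, Set.mem_ofPred_eq] at hz hz'
      -- z and z' are both completions of the rectangle with corner y
      have h1 := hF z hz
      have h2 := hF z' hz'
      obtain ⟨w, -, huniq⟩ := hrect y x (F z) (hs.symm hxy) h1.1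
      have a1 := huniq z ⟨hz, hs.symm h1.2⟩
      have a2 := huniq z' ⟨hz', by rw [he]; exact hs.symm h2.2⟩
      rw [a1, a2]
  have hrect' : ∀ x y z, s' x y → s x z → ∃! w, s y w ∧ s' z w := by
    intro x y z h1 h2
    obtain ⟨w, hw, hu⟩ := hrect x z y h2 h1
    exact ⟨w, ⟨hw.2, hw.1⟩, fun w' hw' => hu w' ⟨hw'.2, hw'.1⟩⟩
  have hceq : ∀ x y, s x y →
      (univ.filter (fun z => s' x z)).card = (univ.filter (fun z => s' y z)).card := by
    intro x y hxy
    exact le_antisymm (hcard s s' hs hs' hrect x y hxy) (hcard s s' hs hs' hrect y x (hs.symm hxy))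
  have hceq' : ∀ x y, s' x y →
      (univ.filter (fun z => s x z)).card = (univ.filter (fun z => s y z)).card := by
    intro x y hxy
    exact le_antisymm (hcard s' s hs' hs hrect' x y hxy)
      (hcard s' s hs' hs hrect' y x (hs'.symm hxy))
  have e1 : avg s (avg s' f) x = (∑ y with s x y, ∑ w with s' y w, f w) /
      (((univ.filter (fun z => s' x z)).card : ℝ) * ((univ.filter (fun z => s x z)).card : ℝ)) := by
    unfold avg
    rw [← div_div]
    congr 1
    rw [sum_div]
    apply sum_congr rfl
    intro y hy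
    simp only [mem_filter, mem_univ, true_and] at hy
    rw [← hceq x y hy]
  have e2 : avg s' (avg s f) x = (∑ y with s' x y, ∑ w with s y w, f w) /
      (((univ.filter (fun z => s x z)).card : ℝ) * ((univ.filter (fun z => s' x z)).card : ℝ)) := by
    unfold avg
    rw [← div_div]
    congr 1
    rw [sum_div]
    apply sum_congr rfl
    intro y hy
    simp only [mem_filter, mem_univ, true_and] at hy
    rw [← hceq' x y hy]
  rw [e1, e2, mul_comm]
  congr 1
  rw [sum_sigma', sum_sigma']
  have : Nonempty Ω := ⟨x⟩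
  have key : ∀ y w, s x y → s' y w → ∃ z, s' x z ∧ s z w := by
    intro y w h1 h2
    obtain ⟨z, hz, -⟩ := hrect y x w (hs.symm h1) h2
    exact ⟨z, hz.1, hs.symm hz.2⟩
  have key' : ∀ z w, s' x z → s z w → ∃ y, s x y ∧ s' y w := by
    intro z w h1 h2
    obtain ⟨y, hy, -⟩ := hrect' z x w (hs'.symm h1) h2
    exact ⟨y, hy.1, hs'.symm hy.2⟩
  choose! Z hZ using key
  choose! Y hY using key'
  apply sum_bij' (i := fun p _ => (⟨Z p.1 p.2, p.2⟩ : Σ _ : Ω, Ω))
    (j := fun p _ => (⟨Y p.1 p.2, p.2⟩ : Σ _ : Ω, Ω))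
  · rintro ⟨y, w⟩ h
    simp only [mem_sigma, mem_filter, mem_univ, true_and] at h ⊢
    exact hZ y w h.1 h.2
  · rintro ⟨z, w⟩ h
    simp only [mem_sigma, mem_filter, mem_univ, true_and] at h ⊢
    exact hY z w h.1 h.2
  · rintro ⟨y, w⟩ h
    simp only [mem_sigma, mem_filter, mem_univ, true_and] at h
    have h1 := hZ y w h.1 h.2
    have h2 := hY (Z y w) w h1.1 h1.2
    -- `Y (Z y w) w` and `y` are both completions
    obtain ⟨v, -, hu⟩ := hrect' (Z y w) x w (hs'.symm h1.1) h1.2
    have a1 := hu y ⟨h.1, hs'.symm h.2⟩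
    have a2 := hu _ ⟨h2.1, hs'.symm h2.2⟩
    have a3 : Y (Z y w) w = y := a2.trans a1.symm
    simp only
    rw [a3]
  · rintro ⟨z, w⟩ h
    simp only [mem_sigma, mem_filter, mem_univ, true_and] at h
    have h1 := hY z w h.1 h.2
    have h2 := hZ (Y z w) w h1.1 h1.2
    obtain ⟨v, -, hu⟩ := hrect (Y z w) x w (hs.symm h1.1) h1.2
    have a1 := hu z ⟨h.1, hs.symm h.2⟩
    have a2 := hu _ ⟨h2.1, hs.symm h2.2⟩
    have a3 : Z (Y z w) w = z := a2.trans a1.symm
    simp only
    rw [a3]
  · rintro ⟨y, w⟩ _
    rfl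

/-- commuting averages: nonnegative inner product -/
theorem inner_nonneg_of_comm (hs : Equivalence s) (hs' : Equivalence s')
    (hrect : ∀ x y z, s x y → s' x z → ∃! w, s' y w ∧ s z w) (f : Ω → ℝ) :
    0 ≤ ∑ x, (f x - avg s f x) * (f x - avg s' f x) := by
  -- g = Q Q' f
  set g : Ω → ℝ := fun x => (f x - avg s' f x) - avg s (fun y => f y - avg s' f y) x with hg
  have h1 : ∑ x, (f x - avg s f x) * (f x - avg s' f x) = ∑ x, g x ^ 2 := by
    -- <Qf,Q'f> = <f,QQ'f> ; |QQ'f|^2 = <QQ'f, Q'f> = <Q' Q Q' f, f> = <Q Q' f, f>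
    have a1 : ∑ x, g x ^ 2 = ∑ x, g x * (f x - avg s' f x) :=
      avg_proj hs (fun x => f x - avg s' f x)
    have a2 : ∑ x, g x * (f x - avg s' f x) = ∑ x, (g x - avg s' g x) * f x := by
      have := avg_sym hs' g f
      have e1 : ∑ x, g x * (f x - avg s' f x) = ∑ x, g x * f x - ∑ x, g x * avg s' f x := by
        rw [← sum_sub_distrib]; apply sum_congr rfl; intro x _; ring
      have e2 : ∑ x, (g x - avg s' g x) * f x = ∑ x, g x * f x - ∑ x, avg s' g x * f x := by
        rw [← sum_sub_distrib]; apply sum_congr rfl; intro x _; ring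
      rw [e1, e2, this]
    have a3 : ∀ x, avg s' g x = 0 := by
      intro x
      have b1 : avg s' g x = avg s' (fun x => f x - avg s' f x) x
          - avg s' (avg s (fun y => f y - avg s' f y)) x := avg_sub _ _ x
      have b2 : avg s' (fun x => f x - avg s' f x) x = 0 := by
        rw [avg_sub, avg_idem hs']; ring
      have b3 : avg s' (avg s (fun y => f y - avg s' f y)) x = 0 := by
        rw [← avg_comm hs hs' hrect]
        have : avg s' (fun y => f y - avg s' f y) = fun _ => 0 := by
          ext z; rw [avg_sub, avg_idem hs']; ring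
        rw [this]; unfold avg; simp
      rw [b1, b2, b3]; ring
    have a4 : ∑ x, g x * f x = ∑ x, (f x - avg s f x) * (f x - avg s' f x) := by
      have := avg_sym hs (fun y => f y - avg s' f y) f
      have e1 : ∑ x, g x * f x = ∑ x, (f x - avg s' f x) * f x
          - ∑ x, avg s (fun y => f y - avg s' f y) x * f x := by
        rw [← sum_sub_distrib]; apply sum_congr rfl; intro x _; simp only [hg]; ring
      rw [e1, this, ← sum_sub_distrib]
      apply sum_congr rfl; intro x _; ring
    rw [a1, a2, ← a4]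
    apply sum_congr rfl; intro x _; rw [a3 x]; ring
  rw [h1]
  exact sum_nonneg (fun x _ => sq_nonneg _)

end avg

end Vale.Agent.Lib.P335
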