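import Vale.Agent.Lib.P335.Avg

/-!
# P335 : basic facts on 0/1 matrices with given margins
-/

set_option linter.unusedSectionVars false

open Finset

namespace Vale.Agent.Lib.P335

section base

variable {R W : Type} [Fintype R] [Fintype W] [DecidableEq R] [DecidableEq W]
  {r : R → ℕ} {c : W → ℕ}

theorem Mat.ext' {x y : Mat R W r c} (h : ∀ t, x.1 t = y.1 t) : x = y :=
  Subtype.ext (funext h)

theorem off2_equiv (u v : R) : Equivalence (Mat.Off2 (r := r) (c := c) (W := W) u v) where
  refl := fun _ _ _ _ => rfl
  symm := fun h t h1 h2 => (h t h1 h2).symm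
  trans := fun h h' t h1 h2 => (h t h1 h2).trans (h' t h1 h2)

theorem off2_comm {u v : R} {x y : Mat R W r c} (h : Mat.Off2 u v x y) : Mat.Off2 v u x y :=
  fun t h1 h2 => h t h2 h1

/-- the projection `Q_{uv} = 1 - E_{uv}` -/
noncomputable def Q (u v : R) (f : Mat R W r c → ℝ) (x : Mat R W r c) : ℝ :=
  f x - avg (Mat.Off2 u v) f x

/-- three-row column sums -/
theorem colsum3 {x y : R → W → Bool} {i j k : R} (hij : i ≠ j) (hik : i ≠ k) (hjk : j ≠ k) (w : W)
    (hoff : ∀ t, t ≠ i → t ≠ j → t ≠ k → x t w = y t w) :
    (∑ t, (x t w).toNat) + ((y i w).toNat + (y j w).toNat + (y k w).toNat) =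
      (∑ t, (y t w).toNat) + ((x i w).toNat + (x j w).toNat + (x k w).toNat) := by
  have h1 : ∀ z : R → W → Bool, ∑ t, (z t w).toNat =
      (z i w).toNat + ((z j w).toNat + ((z k w).toNat +
        ∑ t ∈ ((univ.erase i).erase j).erase k, (z t w).toNat)) := by
    intro z
    rw [add_sum_erase _ (fun t => (z t w).toNat) (by simp [hik.symm, hjk.symm] : k ∈ (univ.erase i).erase j),
      add_sum_erase _ (fun t => (z t w).toNat) (by simp [hij.symm] : j ∈ univ.erase i),
      add_sum_erase _ (fun t => (z t w).toNat) (mem_univ i)]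
  rw [h1 x, h1 y]
  have h2 : ∑ t ∈ ((univ.erase i).erase j).erase k, (x t w).toNat =
      ∑ t ∈ ((univ.erase i).erase j).erase k, (y t w).toNat := by
    apply sum_congr rfl
    intro t ht
    simp only [mem_erase, mem_univ, and_true] at ht
    rw [hoff t ht.2.2 ht.2.1 ht.1]
  rw [h2]; ring

theorem colsum2 {x y : R → W → Bool} {i j : R} (hij : i ≠ j) (w : W)
    (hoff : ∀ t, t ≠ i → t ≠ j → x t w = y t w) :
    (∑ t, (x t w).toNat) + ((y i w).toNat + (y j w).toNat) =
      (∑ t, (y t w).toNat) + ((x i w).toNat + (x j w).toNat) := by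
  have h1 : ∀ z : R → W → Bool, ∑ t, (z t w).toNat =
      (z i w).toNat + ((z j w).toNat +
        ∑ t ∈ ((univ.erase i).erase j), (z t w).toNat) := by
    intro z
    rw [add_sum_erase _ (fun t => (z t w).toNat) (by simp [hij.symm] : j ∈ univ.erase i),
      add_sum_erase _ (fun t => (z t w).toNat) (mem_univ i)]
  rw [h1 x, h1 y]
  have h2 : ∑ t ∈ ((univ.erase i).erase j), (x t w).toNat =
      ∑ t ∈ ((univ.erase i).erase j), (y t w).toNat := by
    apply sum_congr rfl
    intro t ht
    simp only [mem_erase, mem_univ, and_true] at ht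
    rw [hoff t ht.2 ht.1]
  rw [h2]; ring

/-- `y` is a valid matrix -/
def Valid (r : R → ℕ) (c : W → ℕ) (x : R → W → Bool) : Prop :=
  (∀ u, ∑ w, (x u w).toNat = r u) ∧ (∀ w, ∑ u, (x u w).toNat = c w)

/-- constructor -/
def mkMat (y : R → W → Bool) (h : Valid r c y) : Mat R W r c := ⟨y, h⟩

open Classical in
/-- total constructor: `y` if it is valid, `x` otherwise -/
noncomputable def upd (x : Mat R W r c) (y : R → W → Bool) : Mat R W r c :=
  if h : Valid r c y then mkMat y h else x

theorem upd_val {x : Mat R W r c} {y : R → W → Bool} (h : Valid r c y) : (upd x y).1 = y := by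
  have : upd x y = mkMat y h := by
    unfold upd
    exact dif_pos h
  rw [this]
  rfl

/-- row sums are preserved by permuting the entries of a row -/
theorem rowsum_comp (ρ : W → Bool) (σ : Equiv.Perm W) :
    ∑ w, ((ρ ∘ σ) w).toNat = ∑ w, (ρ w).toNat :=
  Equiv.sum_comp σ (fun w => (ρ w).toNat)

/-- permuting the entries in two rows -/
def perm2 (u v : R) (σ : Equiv.Perm W) (x : R → W → Bool) : R → W → Bool :=
  fun t => if t = u ∨ t = v then x t ∘ σ else x t

theorem valid_perm2 (x : Mat R W r c) {u v : R} (huv : u ≠ v) (a b : W)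
    (h : ∀ w, (w = a ∨ w = b) →
      ((x.1 u (Equiv.swap a b w)).toNat + (x.1 v (Equiv.swap a b w)).toNat =
        (x.1 u w).toNat + (x.1 v w).toNat)) :
    Valid r c (perm2 u v (Equiv.swap a b) x.1) := by
  constructor
  · intro t
    unfold perm2
    split_ifs with ht
    · rw [rowsum_comp]; exact x.2.1 t
    · exact x.2.1 t
  · intro w
    have h1 := colsum2 (x := x.1) (y := perm2 u v (Equiv.swap a b) x.1) huv w
      (fun t h1 h2 => by simp [perm2, h1, h2])
    have h2 : ((perm2 u v (Equiv.swap a b) x.1) u w).toNat +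
        ((perm2 u v (Equiv.swap a b) x.1) v w).toNat = (x.1 u w).toNat + (x.1 v w).toNat := by
      simp only [perm2, true_or, or_true, if_true, Function.comp]
      by_cases hw : w = a ∨ w = b
      · exact h w hw
      · push Not at hw
        rw [Equiv.swap_apply_of_ne_of_ne hw.1 hw.2]
    have h3 := x.2.2 w
    omega

/-- `y` arises from `x` by the switch in rows `u, v` and columns `a, b`. -/
def Sw (u v : R) (a b : W) (x y : Mat R W r c) : Prop :=
  x.1 u a = true ∧ x.1 v b = true ∧ x.1 u b = false ∧ x.1 v a = false ∧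
    y.1 = fun t w => if (t = u ∨ t = v) ∧ (w = a ∨ w = b) then !(x.1 t w) else x.1 t w

theorem exists_perm2 (x : Mat R W r c) {u v : R} {a b : W} (h1 : x.1 u a = true)
    (h2 : x.1 v b = true) (h3 : x.1 u b = false) (h4 : x.1 v a = false) :
    ∃ y : Mat R W r c, y.1 = perm2 u v (Equiv.swap a b) x.1 := by
  have huv : u ≠ v := by rintro rfl; rw [h1] at h4; exact absurd h4 (by simp)
  refine ⟨⟨_, valid_perm2 x huv a b ?_⟩, rfl⟩
  rintro w (rfl | rfl)
  · simp [h1, h2, h3, h4]
  · simp [h1, h2, h3, h4]

theorem exists_sw (x : Mat R W r c) {u v : R} {a b : W} (h1 : x.1 u a = true)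
    (h2 : x.1 v b = true) (h3 : x.1 u b = false) (h4 : x.1 v a = false) :
    ∃ y : Mat R W r c, Sw u v a b x y := by
  obtain ⟨y, hy⟩ := exists_perm2 x h1 h2 h3 h4
  refine ⟨y, h1, h2, h3, h4, ?_⟩
  rw [hy]
  funext t w
  unfold perm2
  by_cases ht : t = u ∨ t = v
  · rw [if_pos ht]
    by_cases hw : w = a ∨ w = b
    · rw [if_pos ⟨ht, hw⟩]
      rcases ht with rfl | rfl <;> rcases hw with rfl | rfl <;> simp [h1, h2, h3, h4]
    · rw [if_neg (fun h => hw h.2)]
      push Not at hw
      simp [Equiv.swap_apply_of_ne_of_ne hw.1 hw.2]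
  · rw [if_neg ht, if_neg (fun h => ht h.1)]

theorem rows_eq_of_le {ρ ρ' : W → Bool} (hs : ∑ w, (ρ w).toNat = ∑ w, (ρ' w).toNat)
    (hle : ∀ w, ρ w = true → ρ' w = true) : ρ = ρ' := by
  have h1 : ∀ w ∈ (univ : Finset W), (ρ w).toNat ≤ (ρ' w).toNat := by
    intro w _
    cases h : ρ w
    · simp
    · rw [hle w h]
  have h2 := (sum_eq_sum_iff_of_le h1).mp hs
  funext w
  have h3 := h2 w (mem_univ w)
  revert h3
  cases ρ w <;> cases ρ' w <;> simp

/-- ROW-EQUALIZING LEMMA -/
theorem row_equalize (P : Mat R W r c → Mat R W r c → Prop) (hrefl : ∀ x, P x x)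
    (htrans : ∀ x y z, P x y → P y z → P x z) (S : Finset R) (k : R) (hk : k ∈ S)
    (hP : ∀ v ∈ S, v ≠ k → ∀ a b (x y : Mat R W r c), x.1 k a = true → x.1 v b = true →
      x.1 k b = false → x.1 v a = false → y.1 = perm2 k v (Equiv.swap a b) x.1 → P x y) :
    ∀ (n : ℕ) (x y : Mat R W r c), (univ.filter (fun a => x.1 k a = true ∧ y.1 k a = false)).card = n →
      (∀ t, t ∉ S → x.1 t = y.1 t) →
      ∃ x' y', P x x' ∧ P y y' ∧ x'.1 k = y'.1 k ∧ (∀ t, t ∉ S → x'.1 t = x.1 t) ∧
        (∀ t, t ∉ S → y'.1 t = y.1 t) := by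
  intro n
  induction n using Nat.strong_induction_on with
  | _ n ih =>
    intro x y hn hoff
    by_cases hxy : x.1 k = y.1 k
    · exact ⟨x, y, hrefl x, hrefl y, hxy, fun _ _ => rfl, fun _ _ => rfl⟩
    -- p in x_k \ y_k
    have hp : ∃ p, x.1 k p = true ∧ y.1 k p = false := by
      by_contra hcon
      push Not at hcon
      apply hxy
      apply rows_eq_of_le
      · rw [x.2.1 k, y.2.1 k]
      · intro w hw
        have := hcon w hw
        simpa using this
    have hq : ∃ q, x.1 k q = false ∧ y.1 k q = true := by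
      by_contra hcon
      push Not at hcon
      apply hxy
      symm
      apply rows_eq_of_le
      · rw [x.2.1 k, y.2.1 k]
      · intro w hw
        by_contra h
        simp only [Bool.not_eq_true] at h
        exact hcon w h hw
    obtain ⟨p, hxp, hyp⟩ := hp
    obtain ⟨q, hxq, hyq⟩ := hq
    have hpq : p ≠ q := by rintro rfl; rw [hxp] at hxq; exact absurd hxq (by simp)
    -- column sums over S
    have hcol : ∀ w, ∑ t ∈ S, (x.1 t w).toNat = ∑ t ∈ S, (y.1 t w).toNat := by
      intro w
      have h1 := x.2.2 w
      have h2 := y.2.2 w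
      rw [← sum_add_sum_compl S] at h1 h2
      have h3 : ∑ t ∈ Sᶜ, (x.1 t w).toNat = ∑ t ∈ Sᶜ, (y.1 t w).toNat := by
        apply sum_congr rfl
        intro t ht
        rw [hoff t (mem_compl.mp ht)]
      omega
    by_cases hs : ∑ t ∈ S, (x.1 t p).toNat ≤ ∑ t ∈ S, (x.1 t q).toNat
    · -- switch x
      have hv : ∃ v ∈ S, x.1 v q = true ∧ x.1 v p = false := by
        by_contra hcon
        push Not at hcon
        have hlt : ∑ t ∈ S, (x.1 t q).toNat < ∑ t ∈ S, (x.1 t p).toNat := by
          apply sum_lt_sum
          · intro t ht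
            have := hcon t ht
            cases hh : x.1 t q
            · simp
            · have h2 := this hh
              simp only [ne_eq, Bool.not_eq_false] at h2
              rw [h2]
          · exact ⟨k, hk, by rw [hxq, hxp]; simp⟩
        omega
      obtain ⟨v, hvS, hvq, hvp⟩ := hv
      have hvk : v ≠ k := by rintro rfl; rw [hvp] at hxp; exact absurd hxp (by simp)
      obtain ⟨z, hz⟩ := exists_perm2 x hxp hvq hxq hvp
      have hPz : P x z := hP v hvS hvk p q x z hxp hvq hxq hvp hz
      have hzoff : ∀ t, t ∉ S → z.1 t = x.1 t := by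
        intro t ht
        rw [hz]
        unfold perm2
        rw [if_neg]
        rintro (rfl | rfl)
        · exact ht hk
        · exact ht hvS
      have hzk : z.1 k = x.1 k ∘ Equiv.swap p q := by rw [hz]; simp [perm2]
      have hcard : (univ.filter (fun a => z.1 k a = true ∧ y.1 k a = false)).card < n := by
        rw [← hn]
        apply card_lt_card
        rw [ssubset_iff_of_subset]
        · refine ⟨p, by simp [hxp, hyp], ?_⟩
          simp [hzk, hxq]
        · intro a ha
          simp only [mem_filter, mem_univ, true_and] at ha ⊢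
          refine ⟨?_, ha.2⟩
          have haq : a ≠ q := by rintro rfl; rw [hyq] at ha; exact absurd ha.2 (by simp)
          have hap : a ≠ p := by
            rintro rfl
            have := ha.1
            rw [hzk] at this
            simp [hxq] at this
          have := ha.1
          rw [hzk, Function.comp, Equiv.swap_apply_of_ne_of_ne hap haq] at this
          exact this
      obtain ⟨x', y', h1, h2, h3, h4, h5⟩ := ih _ hcard z y rfl
        (fun t ht => (hzoff t ht).trans (hoff t ht))
      exact ⟨x', y', htrans _ _ _ hPz h1, h2, h3, fun t ht => (h4 t ht).trans (hzoff t ht), h5⟩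
    · -- switch y
      have hv : ∃ v ∈ S, y.1 v p = true ∧ y.1 v q = false := by
        by_contra hcon
        push Not at hcon
        apply hs
        rw [hcol p, hcol q]
        apply sum_le_sum
        intro t ht
        have := hcon t ht
        cases hh : y.1 t p
        · simp
        · have h2 := this hh
          simp only [ne_eq, Bool.not_eq_false] at h2
          rw [h2]
      obtain ⟨v, hvS, hvp, hvq⟩ := hv
      have hvk : v ≠ k := by rintro rfl; rw [hvp] at hyp; exact absurd hyp (by simp)
      obtain ⟨z, hz⟩ := exists_perm2 y hyq hvp hyp hvq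
      have hPz : P y z := hP v hvS hvk q p y z hyq hvp hyp hvq hz
      have hzoff : ∀ t, t ∉ S → z.1 t = y.1 t := by
        intro t ht
        rw [hz]
        unfold perm2
        rw [if_neg]
        rintro (rfl | rfl)
        · exact ht hk
        · exact ht hvS
      have hzk : z.1 k = y.1 k ∘ Equiv.swap q p := by rw [hz]; simp [perm2]
      have hcard : (univ.filter (fun a => x.1 k a = true ∧ z.1 k a = false)).card < n := by
        rw [← hn]
        apply card_lt_card
        rw [ssubset_iff_of_subset]
        · refine ⟨p, by simp [hxp, hyp], ?_⟩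
          simp [hzk, hyq]
        · intro a ha
          simp only [mem_filter, mem_univ, true_and] at ha ⊢
          refine ⟨ha.1, ?_⟩
          have haq : a ≠ q := by rintro rfl; rw [hxq] at ha; exact absurd ha.1 (by simp)
          have hap : a ≠ p := by
            rintro rfl
            have := ha.2
            rw [hzk] at this
            simp [hyq] at this
          have := ha.2
          rw [hzk, Function.comp, Equiv.swap_apply_of_ne_of_ne haq hap] at this
          exact this
      obtain ⟨x', y', h1, h2, h3, h4, h5⟩ := ih _ hcard x z rfl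
        (fun t ht => (hoff t ht).trans (hzoff t ht).symm)
      exact ⟨x', y', h1, htrans _ _ _ hPz h2, h3, h4, fun t ht => (h5 t ht).trans (hzoff t ht)⟩

/-- a function which is invariant under all two-row moves is constant -/
theorem const_of_off2 (f : Mat R W r c → ℝ) (h : ∀ u v x y, u ≠ v → Mat.Off2 u v x y → f x = f y)
    (x y : Mat R W r c) : f x = f y := by
  have key : ∀ (S : Finset R) (x y : Mat R W r c), (∀ t, t ∉ S → x.1 t = y.1 t) → f x = f y := by
    intro S
    induction S using Finset.induction_on with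
    | empty => intro x y hxy; rw [Mat.ext' (fun t => hxy t (by simp))]
    | insert k S hkS ih =>
      intro x y hxy
      obtain ⟨x', y', h1, h2, h3, h4, h5⟩ := row_equalize (fun x y => f x = f y) (fun _ => rfl)
        (fun _ _ _ a b => a.trans b) (insert k S) k (mem_insert_self k S)
        (fun v _ hvk a b x y _ _ _ _ hy => h k v x y hvk.symm (fun t h1 h2 => by
          rw [hy]; simp [perm2, h1, h2])) _ x y rfl hxy
      have h6 : f x' = f y' := by
        apply ih
        intro t ht
        by_cases htk : t = k
        · rw [htk]; exact h3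
        · have : t ∉ insert k S := by simp [htk, ht]
          rw [h4 t this, h5 t this, hxy t this]
      rw [h1, h6, ← h2]
  exact key univ x y (fun t ht => absurd (mem_univ t) ht)

end base

end Vale.Agent.Lib.P335
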