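import Mathlib

/-!
# P335 : the switch chain on the graphs with given degrees
-/

open Finset

namespace Vale.Agent.Lib.P335

/-- `Realiz d` is the set of simple graphs on `Fin n` in which every vertex `i` has degree `d i`. -/
def Realiz {n : ℕ} (d : Fin n → ℕ) : Type :=
  {G : SimpleGraph (Fin n) // ∀ i, (G.neighborSet i).ncard = d i}

noncomputable instance {n : ℕ} (d : Fin n → ℕ) : Fintype (Realiz d) :=
  letI : Finite (Realiz d) := by unfold Realiz; infer_instance
  Fintype.ofFinite _

noncomputable instance {n : ℕ} (d : Fin n → ℕ) : DecidableEq (Realiz d) := Classical.decEq _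

/-- `F` is a perfect matching of the complete graph on the vertex set `S`. -/
def IsPM {n : ℕ} (S : Finset (Fin n)) (F : Finset (Sym2 (Fin n))) : Prop :=
  (∀ e ∈ F, ¬ e.IsDiag ∧ ∀ v ∈ e, v ∈ S) ∧ ∀ v ∈ S, ∃! e, e ∈ F ∧ v ∈ e

open Classical in
/-- the set of perfect matchings of the complete graph on `S` -/
noncomputable def pms {n : ℕ} (S : Finset (Fin n)) : Finset (Finset (Sym2 (Fin n))) :=
  univ.filter (fun F => IsPM S F)

open Classical in
/-- The graph reached from `G` when the pair `(F, F')` is proposed: if all edges of `F` are present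
and all edges of `F'` are absent, `F` is replaced by `F'`; otherwise `G` is kept. -/
noncomputable def propose {n : ℕ} (G : SimpleGraph (Fin n)) (F F' : Finset (Sym2 (Fin n))) :
    SimpleGraph (Fin n) :=
  if (∀ e ∈ F, e ∈ G.edgeSet) ∧ (∀ e ∈ F', e ∉ G.edgeSet) then
    SimpleGraph.fromEdgeSet ((G.edgeSet \ (F : Set (Sym2 (Fin n)))) ∪ (F' : Set (Sym2 (Fin n))))
  else G

open Classical in
/-- The transition matrix of the lazy switch chain: with probability `1/2` stay put; otherwise choose
a uniform 4-subset `S` and a uniform ordered pair `(F, F')` of distinct perfect matchings of `S`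
(there are six of them), and move to `propose G F F'`. -/
noncomputable def switchP {n : ℕ} (d : Fin n → ℕ) : Matrix (Realiz d) (Realiz d) ℝ :=
  fun G H => (1 / 2) * (if H = G then 1 else 0) +
    (1 / 2) * ∑ S ∈ powersetCard 4 (univ : Finset (Fin n)), (1 / (n.choose 4 : ℝ)) *
      ∑ F ∈ pms S, ∑ F' ∈ (pms S).erase F, (1 / 6) * (if H.1 = propose G.1 F F' then 1 else 0)

/-- `mixed d t`: from every starting graph, the law of the switch chain at time `t` is within total
variation distance `1/4` of the uniform distribution on the realizations of `d`. -/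
def mixed {n : ℕ} (d : Fin n → ℕ) (t : ℕ) : Prop :=
  ∀ G : Realiz d, (1 / 2 : ℝ) * ∑ H : Realiz d,
    |(switchP d ^ t) G H - 1 / (Fintype.card (Realiz d) : ℝ)| ≤ 1 / 4

/-- the mixing time of the switch chain -/
noncomputable def tmix {n : ℕ} (d : Fin n → ℕ) : ℕ := sInf {t | mixed d t}

end Vale.Agent.Lib.P335
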