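import Vale.Agent.Lib.P335.Chain

/-!
# P335 : elementary properties of the switch chain
-/

open Finset

namespace Vale.Agent.Lib.P335

theorem IsPM.other {n : ℕ} {S : Finset (Fin n)} {F : Finset (Sym2 (Fin n))} (h : IsPM S F)
    {i : Fin n} (hi : i ∈ S) : ∃ x, x ∈ S ∧ x ≠ i ∧ s(i, x) ∈ F ∧ ∀ y, s(i, y) ∈ F → y = x := by
  obtain ⟨e, ⟨he, hie⟩, hu⟩ := h.2 i hi
  obtain ⟨x, rfl⟩ := Sym2.mem_iff_exists.mp hie
  have h1 := h.1 _ he
  refine ⟨x, h1.2 x (Sym2.mem_mk_right i x), ?_, he, ?_⟩
  · rintro rfl
    exact h1.1 (by simp)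
  · intro y hy
    have := hu s(i, y) ⟨hy, Sym2.mem_mk_left i y⟩
    have h2 := Sym2.congr_right.mp this
    exact h2

theorem IsPM.mem {n : ℕ} {S : Finset (Fin n)} {F : Finset (Sym2 (Fin n))} (h : IsPM S F)
    {i x : Fin n} (hx : s(i, x) ∈ F) : i ∈ S ∧ x ∈ S ∧ i ≠ x := by
  have h1 := h.1 _ hx
  refine ⟨h1.2 i (Sym2.mem_mk_left i x), h1.2 x (Sym2.mem_mk_right i x), ?_⟩
  rintro rfl
  exact h1.1 (by simp)

theorem isPM_pair {n : ℕ} {a b c d : Fin n} (hab : a ≠ b) (hac : a ≠ c) (had : a ≠ d) (hbc : b ≠ c)
    (hbd : b ≠ d) (hcd : c ≠ d) :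
    IsPM ({a, b, c, d} : Finset (Fin n)) {s(a, b), s(c, d)} := by
  constructor
  · intro e he
    simp only [mem_insert, mem_singleton] at he
    rcases he with rfl | rfl
    · refine ⟨by simpa using hab, ?_⟩
      intro v hv
      simp only [Sym2.mem_iff] at hv
      rcases hv with rfl | rfl <;> simp
    · refine ⟨by simpa using hcd, ?_⟩
      intro v hv
      simp only [Sym2.mem_iff] at hv
      rcases hv with rfl | rfl <;> simp
  · intro v hv
    simp only [mem_insert, mem_singleton] at hv
    rcases hv with rfl | rfl | rfl | rfl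
    · refine ⟨s(v, b), ⟨by simp, by simp⟩, ?_⟩
      rintro e ⟨he, hve⟩
      simp only [mem_insert, mem_singleton] at he
      rcases he with rfl | rfl
      · rfl
      · exfalso
        simp only [Sym2.mem_iff] at hve
        rcases hve with h | h
        · exact hac h
        · exact had h
    · refine ⟨s(a, v), ⟨by simp, by simp⟩, ?_⟩
      rintro e ⟨he, hve⟩
      simp only [mem_insert, mem_singleton] at he
      rcases he with rfl | rfl
      · rfl
      · exfalso
        simp only [Sym2.mem_iff] at hve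
        rcases hve with h | h
        · exact hbc h
        · exact hbd h
    · refine ⟨s(v, d), ⟨by simp, by simp⟩, ?_⟩
      rintro e ⟨he, hve⟩
      simp only [mem_insert, mem_singleton] at he
      rcases he with rfl | rfl
      · exfalso
        simp only [Sym2.mem_iff] at hve
        rcases hve with h | h
        · exact hac h.symm
        · exact hbc h.symm
      · rfl
    · refine ⟨s(c, v), ⟨by simp, by simp⟩, ?_⟩
      rintro e ⟨he, hve⟩
      simp only [mem_insert, mem_singleton] at he
      rcases he with rfl | rfl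
      · exfalso
        simp only [Sym2.mem_iff] at hve
        rcases hve with h | h
        · exact had h.symm
        · exact hbd h.symm
      · rfl

/-- a perfect matching of `{a,b,c,d}` containing `ab` is `{ab, cd}` -/
theorem isPM_eq {n : ℕ} {a b c d : Fin n} (hab : a ≠ b) (hac : a ≠ c) (had : a ≠ d) (hbc : b ≠ c)
    (hbd : b ≠ d) (hcd : c ≠ d) {F : Finset (Sym2 (Fin n))}
    (h : IsPM ({a, b, c, d} : Finset (Fin n)) F) (hF : s(a, b) ∈ F) :
    F = {s(a, b), s(c, d)} := by
  have hua : ∀ y, s(a, y) ∈ F → y = b := by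
    obtain ⟨x, _, _, _, hx⟩ := h.other (i := a) (by simp)
    intro y hy
    rw [hx y hy, hx b hF]
  have hub : ∀ y, s(b, y) ∈ F → y = a := by
    obtain ⟨x, _, _, _, hx⟩ := h.other (i := b) (by simp)
    intro y hy
    rw [hx y hy, hx a (by rw [Sym2.eq_swap]; exact hF)]
  obtain ⟨x, hxS, hxc, hxF, hux⟩ := h.other (i := c) (by simp)
  have hxd : x = d := by
    simp only [mem_insert, mem_singleton] at hxS
    rcases hxS with rfl | rfl | rfl | rfl
    · exact absurd (hua c (by rw [Sym2.eq_swap]; exact hxF)) hbc.symm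
    · exact absurd (hub c (by rw [Sym2.eq_swap]; exact hxF)) hac.symm
    · exact absurd rfl hxc
    · rfl
  subst hxd
  have hud : ∀ y, s(x, y) ∈ F → y = c := by
    obtain ⟨z, _, _, _, hz⟩ := h.other (i := x) (by simp)
    intro y hy
    rw [hz y hy, hz c (by rw [Sym2.eq_swap]; exact hxF)]
  ext e
  simp only [mem_insert, mem_singleton]
  constructor
  · intro he
    induction e using Sym2.ind with
    | _ p q =>
      have hp := (h.mem he).1
      simp only [mem_insert, mem_singleton] at hp
      rcases hp with rfl | rfl | rfl | rfl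
      · left; rw [hua q he]
      · left; rw [hub q he, Sym2.eq_swap]
      · right; rw [hux q he]
      · right; rw [hud q he, Sym2.eq_swap]
  · rintro (rfl | rfl)
    · exact hF
    · exact hxF

theorem card_pms {n : ℕ} (S : Finset (Fin n)) (hS : S.card = 4) : (pms S).card = 3 := by
  classical
  obtain ⟨a, T, haT, rfl, hT⟩ := Finset.card_eq_succ.mp hS
  obtain ⟨b, c, d, hbc, hbd, hcd, rfl⟩ := Finset.card_eq_three.mp hT
  simp only [mem_insert, mem_singleton, not_or] at haT
  obtain ⟨hab, hac, had⟩ := haT
  have key : pms ({a, b, c, d} : Finset (Fin n)) =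
      {({s(a, b), s(c, d)} : Finset (Sym2 (Fin n))), {s(a, c), s(b, d)}, {s(a, d), s(b, c)}} := by
    ext F
    simp only [pms, mem_filter, mem_univ, true_and, mem_insert, mem_singleton]
    constructor
    · intro h
      obtain ⟨x, hxS, hxa, hxF, _⟩ := h.other (i := a) (by simp)
      simp only [mem_insert, mem_singleton] at hxS
      rcases hxS with rfl | rfl | rfl | rfl
      · exact absurd rfl hxa
      · left; exact isPM_eq hab hac had hbc hbd hcd h hxF
      · right; left
        have h' : IsPM ({a, x, b, d} : Finset (Fin n)) F := by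
          have : ({a, x, b, d} : Finset (Fin n)) = {a, b, x, d} := by
            ext t; simp only [mem_insert, mem_singleton]; tauto
          rw [this]; exact h
        exact isPM_eq hac hab had hbc.symm hcd hbd h' hxF
      · right; right
        have h' : IsPM ({a, x, b, c} : Finset (Fin n)) F := by
          have : ({a, x, b, c} : Finset (Fin n)) = {a, b, c, x} := by
            ext t; simp only [mem_insert, mem_singleton]; tauto
          rw [this]; exact h
        exact isPM_eq had hab hac hbd.symm hcd.symm hbc h' hxF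
    · rintro (rfl | rfl | rfl)
      · exact isPM_pair hab hac had hbc hbd hcd
      · have : ({a, b, c, d} : Finset (Fin n)) = {a, c, b, d} := by
          ext t; simp only [mem_insert, mem_singleton]; tauto
        rw [this]
        exact isPM_pair hac hab had hbc.symm hcd hbd
      · have : ({a, b, c, d} : Finset (Fin n)) = {a, d, b, c} := by
          ext t; simp only [mem_insert, mem_singleton]; tauto
        rw [this]
        exact isPM_pair had hab hac hbd.symm hcd.symm hbc
  have h12 : ({s(a, b), s(c, d)} : Finset (Sym2 (Fin n))) ≠ {s(a, c), s(b, d)} := by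
    intro h
    have : s(a, b) ∈ ({s(a, c), s(b, d)} : Finset (Sym2 (Fin n))) := by rw [← h]; simp
    simp only [mem_insert, mem_singleton, Sym2.eq_iff] at this
    tauto
  have h13 : ({s(a, b), s(c, d)} : Finset (Sym2 (Fin n))) ≠ {s(a, d), s(b, c)} := by
    intro h
    have : s(a, b) ∈ ({s(a, d), s(b, c)} : Finset (Sym2 (Fin n))) := by rw [← h]; simp
    simp only [mem_insert, mem_singleton, Sym2.eq_iff] at this
    tauto
  have h23 : ({s(a, c), s(b, d)} : Finset (Sym2 (Fin n))) ≠ {s(a, d), s(b, c)} := by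
    intro h
    have : s(a, c) ∈ ({s(a, d), s(b, c)} : Finset (Sym2 (Fin n))) := by rw [← h]; simp
    simp only [mem_insert, mem_singleton, Sym2.eq_iff] at this
    rcases this with (⟨_, h⟩ | ⟨h, _⟩) | (⟨h, _⟩ | ⟨h, h'⟩)
    · exact hcd h
    · exact had h
    · exact hab h
    · exact hac h
  rw [key, Finset.card_eq_three]
  exact ⟨_, _, _, h12, h13, h23, rfl⟩

theorem mem_pms {n : ℕ} {S : Finset (Fin n)} {F : Finset (Sym2 (Fin n))} :
    F ∈ pms S ↔ IsPM S F := by
  classical
  simp [pms]

theorem edgeSet_propose {n : ℕ} {S : Finset (Fin n)} {F F' : Finset (Sym2 (Fin n))}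
    (hF' : IsPM S F') (G : SimpleGraph (Fin n))
    (hc : (∀ e ∈ F, e ∈ G.edgeSet) ∧ (∀ e ∈ F', e ∉ G.edgeSet)) :
    (propose G F F').edgeSet =
      (G.edgeSet \ (F : Set (Sym2 (Fin n)))) ∪ (F' : Set (Sym2 (Fin n))) := by
  unfold propose
  rw [if_pos hc, SimpleGraph.edgeSet_fromEdgeSet]
  ext e
  simp only [Set.mem_sdiff, Set.mem_union, mem_coe]
  constructor
  · rintro ⟨h, _⟩; exact h
  · intro h
    refine ⟨h, ?_⟩
    rcases h with h | h
    · have := G.not_isDiag_of_mem_edgeSet h.1
      simpa using this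
    · have := (hF'.1 e h).1
      simpa using this

theorem propose_symm {n : ℕ} {S : Finset (Fin n)} {F F' : Finset (Sym2 (Fin n))}
    (hF : IsPM S F) (hF' : IsPM S F') (G H : SimpleGraph (Fin n)) (hGH : G ≠ H)
    (h : H = propose G F F') : G = propose H F' F := by
  classical
  by_cases hc : (∀ e ∈ F, e ∈ G.edgeSet) ∧ (∀ e ∈ F', e ∉ G.edgeSet)
  · have hE : H.edgeSet = (G.edgeSet \ (F : Set (Sym2 (Fin n)))) ∪ (F' : Set (Sym2 (Fin n))) := by
      rw [h]; exact edgeSet_propose hF' G hc
    have hc' : (∀ e ∈ F', e ∈ H.edgeSet) ∧ (∀ e ∈ F, e ∉ H.edgeSet) := by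
      constructor
      · intro e he
        rw [hE]; right; exact he
      · intro e he he'
        rw [hE] at he'
        rcases he' with he' | he'
        · exact he'.2 he
        · exact hc.2 e he' (hc.1 e he)
    have hE2 := edgeSet_propose hF H hc'
    apply SimpleGraph.edgeSet_injective
    rw [hE2, hE]
    ext e
    simp only [Set.mem_union, Set.mem_sdiff, mem_coe]
    constructor
    · intro he
      by_cases heF : e ∈ F
      · right; exact heF
      · left
        exact ⟨Or.inl ⟨he, heF⟩, fun he' => hc.2 e he' he⟩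
    · rintro (⟨h1 | h1, h2⟩ | h1)
      · exact h1.1
      · exact absurd h1 h2
      · exact hc.1 e h1
  · exfalso
    apply hGH
    rw [h]
    unfold propose
    rw [if_neg hc]

theorem propose_symm_iff {n : ℕ} {S : Finset (Fin n)} {F F' : Finset (Sym2 (Fin n))}
    (hF : IsPM S F) (hF' : IsPM S F') (G H : SimpleGraph (Fin n)) (hGH : G ≠ H) :
    H = propose G F F' ↔ G = propose H F' F :=
  ⟨propose_symm hF hF' G H hGH, propose_symm hF' hF H G hGH.symm⟩

theorem sum_erase_swap {ι : Type} [DecidableEq ι] (s : Finset ι) (φ : ι → ι → ℝ) :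
    ∑ a ∈ s, ∑ b ∈ s.erase a, φ a b = ∑ a ∈ s, ∑ b ∈ s.erase a, φ b a := by
  rw [Finset.sum_comm' (s := s) (t := fun a => s.erase a) (t' := s) (s' := fun a => s.erase a)]
  intro x y
  simp only [mem_erase]
  tauto

theorem switchP_symm {n : ℕ} (d : Fin n → ℕ) (G H : Realiz d) :
    switchP d G H = switchP d H G := by
  classical
  by_cases hGH : G = H
  · rw [hGH]
  · have hGH' : G.1 ≠ H.1 := fun h => hGH (Subtype.ext h)
    unfold switchP
    rw [if_neg (fun h => hGH h.symm), if_neg hGH]
    congr 2
    apply sum_congr rfl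
    intro S hS
    congr 1
    rw [sum_erase_swap (pms S) (fun F F' => (1 / 6 : ℝ) * (if G.1 = propose H.1 F F' then 1 else 0))]
    apply sum_congr rfl
    intro F hF
    apply sum_congr rfl
    intro F' hF'
    rw [mem_erase, mem_pms] at hF'
    rw [mem_pms] at hF
    congr 1
    by_cases h : H.1 = propose G.1 F F'
    · rw [if_pos h, if_pos ((propose_symm_iff hF hF'.2 _ _ hGH').mp h)]
    · rw [if_neg h, if_neg (fun h' => h ((propose_symm_iff hF hF'.2 _ _ hGH').mpr h'))]

/-- proposals preserve the degrees -/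
theorem propose_degree {n : ℕ} {S : Finset (Fin n)} {F F' : Finset (Sym2 (Fin n))}
    (hF : IsPM S F) (hF' : IsPM S F') (G : SimpleGraph (Fin n)) (i : Fin n) :
    ((propose G F F').neighborSet i).ncard = (G.neighborSet i).ncard := by
  classical
  by_cases hc : (∀ e ∈ F, e ∈ G.edgeSet) ∧ (∀ e ∈ F', e ∉ G.edgeSet)
  · have hE := edgeSet_propose hF' G hc
    have hadj : ∀ j, (propose G F F').Adj i j ↔ (G.Adj i j ∧ s(i, j) ∉ F) ∨ s(i, j) ∈ F' := by
      intro j
      rw [← SimpleGraph.mem_edgeSet, hE]
      simp [Set.mem_union]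
    by_cases hi : i ∈ S
    · obtain ⟨x, hxS, hxi, hxF, hux⟩ := hF.other hi
      obtain ⟨y, hyS, hyi, hyF, huy⟩ := hF'.other hi
      have hx : G.Adj i x := by
        have := hc.1 _ hxF
        rwa [SimpleGraph.mem_edgeSet] at this
      have hy : ¬ G.Adj i y := by
        have := hc.2 _ hyF
        rwa [SimpleGraph.mem_edgeSet] at this
      have hN : (propose G F F').neighborSet i = insert y (G.neighborSet i \ {x}) := by
        ext j
        rw [SimpleGraph.mem_neighborSet, hadj]
        simp only [Set.mem_insert_iff, Set.mem_sdiff, SimpleGraph.mem_neighborSet,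
          Set.mem_singleton_iff]
        constructor
        · rintro (⟨h1, h2⟩ | h1)
          · right
            refine ⟨h1, ?_⟩
            rintro rfl
            exact h2 hxF
          · left; exact huy j h1
        · rintro (rfl | ⟨h1, h2⟩)
          · right; exact hyF
          · left
            exact ⟨h1, fun h => h2 (hux j h)⟩
      rw [hN]
      exact Set.ncard_exchange (by rwa [SimpleGraph.mem_neighborSet]) (by rwa [SimpleGraph.mem_neighborSet])
    · have hN : (propose G F F').neighborSet i = G.neighborSet i := by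
        ext j
        rw [SimpleGraph.mem_neighborSet, hadj, SimpleGraph.mem_neighborSet]
        constructor
        · rintro (⟨h1, _⟩ | h1)
          · exact h1
          · exact absurd (hF'.mem h1).1 hi
        · intro h1
          left
          exact ⟨h1, fun h => hi (hF.mem h).1⟩
      rw [hN]
  · unfold propose
    rw [if_neg hc]

theorem exists_propose {n : ℕ} (d : Fin n → ℕ) (G : Realiz d) {S : Finset (Fin n)}
    {F F' : Finset (Sym2 (Fin n))} (hF : IsPM S F) (hF' : IsPM S F') :
    ∃ H : Realiz d, H.1 = propose G.1 F F' :=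
  ⟨⟨propose G.1 F F', fun i => (propose_degree hF hF' G.1 i).trans (G.2 i)⟩, rfl⟩

open Classical in
theorem sum_propose {n : ℕ} (d : Fin n → ℕ) (G : Realiz d) {S : Finset (Fin n)}
    {F F' : Finset (Sym2 (Fin n))} (hF : IsPM S F) (hF' : IsPM S F') :
    ∑ H : Realiz d, (if H.1 = propose G.1 F F' then (1 : ℝ) else 0) = 1 := by
  obtain ⟨H₀, hH₀⟩ := exists_propose d G hF hF'
  rw [Finset.sum_eq_single H₀]
  · rw [if_pos hH₀]
  · intro H _ hne
    rw [if_neg]
    intro h
    exact hne (Subtype.ext (h.trans hH₀.symm))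
  · intro h
    exact absurd (mem_univ _) h

theorem switchP_row {n : ℕ} (hn : 4 ≤ n) (d : Fin n → ℕ) (G : Realiz d) :
    ∑ H, switchP d G H = 1 := by
  classical
  unfold switchP
  rw [Finset.sum_add_distrib, ← Finset.mul_sum, ← Finset.mul_sum]
  have h1 : ∑ H : Realiz d, (if H = G then (1 : ℝ) else 0) = 1 := by
    rw [Finset.sum_ite_eq' univ G (fun _ => (1 : ℝ))]
    simp
  rw [h1, Finset.sum_comm]
  have h2 : ∀ S ∈ powersetCard 4 (univ : Finset (Fin n)),
      ∑ H : Realiz d, (1 / (n.choose 4 : ℝ)) *
        ∑ F ∈ pms S, ∑ F' ∈ (pms S).erase F, (1 / 6) * (if H.1 = propose G.1 F F' then 1 else 0) =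
      1 / (n.choose 4 : ℝ) := by
    intro S hS
    rw [mem_powersetCard] at hS
    have hc := card_pms S hS.2
    rw [← Finset.mul_sum, Finset.sum_comm]
    have h3 : ∀ F ∈ pms S, ∑ H : Realiz d, ∑ F' ∈ (pms S).erase F,
        (1 / 6 : ℝ) * (if H.1 = propose G.1 F F' then 1 else 0) = 1 / 3 := by
      intro F hF
      rw [Finset.sum_comm]
      have h4 : ∀ F' ∈ (pms S).erase F, ∑ H : Realiz d,
          (1 / 6 : ℝ) * (if H.1 = propose G.1 F F' then 1 else 0) = 1 / 6 := by
        intro F' hF'
        rw [← Finset.mul_sum, sum_propose d G (mem_pms.mp hF) (mem_pms.mp (mem_of_mem_erase hF'))]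
        norm_num
      rw [Finset.sum_congr rfl h4, Finset.sum_const, Finset.card_erase_of_mem hF, hc]
      norm_num
    rw [Finset.sum_congr rfl h3, Finset.sum_const, hc]
    norm_num
  rw [Finset.sum_congr rfl h2, Finset.sum_const, Finset.card_powersetCard, Finset.card_univ,
    Fintype.card_fin]
  have hpos : (n.choose 4 : ℝ) ≠ 0 := by
    have := Nat.choose_pos hn
    positivity
  rw [nsmul_eq_mul]
  field_simp
  norm_num

theorem second_nonneg {n : ℕ} (d : Fin n → ℕ) (G H : Realiz d) :
    (1 / 2 : ℝ) * (if H = G then 1 else 0) ≤ switchP d G H := by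
  classical
  unfold switchP
  have : (0 : ℝ) ≤ (1 / 2) * ∑ S ∈ powersetCard 4 (univ : Finset (Fin n)), (1 / (n.choose 4 : ℝ)) *
      ∑ F ∈ pms S, ∑ F' ∈ (pms S).erase F, (1 / 6) * (if H.1 = propose G.1 F F' then 1 else 0) := by
    apply mul_nonneg (by norm_num)
    apply Finset.sum_nonneg
    intro S _
    apply mul_nonneg (by positivity)
    apply Finset.sum_nonneg
    intro F _
    apply Finset.sum_nonneg
    intro F' _
    apply mul_nonneg (by norm_num)
    split_ifs <;> norm_num
  linarith

theorem switchP_nonneg {n : ℕ} (d : Fin n → ℕ) (G H : Realiz d) : 0 ≤ switchP d G H := by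
  have h := second_nonneg d G H
  refine le_trans ?_ h
  apply mul_nonneg (by norm_num)
  split_ifs <;> norm_num

theorem switchP_lazy {n : ℕ} (d : Fin n → ℕ) (G : Realiz d) : 1 / 2 ≤ switchP d G G := by
  have h := second_nonneg d G G
  rw [if_pos rfl] at h
  linarith

theorem card_realiz {n : ℕ} (d : Fin n → ℕ) : Fintype.card (Realiz d) ≤ 2 ^ (n ^ 2) := by
  classical
  have h : Fintype.card (Realiz d) ≤ Fintype.card (Fin n × Fin n → Bool) := by
    apply Fintype.card_le_of_injective (fun G p => decide (G.1.Adj p.1 p.2))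
    intro G H h
    apply Subtype.ext
    ext i j
    have := congrFun h (i, j)
    simpa using this
  refine h.trans ?_
  simp [Fintype.card_prod, sq]

end Vale.Agent.Lib.P335
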