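import Mathlib

/-!
# P335 : mixing of a lazy symmetric chain from a Poincaré inequality (module Mix)
-/

open Finset

namespace Vale.Agent.Lib.P335

variable {Ω : Type} [Fintype Ω] [DecidableEq Ω]

lemma mix_col (P : Matrix Ω Ω ℝ) (hsym : ∀ x y, P x y = P y x) (hrow : ∀ x, ∑ y, P x y = 1)
    (y : Ω) : ∑ x, P x y = 1 := by
  rw [← hrow y]
  exact Finset.sum_congr rfl fun x _ => hsym x y

lemma mix_sum (P : Matrix Ω Ω ℝ) (hsym : ∀ x y, P x y = P y x) (hrow : ∀ x, ∑ y, P x y = 1)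
    (f : Ω → ℝ) : ∑ x, (P.mulVec f) x = ∑ x, f x := by
  simp only [Matrix.mulVec, dotProduct]
  rw [Finset.sum_comm]
  refine Finset.sum_congr rfl fun y _ => ?_
  rw [← Finset.sum_mul, mix_col P hsym hrow, one_mul]

/-- a symmetric stochastic matrix is a contraction in `ℓ²` -/
lemma mix_contr (P : Matrix Ω Ω ℝ) (hsym : ∀ x y, P x y = P y x) (hrow : ∀ x, ∑ y, P x y = 1)
    (hnn : ∀ x y, 0 ≤ P x y) (f : Ω → ℝ) : ∑ x, (P.mulVec f x) ^ 2 ≤ ∑ x, f x ^ 2 := by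
  have h1 : ∀ x, (P.mulVec f x) ^ 2 ≤ ∑ y, P x y * f y ^ 2 := by
    intro x
    simp only [Matrix.mulVec, dotProduct]
    have hcs := Finset.sum_mul_sq_le_sq_mul_sq (univ : Finset Ω) (fun y => Real.sqrt (P x y))
      (fun y => Real.sqrt (P x y) * f y)
    have e1 : ∀ y, Real.sqrt (P x y) * (Real.sqrt (P x y) * f y) = P x y * f y := fun y => by
      rw [← mul_assoc, Real.mul_self_sqrt (hnn x y)]
    have e2 : ∀ y, Real.sqrt (P x y) ^ 2 = P x y := fun y => Real.sq_sqrt (hnn x y)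
    have e3 : ∀ y, (Real.sqrt (P x y) * f y) ^ 2 = P x y * f y ^ 2 := fun y => by
      rw [mul_pow, e2]
    simp only [e1, e2, e3, hrow, one_mul] at hcs
    exact hcs
  calc ∑ x, (P.mulVec f x) ^ 2 ≤ ∑ x, ∑ y, P x y * f y ^ 2 := Finset.sum_le_sum fun x _ => h1 x
    _ = ∑ y, ∑ x, P x y * f y ^ 2 := Finset.sum_comm
    _ = ∑ y, f y ^ 2 := by
        refine Finset.sum_congr rfl fun y _ => ?_
        rw [← Finset.sum_mul, mix_col P hsym hrow, one_mul]

/-- Dirichlet form -/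
lemma mix_dir (P : Matrix Ω Ω ℝ) (hsym : ∀ x y, P x y = P y x) (hrow : ∀ x, ∑ y, P x y = 1)
    (f : Ω → ℝ) : ∑ x, ∑ y, P x y * (f x - f y) ^ 2 / 2 =
      ∑ x, f x ^ 2 - ∑ x, P.mulVec f x * f x := by
  have e1 : ∀ x, ∑ y, P x y * (f x - f y) ^ 2 / 2 =
      f x ^ 2 / 2 + (∑ y, P x y * f y ^ 2) / 2 - P.mulVec f x * f x := by
    intro x
    simp only [Matrix.mulVec, dotProduct]
    have h2 : f x ^ 2 / 2 = (∑ y, P x y) * f x ^ 2 / 2 := by rw [hrow, one_mul]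
    rw [h2, Finset.sum_mul, Finset.sum_div, Finset.sum_div, Finset.sum_mul,
      ← Finset.sum_add_distrib, ← Finset.sum_sub_distrib]
    refine Finset.sum_congr rfl fun y _ => ?_
    ring
  simp only [e1]
  rw [Finset.sum_sub_distrib, Finset.sum_add_distrib, ← Finset.sum_div, ← Finset.sum_div,
    Finset.sum_comm]
  have h3 : ∑ y, ∑ x, P x y * f y ^ 2 = ∑ y, f y ^ 2 := by
    refine Finset.sum_congr rfl fun y _ => ?_
    rw [← Finset.sum_mul, mix_col P hsym hrow, one_mul]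
  rw [h3]
  ring

/-- laziness: `|P f|² ≤ ⟨P f, f⟩` -/
lemma mix_lazy (P : Matrix Ω Ω ℝ) (hsym : ∀ x y, P x y = P y x) (hrow : ∀ x, ∑ y, P x y = 1)
    (hnn : ∀ x y, 0 ≤ P x y) (hlazy : ∀ x, 1 / 2 ≤ P x x) (f : Ω → ℝ) :
    ∑ x, (P.mulVec f x) ^ 2 ≤ ∑ x, P.mulVec f x * f x := by
  set P' : Matrix Ω Ω ℝ := fun x y => 2 * P x y - (if x = y then 1 else 0) with hP'
  have hsym' : ∀ x y, P' x y = P' y x := by
    intro x y
    simp only [hP', hsym x y, eq_comm]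
  have hrow' : ∀ x, ∑ y, P' x y = 1 := by
    intro x
    simp only [hP']
    rw [Finset.sum_sub_distrib, ← Finset.mul_sum, hrow]
    simp
    norm_num
  have hnn' : ∀ x y, 0 ≤ P' x y := by
    intro x y
    simp only [hP']
    split_ifs with h
    · subst h
      have := hlazy x
      linarith
    · have := hnn x y
      linarith
  have h1 := mix_contr P' hsym' hrow' hnn' f
  have h2 : ∀ x, P'.mulVec f x = 2 * P.mulVec f x - f x := by
    intro x
    simp only [Matrix.mulVec, dotProduct, hP', sub_mul, Finset.sum_sub_distrib, mul_assoc,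
      ← Finset.mul_sum]
    simp
  simp only [h2] at h1
  have h3 : ∑ x, (2 * P.mulVec f x - f x) ^ 2 =
      4 * ∑ x, (P.mulVec f x) ^ 2 - 4 * ∑ x, P.mulVec f x * f x + ∑ x, f x ^ 2 := by
    rw [Finset.mul_sum, Finset.mul_sum, ← Finset.sum_sub_distrib, ← Finset.sum_add_distrib]
    refine Finset.sum_congr rfl fun x _ => ?_
    ring
  rw [h3] at h1
  linarith

lemma mix_step (P : Matrix Ω Ω ℝ) (hsym : ∀ x y, P x y = P y x) (hrow : ∀ x, ∑ y, P x y = 1)
    (hnn : ∀ x y, 0 ≤ P x y) (hlazy : ∀ x, 1 / 2 ≤ P x x) (C : ℝ) (hC : 0 < C)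
    (hgap : ∀ f : Ω → ℝ, ∑ x, f x = 0 →
      ∑ x, f x ^ 2 ≤ C * (∑ x, ∑ y, P x y * (f x - f y) ^ 2 / 2)) (f : Ω → ℝ)
    (hf : ∑ x, f x = 0) :
    ∑ x, (P.mulVec f x) ^ 2 ≤ Real.exp (-(1 / C)) * ∑ x, f x ^ 2 := by
  have h1 := mix_lazy P hsym hrow hnn hlazy f
  have h2 := hgap f hf
  rw [mix_dir P hsym hrow] at h2
  have h3 : (∑ x, f x ^ 2) / C ≤ ∑ x, f x ^ 2 - ∑ x, P.mulVec f x * f x := by
    rw [div_le_iff₀ hC]
    linarith
  have h4 : 1 - 1 / C ≤ Real.exp (-(1 / C)) := by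
    have := Real.add_one_le_exp (-(1 / C))
    linarith
  have h5 : 0 ≤ ∑ x, f x ^ 2 := Finset.sum_nonneg fun x _ => sq_nonneg _
  have h6 := mul_le_mul_of_nonneg_right h4 h5
  have h7 : (1 - 1 / C) * ∑ x, f x ^ 2 = ∑ x, f x ^ 2 - (∑ x, f x ^ 2) / C := by ring
  linarith

lemma mix_pow (P : Matrix Ω Ω ℝ) (hsym : ∀ x y, P x y = P y x) (hrow : ∀ x, ∑ y, P x y = 1)
    (hnn : ∀ x y, 0 ≤ P x y) (hlazy : ∀ x, 1 / 2 ≤ P x x) (C : ℝ) (hC : 0 < C)
    (hgap : ∀ f : Ω → ℝ, ∑ x, f x = 0 →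
      ∑ x, f x ^ 2 ≤ C * (∑ x, ∑ y, P x y * (f x - f y) ^ 2 / 2)) (f : Ω → ℝ)
    (hf : ∑ x, f x = 0) (t : ℕ) :
    ∑ x, ((P ^ t).mulVec f) x = 0 ∧
      ∑ x, ((P ^ t).mulVec f x) ^ 2 ≤ Real.exp (-(t / C)) * ∑ x, f x ^ 2 := by
  induction t with
  | zero => simp [hf]
  | succ t ih =>
    have e : (P ^ (t + 1)).mulVec f = P.mulVec ((P ^ t).mulVec f) := by
      rw [pow_succ', Matrix.mulVec_mulVec]
    rw [e]
    refine ⟨by rw [mix_sum P hsym hrow]; exact ih.1, ?_⟩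
    refine (mix_step P hsym hrow hnn hlazy C hC hgap _ ih.1).trans ?_
    have h1 := mul_le_mul_of_nonneg_left ih.2 (Real.exp_pos (-(1 / C))).le
    refine h1.trans (le_of_eq ?_)
    rw [← mul_assoc, ← Real.exp_add]
    congr 2
    push_cast
    ring

theorem mixing {Ω : Type} [Fintype Ω] [DecidableEq Ω] [Nonempty Ω] (P : Matrix Ω Ω ℝ)
    (hsym : ∀ x y, P x y = P y x) (hrow : ∀ x, ∑ y, P x y = 1) (hnn : ∀ x y, 0 ≤ P x y)
    (hlazy : ∀ x, 1 / 2 ≤ P x x) (C : ℝ) (hC : 0 < C)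
    (hgap : ∀ f : Ω → ℝ, ∑ x, f x = 0 →
      ∑ x, f x ^ 2 ≤ C * (∑ x, ∑ y, P x y * (f x - f y) ^ 2 / 2))
    (t : ℕ) (ht : C * Real.log (4 * Fintype.card Ω) ≤ t) (x : Ω) :
    (1 / 2) * ∑ y, |(P ^ t) x y - 1 / (Fintype.card Ω : ℝ)| ≤ 1 / 4 := by
  set N : ℝ := (Fintype.card Ω : ℝ) with hN
  have hNpos : 0 < N := by
    rw [hN]
    exact_mod_cast Fintype.card_pos
  set f : Ω → ℝ := fun y => (if y = x then 1 else 0) - 1 / N with hf
  have hfs : ∑ y, f y = 0 := by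
    simp only [hf, Finset.sum_sub_distrib, Finset.sum_ite_eq', Finset.mem_univ, if_true,
      Finset.sum_const, Finset.card_univ, nsmul_eq_mul]
    rw [← hN]
    field_simp
    ring
  have hf2 : ∑ y, f y ^ 2 ≤ 1 := by
    have e1 : ∀ y, f y ^ 2 = (if y = x then 1 - 2 / N else 0) + 1 / N ^ 2 := by
      intro y
      simp only [hf]
      split_ifs
      · ring
      · ring
    simp only [e1, Finset.sum_add_distrib, Finset.sum_ite_eq', Finset.mem_univ, if_true,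
      Finset.sum_const, Finset.card_univ, nsmul_eq_mul]
    rw [← hN]
    have e2 : N * (1 / N ^ 2) = 1 / N := by field_simp
    rw [e2]
    have : 0 < 1 / N := by positivity
    have e3 : 2 / N = 2 * (1 / N) := by ring
    rw [e3]
    linarith
  have hmain := mix_pow P hsym hrow hnn hlazy C hC hgap f hfs t
  -- symmetric powers
  have hsymt : ∀ (s : ℕ) (y z : Ω), (P ^ s) y z = (P ^ s) z y := by
    intro s
    have h1 : P.transpose = P := by
      ext y z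
      exact hsym z y
    intro y z
    have h2 : (P ^ s).transpose = P ^ s := by rw [Matrix.transpose_pow, h1]
    exact congrFun (congrFun h2 z) y |>.symm ▸ rfl
  have hrowt : ∀ (s : ℕ) (y : Ω), ∑ z, (P ^ s) y z = 1 := by
    intro s
    induction s with
    | zero => intro y; simp [Matrix.one_apply]
    | succ s ih =>
      intro y
      rw [pow_succ']
      simp only [Matrix.mul_apply]
      rw [Finset.sum_comm]
      simp only [← Finset.mul_sum, ih, mul_one, hrow]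
  have hval : ∀ y, (P ^ t).mulVec f y = (P ^ t) x y - 1 / N := by
    intro y
    simp only [Matrix.mulVec, dotProduct, hf, mul_sub, Finset.sum_sub_distrib, mul_ite, mul_one,
      mul_zero, Finset.sum_ite_eq', Finset.mem_univ, if_true, ← Finset.sum_mul]
    rw [hrowt, one_mul, hsymt]
  have hsq : ∑ y, ((P ^ t) x y - 1 / N) ^ 2 ≤ 1 / (4 * N) := by
    have h1 := hmain.2
    simp only [hval] at h1
    refine h1.trans ?_
    have h2 : Real.exp (-(t / C)) ≤ 1 / (4 * N) := by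
      have h3 : Real.log (4 * N) ≤ t / C := by
        rw [le_div_iff₀ hC]
        linarith
      calc Real.exp (-(t / C)) ≤ Real.exp (-Real.log (4 * N)) := by
            apply Real.exp_le_exp.2
            linarith
        _ = 1 / (4 * N) := by
            rw [Real.exp_neg, Real.exp_log (by positivity), one_div]
    have h4 : 0 ≤ ∑ y, f y ^ 2 := Finset.sum_nonneg fun y _ => sq_nonneg _
    calc Real.exp (-(t / C)) * ∑ y, f y ^ 2 ≤ (1 / (4 * N)) * 1 :=
          mul_le_mul h2 hf2 h4 (by positivity)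
      _ = 1 / (4 * N) := mul_one _
  have hcs := Finset.sum_mul_sq_le_sq_mul_sq (univ : Finset Ω) (fun _ => (1 : ℝ))
    (fun y => |(P ^ t) x y - 1 / N|)
  simp only [one_mul, one_pow, sq_abs, Finset.sum_const, Finset.card_univ, nsmul_eq_mul,
    mul_one] at hcs
  rw [← hN] at hcs
  have h5 : (∑ y, |(P ^ t) x y - 1 / N|) ^ 2 ≤ (1 / 2) ^ 2 := by
    refine hcs.trans ?_
    calc N * ∑ y, ((P ^ t) x y - 1 / N) ^ 2 ≤ N * (1 / (4 * N)) := by gcongr
      _ = (1 / 2) ^ 2 := by field_simp; norm_num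
  have h6 : ∑ y, |(P ^ t) x y - 1 / N| ≤ 1 / 2 :=
    abs_le_of_sq_le_sq' h5 (by norm_num) |>.2
  linarith

end Vale.Agent.Lib.P335
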