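import Vale.Agent.Lib.P335.Three2
import Vale.Agent.Lib.P335.Spec

/-!
# P335 : the Poincare inequality for two-row resampling
-/

set_option linter.unusedSectionVars false

open Finset

namespace Vale.Agent.Lib.P335

section rows

variable {R W : Type} [Fintype R] [Fintype W] [DecidableEq R] [DecidableEq W]
  {r : R → ℕ} {c : W → ℕ}

theorem three_const {i j k : R} (f : Mat R W r c → ℝ)
    (hinv : ∀ y y', Mat.Off2 j k y y' → f y = f y')
    (h0 : ∀ y y', MA i j k y y' → f y = f y') (h1 : ∀ y y', MB i j k y y' → f y = f y')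
    (x y : Mat R W r c) (hxy : Off3 i j k x y) : f x = f y := by
  obtain ⟨x', y', a1, a2, a3, a4, a5⟩ := row_equalize (fun x y => f x = f y) (fun _ => rfl)
    (fun _ _ _ a b => a.trans b) ({i, j, k} : Finset R) i (by simp)
    (fun v hv hvi a b x y e1 e2 e3 e4 e5 => by
      have hmv : Mv i j k a b x y := by
        refine ⟨?_, e1, e3, ?_⟩
        · intro t b1 b2 b3
          rw [e5]
          have : t ≠ v := by
            rintro rfl
            simp only [mem_insert, mem_singleton] at hv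
            tauto
          simp [perm2, b1, this]
        · rw [e5]; simp [perm2]
      by_cases hs : s3 i j k x a = s3 i j k x b
      · exact h0 x y ⟨a, b, hmv, hs⟩
      · exact h1 x y ⟨a, b, hmv, hs⟩) _ x y rfl
    (fun t ht => hxy t (by rintro rfl; simp at ht) (by rintro rfl; simp at ht)
      (by rintro rfl; simp at ht))
  have h6 : f x' = f y' := by
    apply hinv
    intro t b1 b2
    by_cases b3 : t = i
    · rw [b3, a3]
    · have ht : t ∉ ({i, j, k} : Finset R) := by simp [b1, b2, b3]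
      rw [a4 t ht, a5 t ht, hxy t b3 b1 b2]
  exact a1.trans (h6.trans a2.symm)

/-- abstract maximum argument -/
theorem max_arg {Ω : Type} [Fintype Ω] [Nonempty Ω] (M0 M1 M2 : Ω → Ω → Prop)
    (f0 f1 f2 : Ω → ℝ) (κ ε : ℝ) (hκ : 1 < κ) (hε : ε = 0)
    (h0 : ∀ m, 0 ≤ m → (∀ x y, M0 x y → |f0 x - f0 y| ≤ m) → (∀ x y, M1 x y → |f1 x - f1 y| ≤ m) →
      (∀ x y, M2 x y → |f2 x - f2 y| ≤ m) → ∀ x y, M0 x y → κ * |f0 x - f0 y| ≤ m + ε)
    (h1 : ∀ m, 0 ≤ m → (∀ x y, M0 x y → |f0 x - f0 y| ≤ m) → (∀ x y, M1 x y → |f1 x - f1 y| ≤ m) →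
      (∀ x y, M2 x y → |f2 x - f2 y| ≤ m) → ∀ x y, M1 x y → κ * |f1 x - f1 y| ≤ m + ε)
    (h2 : ∀ m, 0 ≤ m → (∀ x y, M0 x y → |f0 x - f0 y| ≤ m) → (∀ x y, M1 x y → |f1 x - f1 y| ≤ m) →
      (∀ x y, M2 x y → |f2 x - f2 y| ≤ m) → ∀ x y, M2 x y → κ * |f2 x - f2 y| ≤ m + ε) :
    (∀ x y, M0 x y → f0 x = f0 y) ∧ (∀ x y, M1 x y → f1 x = f1 y) ∧
      (∀ x y, M2 x y → f2 x = f2 y) := by
  classical
  set V : Ω × Ω → ℝ := fun p => max (if M0 p.1 p.2 then |f0 p.1 - f0 p.2| else 0)
    (max (if M1 p.1 p.2 then |f1 p.1 - f1 p.2| else 0)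
      (if M2 p.1 p.2 then |f2 p.1 - f2 p.2| else 0)) with hV
  obtain ⟨p, -, hp⟩ := exists_max_image (univ : Finset (Ω × Ω)) V univ_nonempty
  have hVnn : ∀ q, 0 ≤ V q := by
    intro q
    refine le_max_of_le_left ?_
    split_ifs
    · exact abs_nonneg _
    · exact le_refl _
  have b0 : ∀ x y, M0 x y → |f0 x - f0 y| ≤ V p := by
    intro x y h
    refine le_trans ?_ (hp (x, y) (mem_univ _))
    refine le_max_of_le_left ?_
    simp only [if_pos h]
    exact le_refl _
  have b1 : ∀ x y, M1 x y → |f1 x - f1 y| ≤ V p := by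
    intro x y h
    refine le_trans ?_ (hp (x, y) (mem_univ _))
    refine le_max_of_le_right (le_max_of_le_left ?_)
    simp only [if_pos h]
    exact le_refl _
  have b2 : ∀ x y, M2 x y → |f2 x - f2 y| ≤ V p := by
    intro x y h
    refine le_trans ?_ (hp (x, y) (mem_univ _))
    refine le_max_of_le_right (le_max_of_le_right ?_)
    simp only [if_pos h]
    exact le_refl _
  have hle : V p ≤ 0 := by
    by_contra hcon
    push Not at hcon
    have hκV : κ * V p ≤ V p + ε := by
      have hmax : V p = (if M0 p.1 p.2 then |f0 p.1 - f0 p.2| else 0) ∨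
          V p = (if M1 p.1 p.2 then |f1 p.1 - f1 p.2| else 0) ∨
          V p = (if M2 p.1 p.2 then |f2 p.1 - f2 p.2| else 0) := by
        rcases max_choice (if M0 p.1 p.2 then |f0 p.1 - f0 p.2| else 0)
          (max (if M1 p.1 p.2 then |f1 p.1 - f1 p.2| else 0)
          (if M2 p.1 p.2 then |f2 p.1 - f2 p.2| else 0)) with h | h
        · exact Or.inl h
        · rcases max_choice (if M1 p.1 p.2 then |f1 p.1 - f1 p.2| else 0)
            (if M2 p.1 p.2 then |f2 p.1 - f2 p.2| else 0) with h' | h'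
          · exact Or.inr (Or.inl (h.trans h'))
          · exact Or.inr (Or.inr (h.trans h'))
      rcases hmax with h | h | h
      · by_cases hm : M0 p.1 p.2
        · rw [if_pos hm] at h
          have := h0 (V p) hcon.le b0 b1 b2 p.1 p.2 hm
          rw [← h] at this
          exact this
        · rw [if_neg hm] at h; linarith
      · by_cases hm : M1 p.1 p.2
        · rw [if_pos hm] at h
          have := h1 (V p) hcon.le b0 b1 b2 p.1 p.2 hm
          rw [← h] at this
          exact this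
        · rw [if_neg hm] at h; linarith
      · by_cases hm : M2 p.1 p.2
        · rw [if_pos hm] at h
          have := h2 (V p) hcon.le b0 b1 b2 p.1 p.2 hm
          rw [← h] at this
          exact this
        · rw [if_neg hm] at h; linarith
    nlinarith
  have hz : ∀ t : ℝ, |t| ≤ V p → t = 0 := fun t ht =>
    abs_nonpos_iff.mp (ht.trans hle)
  exact ⟨fun x y h => sub_eq_zero.mp (hz _ (b0 x y h)), fun x y h => sub_eq_zero.mp (hz _ (b1 x y h)),
    fun x y h => sub_eq_zero.mp (hz _ (b2 x y h))⟩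

theorem three_eig {i j k : R} (hij : i ≠ j) (hik : i ≠ k) (hjk : j ≠ k) (F : Mat R W r c → ℝ)
    (hF0 : F ≠ 0) (μ : ℝ) (hμ0 : 0 < μ) (hμ1 : μ < 1)
    (hF : ∀ x, Q i j F x + Q i k F x + Q j k F x = μ * F x) : False := by
  have hne : Nonempty (Mat R W r c) := by
    by_contra hcon
    apply hF0
    funext x
    exact absurd ⟨x⟩ hcon
  set f0 : Mat R W r c → ℝ := avg (Mat.Off2 j k) F with hf0
  set f1 : Mat R W r c → ℝ := avg (Mat.Off2 i k) F with hf1
  set f2 : Mat R W r c → ℝ := avg (Mat.Off2 i j) F with hf2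
  have i0 : ∀ y y', Mat.Off2 j k y y' → f0 y = f0 y' := fun y y' h => avg_inv (off2_equiv j k) F h
  have i1 : ∀ y y', Mat.Off2 i k y y' → f1 y = f1 y' := fun y y' h => avg_inv (off2_equiv i k) F h
  have i2 : ∀ y y', Mat.Off2 i j y y' → f2 y = f2 y' := fun y y' h => avg_inv (off2_equiv i j) F h
  have hsum : ∀ x, (3 - μ) * F x = f0 x + f1 x + f2 x := by
    intro x
    have := hF x
    unfold Q at this
    simp only [hf0, hf1, hf2]
    linarith
  have hFeq : F = fun x => (1 / (3 - μ)) * (f0 x + f1 x + f2 x) := by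
    funext x
    have h3 : (3 - μ) ≠ 0 := by linarith
    rw [← hsum x]; field_simp
  -- eigenvalue relations
  have rel : ∀ (s : Mat R W r c → Mat R W r c → Prop) [DecidableRel s] (hs : Equivalence s)
      (g g' : Mat R W r c → ℝ) (hsg : ∀ x, (3 - μ) * F x = avg s F x + (g x + g' x)) (x : Mat R W r c),
      (2 - μ) * avg s F x = avg s (fun y => g y + g' y) x := by
    intro s _ hs g g' hsg x
    have e1 : avg s (fun y => (3 - μ) * F y) x = avg s (fun y => avg s F y + (g y + g' y)) x :=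
      avg_congr (fun y _ => hsg y)
    rw [avg_smul, avg_add, avg_idem hs] at e1
    linarith
  have rel0 := rel (Mat.Off2 j k) (off2_equiv j k) f1 f2 (fun x => by rw [hsum x]; ring)
  have rel1 := rel (Mat.Off2 i k) (off2_equiv i k) f0 f2 (fun x => by rw [hsum x]; ring)
  have rel2 := rel (Mat.Off2 i j) (off2_equiv i j) f0 f1 (fun x => by rw [hsum x]; ring)
  have hκ : 1 < 2 - μ := by linarith
  have hκ0 : 0 < 2 - μ := by linarith
  have habs : ∀ (u v u' v' : ℝ), (2 - μ) * u = u' → (2 - μ) * v = v' →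
      (2 - μ) * |u - v| = |u' - v'| := by
    intro u v u' v' h1 h2
    rw [← h1, ← h2, ← mul_sub, abs_mul, abs_of_pos hκ0]
  -- alpha moves
  obtain ⟨A0, A1, A2⟩ := max_arg (MA i j k) (MA j i k) (MA k i j) f0 f1 f2 (2 - μ) 0 hκ rfl
    (fun m hm b0 b1 b2 x y h => by
      rw [habs _ _ _ _ (rel0 x) (rel0 y), abs_sub_comm, add_zero]
      exact alpha_step hij hik hjk h f1 f2 i1 i2 m b1 b2)
    (fun m hm b0 b1 b2 x y h => by
      rw [habs _ _ _ _ (rel1 x) (rel1 y), abs_sub_comm, add_zero]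
      exact alpha_step hij.symm hjk hik h f0 f2 i0 (fun y y' h => i2 y y' (off2_comm h)) m b0
        (fun y y' h => b2 y y' (mA_swap h)))
    (fun m hm b0 b1 b2 x y h => by
      rw [habs _ _ _ _ (rel2 x) (rel2 y), abs_sub_comm, add_zero]
      exact alpha_step hik.symm hjk.symm hij h f0 f1 (fun y y' h => i0 y y' (off2_comm h))
        (fun y y' h => i1 y y' (off2_comm h)) m (fun y y' h => b0 y y' (mA_swap h))
        (fun y y' h => b1 y y' (mA_swap h)))
  have z : ∀ (f : Mat R W r c → ℝ) (x y : Mat R W r c), f x = f y → |f x - f y| ≤ 0 := by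
    intro f x y h; rw [h]; simp
  obtain ⟨B0, B1, B2⟩ := max_arg (MB i j k) (MB j i k) (MB k i j) f0 f1 f2 (2 - μ) 0 hκ rfl
    (fun m hm b0 b1 b2 x y h => by
      rw [habs _ _ _ _ (rel0 x) (rel0 y), abs_sub_comm, add_comm]
      exact beta_step hij hik hjk h f1 f2 i1 i2 0 m le_rfl (fun y y' h => z _ _ _ (A1 y y' h))
        (fun y y' h => z _ _ _ (A2 y y' h)) b1 b2)
    (fun m hm b0 b1 b2 x y h => by
      rw [habs _ _ _ _ (rel1 x) (rel1 y), abs_sub_comm, add_comm]
      exact beta_step hij.symm hjk hik h f0 f2 i0 (fun y y' h => i2 y y' (off2_comm h)) 0 m le_rfl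
        (fun y y' h => z _ _ _ (A0 y y' h)) (fun y y' h => z _ _ _ (A2 y y' (mA_swap h))) b0
        (fun y y' h => b2 y y' (mB_swap h)))
    (fun m hm b0 b1 b2 x y h => by
      rw [habs _ _ _ _ (rel2 x) (rel2 y), abs_sub_comm, add_comm]
      exact beta_step hik.symm hjk.symm hij h f0 f1 (fun y y' h => i0 y y' (off2_comm h))
        (fun y y' h => i1 y y' (off2_comm h)) 0 m le_rfl
        (fun y y' h => z _ _ _ (A0 y y' (mA_swap h))) (fun y y' h => z _ _ _ (A1 y y' (mA_swap h)))
        (fun y y' h => b0 y y' (mB_swap h)) (fun y y' h => b1 y y' (mB_swap h)))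
  have c0 : ∀ x y, Off3 i j k x y → f0 x = f0 y := three_const f0 i0 A0 B0
  have c1 : ∀ x y, Off3 j i k x y → f1 x = f1 y := three_const f1 i1 A1 B1
  have c2 : ∀ x y, Off3 k i j x y → f2 x = f2 y := three_const f2 i2 A2 B2
  have hFc : ∀ x y, Off3 i j k x y → F x = F y := by
    intro x y h
    rw [hFeq]
    simp only
    rw [c0 x y h, c1 x y (off3_swap (off3_rot h)), c2 x y (off3_rot (off3_rot h))]
  have q1 : ∀ x, Q i j F x = 0 := by
    intro x
    unfold Q
    rw [avg_of_inv (off2_equiv i j) F x (fun y h => hFc x y (fun t h1 h2 _ => h t h1 h2))]; ring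
  have q2 : ∀ x, Q i k F x = 0 := by
    intro x
    unfold Q
    rw [avg_of_inv (off2_equiv i k) F x (fun y h => hFc x y (fun t h1 _ h2 => h t h1 h2))]; ring
  have q3 : ∀ x, Q j k F x = 0 := by
    intro x
    unfold Q
    rw [avg_of_inv (off2_equiv j k) F x (fun y h => hFc x y (fun t _ h1 h2 => h t h1 h2))]; ring
  apply hF0
  funext x
  have := hF x
  rw [q1, q2, q3] at this
  simp only [add_zero] at this
  rcases mul_eq_zero.mp this.symm with h | h
  · linarith
  · exact h

/-- the linear map `Q_{uv}` -/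
noncomputable def QL (u v : R) : (Mat R W r c → ℝ) →ₗ[ℝ] (Mat R W r c → ℝ) :=
  LinearMap.id - avgL (Mat.Off2 u v)

theorem QL_apply (u v : R) (f : Mat R W r c → ℝ) (x : Mat R W r c) : QL u v f x = Q u v f x := rfl

theorem QL_sym (u v : R) (f g : Mat R W r c → ℝ) :
    ∑ x, QL u v f x * g x = ∑ x, f x * QL u v g x := by
  have h := avg_sym (off2_equiv (r := r) (c := c) u v) f g
  simp only [QL_apply, Q]
  have e1 : ∑ x, (f x - avg (Mat.Off2 u v) f x) * g x =
      ∑ x, f x * g x - ∑ x, avg (Mat.Off2 u v) f x * g x := by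
    rw [← sum_sub_distrib]; apply sum_congr rfl; intro x _; ring
  have e2 : ∑ x, f x * (g x - avg (Mat.Off2 u v) g x) =
      ∑ x, f x * g x - ∑ x, f x * avg (Mat.Off2 u v) g x := by
    rw [← sum_sub_distrib]; apply sum_congr rfl; intro x _; ring
  rw [e1, e2, h]

theorem Q_proj (u v : R) (f : Mat R W r c → ℝ) : ∑ x, Q u v f x * f x = ∑ x, Q u v f x ^ 2 :=
  (avg_proj (off2_equiv (r := r) (c := c) u v) f).symm

theorem three_rows {i j k : R} (hij : i ≠ j) (hik : i ≠ k) (hjk : j ≠ k) (f : Mat R W r c → ℝ) :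
    0 ≤ ∑ x, (Q i j f x * Q i k f x + Q i j f x * Q j k f x + Q i k f x * Q j k f x) := by
  have h := spec_sq (QL i j + QL i k + QL j k : (Mat R W r c → ℝ) →ₗ[ℝ] (Mat R W r c → ℝ))
    (by
      intro f g
      simp only [LinearMap.add_apply, Pi.add_apply, add_mul, mul_add, sum_add_distrib]
      rw [QL_sym, QL_sym, QL_sym]) 1
    (by
      intro μ F hF0 hF
      by_contra hcon
      push Not at hcon
      have hμ0 : 0 < μ := by nlinarith [sq_nonneg μ]
      have hμ1 : μ < 1 := by nlinarith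
      exact three_eig hij hik hjk F hF0 μ hμ0 hμ1 (fun x => by
        have := congrFun hF x
        simpa [QL_apply] using this)) f
  have e1 : ∑ x, (QL i j + QL i k + QL j k : (Mat R W r c → ℝ) →ₗ[ℝ] (Mat R W r c → ℝ)) f x * f x =
      ∑ x, Q i j f x ^ 2 + ∑ x, Q i k f x ^ 2 + ∑ x, Q j k f x ^ 2 := by
    rw [← Q_proj, ← Q_proj, ← Q_proj]
    simp only [LinearMap.add_apply, Pi.add_apply, add_mul, sum_add_distrib, QL_apply]
  have e2 : ∑ x, ((QL i j + QL i k + QL j k : (Mat R W r c → ℝ) →ₗ[ℝ] (Mat R W r c → ℝ)) f x) ^ 2 =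
      ∑ x, Q i j f x ^ 2 + ∑ x, Q i k f x ^ 2 + ∑ x, Q j k f x ^ 2 +
      2 * ∑ x, (Q i j f x * Q i k f x + Q i j f x * Q j k f x + Q i k f x * Q j k f x) := by
    rw [mul_sum, ← sum_add_distrib, ← sum_add_distrib, ← sum_add_distrib]
    apply sum_congr rfl
    intro x _
    simp only [LinearMap.add_apply, Pi.add_apply, QL_apply]
    ring
  rw [e1, e2] at h
  linarith

theorem disjoint_rows {u v u' v' : R} (h1 : u ≠ u') (h2 : u ≠ v') (h3 : v ≠ u')
    (h4 : v ≠ v') (f : Mat R W r c → ℝ) : 0 ≤ ∑ x, Q u v f x * Q u' v' f x := by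
  apply inner_nonneg_of_comm (off2_equiv u v) (off2_equiv u' v')
  intro x y z hxy hxz
  classical
  -- w = y on u,v ; z elsewhere
  have hyz : ∀ t, t ≠ u → t ≠ v → t ≠ u' → t ≠ v' → y.1 t = z.1 t :=
    fun t a b c d => (hxy t a b).symm.trans (hxz t c d)
  let w : R → W → Bool := fun t => if t = u ∨ t = v then y.1 t else z.1 t
  have hw : Valid r c w := by
    constructor
    · intro t
      simp only [w]
      split_ifs
      · exact y.2.1 t
      · exact z.2.1 t
    · intro e
      have s1 : ∑ t, (w t e).toNat + ∑ t, (x.1 t e).toNat =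
          ∑ t, (y.1 t e).toNat + ∑ t, (z.1 t e).toNat := by
        rw [← sum_add_distrib, ← sum_add_distrib]
        apply sum_congr rfl
        intro t _
        simp only [w]
        by_cases ht : t = u ∨ t = v
        · rw [if_pos ht]
          have : x.1 t = z.1 t := hxz t (by rcases ht with rfl | rfl <;> assumption)
            (by rcases ht with rfl | rfl <;> assumption)
          rw [this]
        · rw [if_neg ht]
          push Not at ht
          have : x.1 t = y.1 t := hxy t ht.1 ht.2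
          rw [this]; ring
      have a1 := x.2.2 e
      have a2 := y.2.2 e
      have a3 := z.2.2 e
      omega
  refine ⟨mkMat w hw, ⟨?_, ?_⟩, ?_⟩
  · intro t b1 b2
    show y.1 t = w t
    simp only [w]
    split_ifs with ht
    · rfl
    · push Not at ht
      exact hyz t ht.1 ht.2 b1 b2
  · intro t b1 b2
    show z.1 t = w t
    simp only [w]
    rw [if_neg]
    push Not
    exact ⟨b1, b2⟩
  · rintro w' ⟨c1, c2⟩
    apply Mat.ext'
    intro t
    show w'.1 t = w t
    simp only [w]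
    split_ifs with ht
    · refine (c1 t ?_ ?_).symm
      · rcases ht with rfl | rfl <;> assumption
      · rcases ht with rfl | rfl <;> assumption
    · push Not at ht
      exact (c2 t ht.1 ht.2).symm

end rows

/-- sum over a finite type split at two points -/
theorem sum_split2 {R : Type} [Fintype R] [DecidableEq R] (φ : R → ℝ) {u v : R} (h : u ≠ v) :
    ∑ w, φ w = φ u + φ v + ∑ w with (w ≠ u ∧ w ≠ v), φ w := by
  have h1 : (univ.filter (fun w => w ≠ u ∧ w ≠ v)) = (univ.erase u).erase v := by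
    ext w; simp [and_comm]
  rw [h1, ← add_sum_erase univ φ (mem_univ u), ← add_sum_erase (univ.erase u) φ
    (by simp [h.symm] : v ∈ univ.erase u)]
  ring

theorem combi {R : Type} [Fintype R] [DecidableEq R] (B : R → R → R → R → ℝ)
    (h1 : ∀ u v u' v', B u v u' v' = B v u u' v') (h2 : ∀ u v u' v', B u v u' v' = B u v v' u')
    (h3 : ∀ u v u' v', B u v u' v' = B u' v' u v) (h0 : ∀ u u' v', B u u u' v' = 0)
    (hd : ∀ u v u' v', u ≠ u' → u ≠ v' → v ≠ u' → v ≠ v' → 0 ≤ B u v u' v')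
    (ht : ∀ u v w, u ≠ v → u ≠ w → v ≠ w → 0 ≤ B u v u w + B u v v w + B u w v w) :
    2 * ∑ u, ∑ v, B u v u v ≤ ∑ u, ∑ v, ∑ u', ∑ v', B u v u' v' := by
  -- step 1: fixed (u, v)
  have step : ∀ u v, 2 * B u v u v + 2 * (∑ w, if (u ≠ v ∧ u ≠ w ∧ v ≠ w) then
      (B u v u w + B u v v w) else 0) ≤ ∑ u', ∑ v', B u v u' v' := by
    intro u v
    by_cases huv : u = v
    · subst huv
      simp [h0]
    rw [sum_split2 (fun u' => ∑ v', B u v u' v') huv]
    rw [sum_split2 (fun v' => B u v u v') huv, sum_split2 (fun v' => B u v v v') huv]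
    have z1 : B u v u u = 0 := by rw [h3]; exact h0 _ _ _
    have z2 : B u v v v = 0 := by rw [h3]; exact h0 _ _ _
    have z3 : B u v v u = B u v u v := h2 _ _ _ _
    have e1 : ∀ w, w ≠ u ∧ w ≠ v → B u v u w + B u v v w ≤ ∑ v', B u v w v' := by
      intro w hw
      rw [sum_split2 (fun v' => B u v w v') huv]
      have : 0 ≤ ∑ v' with (v' ≠ u ∧ v' ≠ v), B u v w v' := by
        apply sum_nonneg
        intro v' hv'
        simp only [mem_filter, mem_univ, true_and] at hv'
        exact hd u v w v' hw.1.symm hv'.1.symm hw.2.symm hv'.2.symm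
      rw [h2 u v w u, h2 u v w v]
      linarith
    have e2 : ∑ w with (w ≠ u ∧ w ≠ v), (B u v u w + B u v v w) ≤
        ∑ w with (w ≠ u ∧ w ≠ v), ∑ v', B u v w v' := by
      apply sum_le_sum
      intro w hw
      simp only [mem_filter, mem_univ, true_and] at hw
      exact e1 w hw
    have e3 : ∑ w with (w ≠ u ∧ w ≠ v), B u v u w + ∑ w with (w ≠ u ∧ w ≠ v), B u v v w =
        ∑ w with (w ≠ u ∧ w ≠ v), (B u v u w + B u v v w) := by
      rw [sum_add_distrib]
    have e4 : (∑ w, if (u ≠ v ∧ u ≠ w ∧ v ≠ w) then (B u v u w + B u v v w) else 0) =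
        ∑ w with (w ≠ u ∧ w ≠ v), (B u v u w + B u v v w) := by
      rw [sum_filter]
      apply sum_congr rfl
      intro w _
      by_cases hw : w ≠ u ∧ w ≠ v
      · rw [if_pos hw, if_pos ⟨huv, hw.1.symm, hw.2.symm⟩]
      · rw [if_neg hw, if_neg]
        rintro ⟨-, a, b⟩
        exact hw ⟨a.symm, b.symm⟩
    rw [e4, z1, z2, z3]
    linarith
  have hsum : ∑ u, ∑ v, (2 * B u v u v + 2 * (∑ w, if (u ≠ v ∧ u ≠ w ∧ v ≠ w) then
      (B u v u w + B u v v w) else 0)) ≤ ∑ u, ∑ v, ∑ u', ∑ v', B u v u' v' :=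
    sum_le_sum (fun u _ => sum_le_sum (fun v _ => step u v))
  -- step 2: triple sums
  set D : R → R → R → ℝ := fun u v w => if (u ≠ v ∧ u ≠ w ∧ v ≠ w) then B u v u w else 0 with hD
  have t1 : ∀ u v w, (if (u ≠ v ∧ u ≠ w ∧ v ≠ w) then (B u v u w + B u v v w) else 0) =
      D u v w + D v u w := by
    intro u v w
    simp only [hD]
    by_cases h : u ≠ v ∧ u ≠ w ∧ v ≠ w
    · rw [if_pos h, if_pos h, if_pos ⟨h.1.symm, h.2.2, h.2.1⟩, h1 u v v w]
    · rw [if_neg h, if_neg h, if_neg]
      · ring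
      · rintro ⟨a, b, c⟩; exact h ⟨a.symm, c, b⟩
  have t2 : ∀ u v w, 0 ≤ D u v w + D v u w + D w u v := by
    intro u v w
    simp only [hD]
    by_cases h : u ≠ v ∧ u ≠ w ∧ v ≠ w
    · rw [if_pos h, if_pos ⟨h.1.symm, h.2.2, h.2.1⟩, if_pos ⟨h.2.1.symm, h.2.2.symm, h.1⟩]
      have := ht u v w h.1 h.2.1 h.2.2
      have e1 : B u v v w = B v u v w := h1 _ _ _ _
      have e2 : B u w v w = B w u w v := by rw [h1, h2]
      rw [← e1, ← e2]; exact this
    · rw [if_neg h, if_neg, if_neg]
      · simp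
      · rintro ⟨a, b, c⟩; exact h ⟨c, a.symm, b.symm⟩
      · rintro ⟨a, b, c⟩; exact h ⟨a.symm, c, b⟩
  have t3 : ∑ u, ∑ v, ∑ w, D v u w = ∑ u, ∑ v, ∑ w, D u v w := sum_comm
  have t4 : ∑ u, ∑ v, ∑ w, D w u v = ∑ u, ∑ v, ∑ w, D u v w := by
    have e1 : ∑ u, ∑ v, ∑ w, D w u v = ∑ u, ∑ w, ∑ v, D w u v :=
      sum_congr rfl (fun u _ => sum_comm)
    rw [e1, sum_comm]
  have t5 : 0 ≤ ∑ u, ∑ v, ∑ w, D u v w := by
    have : 0 ≤ ∑ u, ∑ v, ∑ w, (D u v w + D v u w + D w u v) :=
      sum_nonneg (fun u _ => sum_nonneg (fun v _ => sum_nonneg (fun w _ => t2 u v w)))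
    simp only [sum_add_distrib] at this
    rw [t3, t4] at this
    linarith
  have t6 : ∑ u, ∑ v, (∑ w, if (u ≠ v ∧ u ≠ w ∧ v ≠ w) then (B u v u w + B u v v w) else 0) =
      2 * ∑ u, ∑ v, ∑ w, D u v w := by
    have : ∑ u, ∑ v, (∑ w, if (u ≠ v ∧ u ≠ w ∧ v ≠ w) then (B u v u w + B u v v w) else 0) =
        ∑ u, ∑ v, ∑ w, (D u v w + D v u w) :=
      sum_congr rfl (fun u _ => sum_congr rfl (fun v _ => sum_congr rfl (fun w _ => t1 u v w)))
    rw [this]
    simp only [sum_add_distrib]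
    rw [t3]; ring
  have t7 : ∑ u, ∑ v, (2 * B u v u v + 2 * (∑ w, if (u ≠ v ∧ u ≠ w ∧ v ≠ w) then
      (B u v u w + B u v v w) else 0)) = 2 * ∑ u, ∑ v, B u v u v + 2 * (2 * ∑ u, ∑ v, ∑ w, D u v w) := by
    rw [← t6]
    simp only [sum_add_distrib, mul_sum]
  rw [t7] at hsum
  linarith

section rows2

variable {R W : Type} [Fintype R] [Fintype W] [DecidableEq R] [DecidableEq W]
  {r : R → ℕ} {c : W → ℕ}

theorem Q_comm (u v : R) (f : Mat R W r c → ℝ) (x : Mat R W r c) : Q u v f x = Q v u f x := by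
  unfold Q avg
  have : (univ.filter (fun y => Mat.Off2 u v x y)) = univ.filter (fun y => Mat.Off2 v u x y) := by
    ext y
    simp only [mem_filter, mem_univ, true_and]
    exact ⟨off2_comm, off2_comm⟩
  rw [this]

theorem Q_self (u : R) (f : Mat R W r c → ℝ) (x : Mat R W r c) : Q u u f x = 0 := by
  unfold Q
  rw [avg_of_inv (off2_equiv u u) f x]
  · ring
  · intro y h
    have : x = y := by
      apply Mat.ext'
      intro t
      by_cases ht : t = u
      · subst ht
        -- the row is determined by the column sums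
        funext w
        have h1 := x.2.2 w
        have h2 := y.2.2 w
        rw [← add_sum_erase univ (fun s => (x.1 s w).toNat) (mem_univ t)] at h1
        rw [← add_sum_erase univ (fun s => (y.1 s w).toNat) (mem_univ t)] at h2
        have h3 : ∑ s ∈ univ.erase t, (x.1 s w).toNat = ∑ s ∈ univ.erase t, (y.1 s w).toNat := by
          apply sum_congr rfl
          intro s hs
          rw [h s (ne_of_mem_erase hs) (ne_of_mem_erase hs)]
        have h4 : (x.1 t w).toNat = (y.1 t w).toNat := by omega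
        revert h4
        cases x.1 t w <;> cases y.1 t w <;> simp
      · exact h t ht ht
    rw [this]

/-- Poincare inequality for two-row resampling -/
theorem row_poincare (f : Mat R W r c → ℝ) (hf : ∑ x, f x = 0) :
    ∑ x, f x ^ 2 ≤ (1 / 2) * ∑ u, ∑ v, ∑ x, (Q u v f x) ^ 2 := by
  set A : (Mat R W r c → ℝ) →ₗ[ℝ] (Mat R W r c → ℝ) := ∑ u, ∑ v, QL u v with hA
  have hAx : ∀ g x, A g x = ∑ u, ∑ v, Q u v g x := by
    intro g x
    simp only [hA, LinearMap.sum_apply, Finset.sum_apply, QL_apply]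
  have hsym : ∀ g h, ∑ x, A g x * h x = ∑ x, g x * A h x := by
    intro g h
    simp only [hAx, sum_mul, mul_sum]
    rw [sum_comm]
    conv_rhs => rw [sum_comm]
    apply sum_congr rfl
    intro u _
    rw [sum_comm]
    conv_rhs => rw [sum_comm]
    apply sum_congr rfl
    intro v _
    exact QL_sym u v g h
  have hen : ∀ g, ∑ x, A g x * g x = ∑ u, ∑ v, ∑ x, (Q u v g x) ^ 2 := by
    intro g
    simp only [hAx, sum_mul]
    rw [sum_comm]
    apply sum_congr rfl
    intro u _
    rw [sum_comm]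
    apply sum_congr rfl
    intro v _
    exact Q_proj u v g
  have hpos : ∀ g, 0 ≤ ∑ x, A g x * g x := by
    intro g
    rw [hen]
    exact sum_nonneg (fun u _ => sum_nonneg (fun v _ => sum_nonneg (fun x _ => sq_nonneg _)))
  have hsq : ∀ g, 2 * ∑ x, A g x * g x ≤ ∑ x, (A g x) ^ 2 := by
    intro g
    have hc := combi (fun u v u' v' => ∑ x, Q u v g x * Q u' v' g x)
      (fun u v u' v' => sum_congr rfl (fun x _ => by rw [Q_comm u v]))
      (fun u v u' v' => sum_congr rfl (fun x _ => by rw [Q_comm u' v']))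
      (fun u v u' v' => sum_congr rfl (fun x _ => mul_comm _ _))
      (fun u u' v' => by simp [Q_self])
      (fun u v u' v' h1 h2 h3 h4 => disjoint_rows h1 h2 h3 h4 g)
      (fun u v w h1 h2 h3 => by
        have := three_rows h1 h2 h3 g
        simp only [sum_add_distrib] at this
        exact this)
    have e1 : ∑ x, A g x * g x = ∑ u, ∑ v, ∑ x, Q u v g x * Q u v g x := by
      rw [hen]
      exact sum_congr rfl (fun u _ => sum_congr rfl (fun v _ => sum_congr rfl
        (fun x _ => by ring)))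
    have e2 : ∑ x, (A g x) ^ 2 = ∑ u, ∑ v, ∑ u', ∑ v', ∑ x, Q u v g x * Q u' v' g x := by
      have : ∀ x, (A g x) ^ 2 = ∑ u, ∑ v, ∑ u', ∑ v', Q u v g x * Q u' v' g x := by
        intro x
        rw [hAx, sq, sum_mul]
        apply sum_congr rfl
        intro u _
        rw [sum_mul]
        apply sum_congr rfl
        intro v _
        rw [mul_sum]
        apply sum_congr rfl
        intro u' _
        rw [mul_sum]
      rw [sum_congr rfl (fun x _ => this x), sum_comm]
      apply sum_congr rfl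
      intro u _
      rw [sum_comm]
      apply sum_congr rfl
      intro v _
      rw [sum_comm]
      apply sum_congr rfl
      intro u' _
      rw [sum_comm]
    rw [e1, e2]
    exact hc
  have hker : ∀ g, A g = 0 → ∑ x, f x * g x = 0 := by
    intro g hg
    have h0 : ∑ u, ∑ v, ∑ x, (Q u v g x) ^ 2 = 0 := by
      rw [← hen, hg]; simp
    have hq : ∀ u v x, Q u v g x = 0 := by
      intro u v x
      have h1 := (sum_eq_zero_iff_of_nonneg (fun u _ => sum_nonneg
        (fun v _ => sum_nonneg (fun x _ => sq_nonneg (Q u v g x))))).mp h0 u (mem_univ u)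
      have h2 := (sum_eq_zero_iff_of_nonneg
        (fun v _ => sum_nonneg (fun x _ => sq_nonneg (Q u v g x)))).mp h1 v (mem_univ v)
      have h3 := (sum_eq_zero_iff_of_nonneg
        (fun x _ => sq_nonneg (Q u v g x))).mp h2 x (mem_univ x)
      exact pow_eq_zero_iff (two_ne_zero) |>.mp h3
    have hc : ∀ x y, g x = g y := by
      apply const_of_off2
      intro u v x y _ hxy
      have a1 : g x = avg (Mat.Off2 u v) g x := sub_eq_zero.mp (hq u v x)
      have a2 : g y = avg (Mat.Off2 u v) g y := sub_eq_zero.mp (hq u v y)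
      rw [a1, a2, avg_inv (off2_equiv u v) g hxy]
    rcases isEmpty_or_nonempty (Mat R W r c) with he | ⟨⟨x0⟩⟩
    · simp
    · have : ∑ x, f x * g x = (∑ x, f x) * g x0 := by
        rw [sum_mul]
        exact sum_congr rfl (fun x _ => by rw [hc x x0])
      rw [this, hf, zero_mul]
  have := spec_gap A hsym 2 (by norm_num) hpos hsq f hker
  rw [hen] at this
  linarith

end rows2

end Vale.Agent.Lib.P335
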