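import Vale.Agent.Lib.P335.Base

/-!
# P335 : from the row Poincare inequality to 2x2 switches

The fibre of a matrix over the rows off `u, v` is a set of two-row matrices, i.e. (transposed) the set
`Mat W Bool` with suitable margins; the row Poincare inequality on that set is the switch inequality.
-/

set_option linter.unusedSectionVars false

open Finset

namespace Vale.Agent.Lib.P335

/-- The row Poincare inequality (module Rows), as a statement. -/
def RowPoincare : Prop :=
  ∀ (R W : Type) [Fintype R] [Fintype W] [DecidableEq R] [DecidableEq W]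
    (r : R → ℕ) (c : W → ℕ) (f : Mat R W r c → ℝ), ∑ x, f x = 0 →
    ∑ x, f x ^ 2 ≤ (1 / 2) * ∑ u, ∑ v, ∑ x, (Q u v f x) ^ 2

namespace Two

variable {R W : Type} [Fintype R] [Fintype W] [DecidableEq R] [DecidableEq W]
  {r : R → ℕ} {c : W → ℕ}

theorem sum_split {T : Type} [Fintype T] [DecidableEq T] (g : T → ℕ) {u v : T} (huv : u ≠ v) :
    ∑ t, g t = g u + g v + ∑ t ∈ univ.filter (fun t => t ≠ u ∧ t ≠ v), g t := by
  classical
  have h1 : (univ : Finset T) = insert u (insert v (univ.filter (fun t => t ≠ u ∧ t ≠ v))) := by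
    ext t
    simp only [mem_univ, mem_insert, mem_filter, true_and, true_iff]
    tauto
  conv_lhs => rw [h1]
  rw [sum_insert (by simp [huv]), sum_insert (by simp)]
  ring

/-- the rows sums of the transposed two-row matrix -/
def rr (x0 : Mat R W r c) (u v : R) : W → ℕ := fun w => (x0.1 u w).toNat + (x0.1 v w).toNat

/-- the column sums of the transposed two-row matrix -/
def cc (r : R → ℕ) (u v : R) : Bool → ℕ := fun i => if i then r u else r v

/-- insert two rows in `x0` -/
def ins (x0 : Mat R W r c) {u v : R} (huv : u ≠ v) (z : Mat W Bool (rr x0 u v) (cc r u v)) :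
    Mat R W r c :=
  ⟨fun t w => if t = u then z.1 w true else if t = v then z.1 w false else x0.1 t w, by
    constructor
    · intro t
      by_cases htu : t = u
      · subst htu
        have := z.2.2 true
        simpa [cc] using this
      · by_cases htv : t = v
        · subst htv
          have := z.2.2 false
          simpa [cc, htu] using this
        · have := x0.2.1 t
          simpa [htu, htv] using this
    · intro w
      have h0 := x0.2.2 w
      have h1 := z.2.1 w
      rw [sum_split _ huv] at h0 ⊢
      simp only [Fintype.sum_bool, rr] at h1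
      have h2 : ∑ t ∈ univ.filter (fun t => t ≠ u ∧ t ≠ v),
          ((if t = u then z.1 w true else if t = v then z.1 w false else x0.1 t w).toNat) =
          ∑ t ∈ univ.filter (fun t => t ≠ u ∧ t ≠ v), (x0.1 t w).toNat := by
        apply sum_congr rfl
        intro t ht
        simp only [mem_filter, mem_univ, true_and] at ht
        simp [ht.1, ht.2]
      rw [h2]
      simp only [if_true, huv.symm, if_false]
      omega⟩

/-- extract the two rows -/
def ext (x0 : Mat R W r c) {u v : R} (huv : u ≠ v) (y : Mat R W r c)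
    (hy : Mat.Off2 u v x0 y) : Mat W Bool (rr x0 u v) (cc r u v) :=
  ⟨fun w i => if i then y.1 u w else y.1 v w, by
    constructor
    · intro w
      have h0 := x0.2.2 w
      have h1 := y.2.2 w
      rw [sum_split _ huv] at h0 h1
      have h2 : ∑ t ∈ univ.filter (fun t => t ≠ u ∧ t ≠ v), (y.1 t w).toNat =
          ∑ t ∈ univ.filter (fun t => t ≠ u ∧ t ≠ v), (x0.1 t w).toNat := by
        apply sum_congr rfl
        intro t ht
        simp only [mem_filter, mem_univ, true_and] at ht
        rw [hy t ht.1 ht.2]
      rw [h2] at h1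
      simp only [Fintype.sum_bool, rr, if_true, Bool.false_eq_true, if_false]
      omega
    · intro i
      cases i
      · have := y.2.1 v
        simpa [cc] using this
      · have := y.2.1 u
        simpa [cc] using this⟩

theorem off_ins (x0 : Mat R W r c) {u v : R} (huv : u ≠ v)
    (z : Mat W Bool (rr x0 u v) (cc r u v)) : Mat.Off2 u v x0 (ins x0 huv z) := by
  intro t h1 h2
  funext w
  simp [ins, h1, h2]

theorem ins_ext (x0 : Mat R W r c) {u v : R} (huv : u ≠ v) (y : Mat R W r c)
    (hy : Mat.Off2 u v x0 y) : ins x0 huv (ext x0 huv y hy) = y := by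
  apply Subtype.ext
  funext t w
  by_cases htu : t = u
  · subst htu; simp [ins, ext]
  · by_cases htv : t = v
    · subst htv; simp [ins, ext, htu]
    · simp [ins, ext, htu, htv, hy t htu htv]

theorem ins_inj (x0 : Mat R W r c) {u v : R} (huv : u ≠ v) :
    Function.Injective (ins x0 huv) := by
  intro z z' h
  apply Subtype.ext
  funext w i
  have h1 : (ins x0 huv z).1 = (ins x0 huv z').1 := by rw [h]
  cases i
  · have := congrFun (congrFun h1 v) w
    simpa [ins, huv.symm] using this
  · have := congrFun (congrFun h1 u) w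
    simpa [ins] using this

theorem sum_fibre (x0 : Mat R W r c) {u v : R} (huv : u ≠ v) (φ : Mat R W r c → ℝ) :
    ∑ y with Mat.Off2 u v x0 y, φ y = ∑ z, φ (ins x0 huv z) := by
  symm
  apply sum_bij (fun z _ => ins x0 huv z)
  · intro z _
    simp only [mem_filter, mem_univ, true_and]
    exact off_ins x0 huv z
  · intro z _ z' _ h
    exact ins_inj x0 huv h
  · intro y hy
    simp only [mem_filter, mem_univ, true_and] at hy
    exact ⟨ext x0 huv y hy, mem_univ _, ins_ext x0 huv y hy⟩
  · intro z _
    rfl

theorem card_fibre (x0 : Mat R W r c) {u v : R} (huv : u ≠ v) :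
    (univ.filter (fun y => Mat.Off2 u v x0 y)).card =
      Fintype.card (Mat W Bool (rr x0 u v) (cc r u v)) := by
  have := sum_fibre x0 huv (fun _ => (1 : ℝ))
  simp only [sum_const, nsmul_eq_mul, mul_one, card_univ] at this
  exact_mod_cast this

/-- two different two-column matrices that agree off the rows `a, b` -/
theorem cls {r' : W → ℕ} {c' : Bool → ℕ} {a b : W} {z z1 : Mat W Bool r' c'}
    (h : Mat.Off2 a b z z1) (hne : z1 ≠ z) :
    ((z.1 a true = true ∧ z.1 b false = true ∧ z.1 b true = false ∧ z.1 a false = false) ∨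
      (z.1 b true = true ∧ z.1 a false = true ∧ z.1 a true = false ∧ z.1 b false = false)) ∧
    z1.1 = fun w i => if w = a ∨ w = b then !(z.1 w i) else z.1 w i := by
  by_cases hab : a = b
  · exfalso
    subst hab
    apply hne
    apply Subtype.ext
    funext w i
    by_cases hw : w = a
    · subst hw
      have h1 := z.2.2 i
      have h2 := z1.2.2 i
      rw [← Finset.add_sum_erase _ _ (mem_univ w)] at h1 h2
      have h3 : ∑ t ∈ univ.erase w, (z1.1 t i).toNat = ∑ t ∈ univ.erase w, (z.1 t i).toNat := by
        apply sum_congr rfl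
        intro t ht
        rw [h t (ne_of_mem_erase ht) (ne_of_mem_erase ht)]
      rw [h3] at h2
      have h4 : (z1.1 w i).toNat = (z.1 w i).toNat := by omega
      revert h4
      cases z1.1 w i <;> cases z.1 w i <;> simp
    · rw [h w hw hw]
  · have key : ∀ i, (z.1 a i).toNat + (z.1 b i).toNat = (z1.1 a i).toNat + (z1.1 b i).toNat := by
      intro i
      have h1 := z.2.2 i
      have h2 := z1.2.2 i
      rw [sum_split _ hab] at h1 h2
      have h3 : ∑ t ∈ univ.filter (fun t => t ≠ a ∧ t ≠ b), (z1.1 t i).toNat =
          ∑ t ∈ univ.filter (fun t => t ≠ a ∧ t ≠ b), (z.1 t i).toNat := by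
        apply sum_congr rfl
        intro t ht
        simp only [mem_filter, mem_univ, true_and] at ht
        rw [h t ht.1 ht.2]
      rw [h3] at h2
      omega
    have kt := key true
    have kf := key false
    have ra : (z.1 a true).toNat + (z.1 a false).toNat =
        (z1.1 a true).toNat + (z1.1 a false).toNat := by
      have h1 := z.2.1 a
      have h2 := z1.2.1 a
      simp only [Fintype.sum_bool] at h1 h2
      omega
    have rb : (z.1 b true).toNat + (z.1 b false).toNat =
        (z1.1 b true).toNat + (z1.1 b false).toNat := by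
      have h1 := z.2.1 b
      have h2 := z1.2.1 b
      simp only [Fintype.sum_bool] at h1 h2
      omega
    have hne' : ¬ (z1.1 a true = z.1 a true ∧ z1.1 a false = z.1 a false ∧
        z1.1 b true = z.1 b true ∧ z1.1 b false = z.1 b false) := by
      rintro ⟨e1, e2, e3, e4⟩
      apply hne
      apply Subtype.ext
      funext w i
      by_cases hwa : w = a
      · subst hwa; cases i <;> assumption
      · by_cases hwb : w = b
        · subst hwb; cases i <;> assumption
        · rw [h w hwa hwb]
    have fin : ((z.1 a true = true ∧ z.1 b false = true ∧ z.1 b true = false ∧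
          z.1 a false = false) ∨
        (z.1 b true = true ∧ z.1 a false = true ∧ z.1 a true = false ∧ z.1 b false = false)) ∧
        (z1.1 a true = !(z.1 a true) ∧ z1.1 a false = !(z.1 a false) ∧
        z1.1 b true = !(z.1 b true) ∧ z1.1 b false = !(z.1 b false)) := by
      revert kt kf ra rb hne'
      generalize z.1 a true = p1
      generalize z.1 a false = p2
      generalize z.1 b true = p3
      generalize z.1 b false = p4
      generalize z1.1 a true = q1
      generalize z1.1 a false = q2
      generalize z1.1 b true = q3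
      generalize z1.1 b false = q4
      cases p1 <;> cases p2 <;> cases p3 <;> cases p4 <;> cases q1 <;> cases q2 <;>
        cases q3 <;> cases q4 <;> simp
    refine ⟨fin.1, ?_⟩
    obtain ⟨-, f1, f2, f3, f4⟩ := fin
    funext w i
    by_cases hwa : w = a
    · subst hwa; cases i <;> simp [f1, f2]
    · by_cases hwb : w = b
      · subst hwb; cases i <;> simp [f3, f4]
      · simp [hwa, hwb, h w hwa hwb]

theorem sw_ins (x0 : Mat R W r c) {u v : R} (huv : u ≠ v) {a b : W}
    {z z1 : Mat W Bool (rr x0 u v) (cc r u v)} (h : Mat.Off2 a b z z1) (hne : z1 ≠ z) :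
    Sw u v a b (ins x0 huv z) (ins x0 huv z1) ∨ Sw u v b a (ins x0 huv z) (ins x0 huv z1) := by
  obtain ⟨hP, hz1⟩ := cls h hne
  have h1 : (ins x0 huv z1).1 = fun t w => if (t = u ∨ t = v) ∧ (w = a ∨ w = b) then
      !((ins x0 huv z).1 t w) else (ins x0 huv z).1 t w := by
    funext t w
    have e1 : z1.1 w true = if w = a ∨ w = b then !(z.1 w true) else z.1 w true := by rw [hz1]
    have e2 : z1.1 w false = if w = a ∨ w = b then !(z.1 w false) else z.1 w false := by rw [hz1]
    by_cases htu : t = u
    · subst htu
      simp [ins, e1]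
    · by_cases htv : t = v
      · subst htv
        simp [ins, htu, e2]
      · simp [ins, htu, htv]
  rcases hP with ⟨p1, p2, p3, p4⟩ | ⟨p1, p2, p3, p4⟩
  · left
    refine ⟨?_, ?_, ?_, ?_, h1⟩
    · simpa [ins] using p1
    · simpa [ins, huv.symm] using p2
    · simpa [ins] using p3
    · simpa [ins, huv.symm] using p4
  · right
    refine ⟨?_, ?_, ?_, ?_, ?_⟩
    · simpa [ins] using p1
    · simpa [ins, huv.symm] using p2
    · simpa [ins] using p3
    · simpa [ins, huv.symm] using p4
    · rw [h1]
      funext t w
      simp only [or_comm (a := w = a)]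

theorem off2_refl (u v : R) (x : Mat R W r c) : Mat.Off2 u v x x := fun _ _ _ => rfl

open Classical in
/-- the sum over all `y` reached by the switch -/
noncomputable def SS (f : Mat R W r c → ℝ) (u v : R) (a b : W) (x : Mat R W r c) : ℝ :=
  ∑ y, (if Sw u v a b x y then (f x - f y) ^ 2 else 0)

theorem SS_nonneg (f : Mat R W r c → ℝ) (u v : R) (a b : W) (x : Mat R W r c) :
    0 ≤ SS f u v a b x := by
  unfold SS
  apply sum_nonneg
  intro y _
  split_ifs <;> positivity

theorem SS_ge (f : Mat R W r c → ℝ) {u v : R} {a b : W} {x y : Mat R W r c}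
    (h : Sw u v a b x y) : (f x - f y) ^ 2 ≤ SS f u v a b x := by
  classical
  unfold SS
  have := single_le_sum (f := fun y => (if Sw u v a b x y then (f x - f y) ^ 2 else 0))
    (s := univ) (fun y _ => by split_ifs <;> positivity) (mem_univ y)
  simpa [h] using this

theorem Q_le (f : Mat R W r c → ℝ) (x0 : Mat R W r c) {u v : R} (huv : u ≠ v) (m : ℝ) (a b : W)
    (z : Mat W Bool (rr x0 u v) (cc r u v)) :
    (Q a b (fun z => f (ins x0 huv z) - m) z) ^ 2 ≤
      (1 / 4) * (SS f u v a b (ins x0 huv z) + SS f u v b a (ins x0 huv z)) := by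
  have n1 := SS_nonneg f u v a b (ins x0 huv z)
  have n2 := SS_nonneg f u v b a (ins x0 huv z)
  by_cases hex : ∃ z1, Mat.Off2 a b z z1 ∧ z1 ≠ z
  · obtain ⟨z1, h1, hne⟩ := hex
    have hcl : univ.filter (fun y => Mat.Off2 a b z y) = {z, z1} := by
      ext y
      simp only [mem_filter, mem_univ, true_and, mem_insert, mem_singleton]
      constructor
      · intro hy
        by_cases hyz : y = z
        · exact Or.inl hyz
        · right
          apply Subtype.ext
          rw [(cls hy hyz).2, (cls h1 hne).2]
      · rintro (rfl | rfl)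
        · exact off2_refl a b _
        · exact h1
    have hQ : Q a b (fun z => f (ins x0 huv z) - m) z =
        (f (ins x0 huv z) - f (ins x0 huv z1)) / 2 := by
      unfold Q avg
      rw [hcl, sum_pair hne.symm, card_pair hne.symm]
      push_cast
      ring
    rw [hQ]
    rcases sw_ins x0 huv h1 hne with h | h
    · have := SS_ge f h
      nlinarith
    · have := SS_ge f h
      nlinarith
  · have hcl : univ.filter (fun y => Mat.Off2 a b z y) = {z} := by
      ext y
      simp only [mem_filter, mem_univ, true_and, mem_singleton]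
      constructor
      · intro hy
        by_contra hyz
        exact hex ⟨y, hy, hyz⟩
      · rintro rfl
        exact off2_refl a b _
    have hQ : Q a b (fun z => f (ins x0 huv z) - m) z = 0 := by
      unfold Q avg
      rw [hcl, sum_singleton, card_singleton]
      push_cast
      ring
    rw [hQ]
    nlinarith

theorem avg_const (f : Mat R W r c → ℝ) {u v : R} {x0 x : Mat R W r c}
    (h : Mat.Off2 u v x0 x) : avg (Mat.Off2 u v) f x = avg (Mat.Off2 u v) f x0 := by
  have : univ.filter (fun y => Mat.Off2 u v x y) = univ.filter (fun y => Mat.Off2 u v x0 y) := by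
    ext y
    simp only [mem_filter, mem_univ, true_and]
    constructor
    · intro hy t h1 h2
      rw [h t h1 h2, hy t h1 h2]
    · intro hy t h1 h2
      rw [← h t h1 h2, hy t h1 h2]
  unfold avg
  rw [this]

theorem fibre_bound (hrow : RowPoincare) (f : Mat R W r c → ℝ) (x0 : Mat R W r c) {u v : R} (huv : u ≠ v) :
    ∑ x with Mat.Off2 u v x0 x, (Q u v f x) ^ 2 ≤
      (1 / 4) * ∑ x with Mat.Off2 u v x0 x, ∑ a, ∑ b, SS f u v a b x := by
  set m := avg (Mat.Off2 u v) f x0 with hm
  set g : Mat W Bool (rr x0 u v) (cc r u v) → ℝ := fun z => f (ins x0 huv z) - m with hg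
  have hg0 : ∑ z, g z = 0 := by
    simp only [hg, sum_sub_distrib, sum_const, card_univ, nsmul_eq_mul]
    rw [← sum_fibre x0 huv f, hm]
    unfold avg
    rw [← card_fibre x0 huv]
    have hpos : ((univ.filter (fun y => Mat.Off2 u v x0 y)).card : ℝ) ≠ 0 := by
      have : 0 < (univ.filter (fun y => Mat.Off2 u v x0 y)).card :=
        card_pos.mpr ⟨x0, by simp [off2_refl]⟩
      exact_mod_cast this.ne'
    rw [mul_div_cancel₀ _ hpos]
    ring
  have h1 := hrow _ _ _ _ g hg0
  have h2 : ∑ x with Mat.Off2 u v x0 x, (Q u v f x) ^ 2 = ∑ z, g z ^ 2 := by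
    rw [sum_fibre x0 huv]
    apply sum_congr rfl
    intro z _
    simp only [hg, Q]
    rw [avg_const f (off_ins x0 huv z)]
  have h3 : ∑ a, ∑ b, ∑ z, (Q a b g z) ^ 2 ≤
      ∑ a, ∑ b, ∑ z, (1 / 4) * (SS f u v a b (ins x0 huv z) + SS f u v b a (ins x0 huv z)) := by
    apply sum_le_sum; intro a _
    apply sum_le_sum; intro b _
    apply sum_le_sum; intro z _
    exact Q_le f x0 huv m a b z
  have h4 : ∑ a, ∑ b, ∑ z, (1 / 4) * (SS f u v a b (ins x0 huv z) + SS f u v b a (ins x0 huv z))
      = (1 / 2) * ∑ a, ∑ b, ∑ z, SS f u v a b (ins x0 huv z) := by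
    have e1 : ∑ a, ∑ b, ∑ z, SS f u v b a (ins x0 huv z) =
        ∑ a, ∑ b, ∑ z, SS f u v a b (ins x0 huv z) := by
      rw [sum_comm]
    simp only [← mul_sum, sum_add_distrib]
    rw [e1]
    ring
  have h5 : ∑ x with Mat.Off2 u v x0 x, ∑ a, ∑ b, SS f u v a b x =
      ∑ a, ∑ b, ∑ z, SS f u v a b (ins x0 huv z) := by
    rw [sum_fibre x0 huv, sum_comm]
    apply sum_congr rfl
    intro a _
    rw [sum_comm]
  rw [h2, h5]
  linarith

theorem Q_self (f : Mat R W r c → ℝ) (u : R) (x : Mat R W r c) : Q u u f x = 0 := by
  have hcl : univ.filter (fun y => Mat.Off2 u u x y) = {x} := by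
    ext y
    simp only [mem_filter, mem_univ, true_and, mem_singleton]
    constructor
    · intro hy
      apply Subtype.ext
      funext t w
      by_cases ht : t = u
      · subst ht
        have h1 := x.2.2 w
        have h2 := y.2.2 w
        rw [← Finset.add_sum_erase _ _ (mem_univ t)] at h1 h2
        have h3 : ∑ s ∈ univ.erase t, (y.1 s w).toNat = ∑ s ∈ univ.erase t, (x.1 s w).toNat := by
          apply sum_congr rfl
          intro s hs
          rw [hy s (ne_of_mem_erase hs) (ne_of_mem_erase hs)]
        rw [h3] at h2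
        have h4 : (y.1 t w).toNat = (x.1 t w).toNat := by omega
        revert h4
        cases y.1 t w <;> cases x.1 t w <;> simp
      · rw [hy t ht ht]
    · rintro rfl
      exact off2_refl u u _
  unfold Q avg
  rw [hcl, sum_singleton, card_singleton]
  simp

/-- the rows off `u, v` -/
def key (u v : R) (x : Mat R W r c) : R → W → Bool :=
  fun t w => if t = u ∨ t = v then false else x.1 t w

theorem key_iff (u v : R) (x y : Mat R W r c) : key u v y = key u v x ↔ Mat.Off2 u v x y := by
  constructor
  · intro h t h1 h2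
    funext w
    have := congrFun (congrFun h t) w
    simpa [key, h1, h2] using this.symm
  · intro h
    funext t w
    by_cases ht : t = u ∨ t = v
    · simp [key, ht]
    · push Not at ht
      simp [key, ht.1, ht.2, h t ht.1 ht.2]

theorem uv_bound (hrow : RowPoincare) (f : Mat R W r c → ℝ) (u v : R) :
    ∑ x, (Q u v f x) ^ 2 ≤ (1 / 4) * ∑ x, ∑ a, ∑ b, SS f u v a b x := by
  classical
  by_cases huv : u = v
  · subst huv
    simp only [Q_self]
    have : 0 ≤ ∑ x, ∑ a, ∑ b, SS f u u a b x :=
      sum_nonneg fun x _ => sum_nonneg fun a _ => sum_nonneg fun b _ => SS_nonneg f u u a b x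
    simp
    linarith
  · rw [← sum_fiberwise (s := univ) (g := key u v) (f := fun x => (Q u v f x) ^ 2),
      ← sum_fiberwise (s := univ) (g := key u v) (f := fun x => ∑ a, ∑ b, SS f u v a b x),
      mul_sum]
    apply sum_le_sum
    intro k _
    by_cases hk : ∃ x0 : Mat R W r c, key u v x0 = k
    · obtain ⟨x0, rfl⟩ := hk
      have : univ.filter (fun x => key u v x = key u v x0) =
          univ.filter (fun x => Mat.Off2 u v x0 x) := by
        ext x
        simp only [mem_filter, mem_univ, true_and]
        exact key_iff u v x0 x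
      rw [this]
      exact fibre_bound hrow f x0 huv
    · have : univ.filter (fun x : Mat R W r c => key u v x = k) = ∅ := by
        ext x
        simp only [mem_filter, mem_univ, true_and, notMem_empty, iff_false]
        exact fun h => hk ⟨x, h⟩
      rw [this]
      simp

end Two

open Classical in
theorem switch_poincare_of (hrow : RowPoincare) {R W : Type} [Fintype R] [Fintype W] [DecidableEq R] [DecidableEq W]
    {r : R → ℕ} {c : W → ℕ} (f : Mat R W r c → ℝ) (hf : ∑ x, f x = 0) :
    ∑ x, f x ^ 2 ≤ (1 / 8) * ∑ u, ∑ v, ∑ a, ∑ b, ∑ x, ∑ y,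
      (if Sw u v a b x y then (f x - f y) ^ 2 else 0) := by
  have h1 := hrow _ _ _ _ f hf
  have h2 : ∑ u, ∑ v, ∑ x, (Q u v f x) ^ 2 ≤
      ∑ u, ∑ v, (1 / 4) * ∑ x, ∑ a, ∑ b, Two.SS f u v a b x := by
    apply sum_le_sum; intro u _
    apply sum_le_sum; intro v _
    exact Two.uv_bound hrow f u v
  have h3 : ∑ u, ∑ v, (1 / 4) * ∑ x, ∑ a, ∑ b, Two.SS f u v a b x =
      (1 / 4) * ∑ u, ∑ v, ∑ a, ∑ b, ∑ x, ∑ y,
      (if Sw u v a b x y then (f x - f y) ^ 2 else 0) := by
    simp only [← mul_sum]
    congr 1
    apply sum_congr rfl; intro u _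
    apply sum_congr rfl; intro v _
    rw [sum_comm]
    apply sum_congr rfl; intro a _
    rw [sum_comm]
    rfl
  rw [h3] at h2
  linarith

end Vale.Agent.Lib.P335
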