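import Vale.Agent.Lib.P335.Graph1
import Vale.Agent.Lib.P335.Rows
import Vale.Agent.Lib.P335.Two
import Vale.Agent.Lib.P335.Mix

/-!
# P335 : the switch chain on split degree sequences
-/

set_option linter.unusedSectionVars false

open Finset

namespace Vale.Agent.Lib.P335

/-- `K` is a clique and its complement is independent. -/
def IsSplit {n : ℕ} (G : SimpleGraph (Fin n)) (K : Finset (Fin n)) : Prop :=
  (∀ u ∈ K, ∀ v ∈ K, u ≠ v → G.Adj u v) ∧ (∀ u ∉ K, ∀ v ∉ K, ¬ G.Adj u v)

open Classical in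
/-- adjacency indicator -/
noncomputable def adjN {n : ℕ} (G : SimpleGraph (Fin n)) (u v : Fin n) : ℕ :=
  if G.Adj u v then 1 else 0

theorem adjN_comm {n : ℕ} (G : SimpleGraph (Fin n)) (u v : Fin n) : adjN G u v = adjN G v u := by
  unfold adjN
  by_cases h : G.Adj u v
  · rw [if_pos h, if_pos h.symm]
  · rw [if_neg h, if_neg (fun h' => h h'.symm)]

theorem adjN_le {n : ℕ} (G : SimpleGraph (Fin n)) (u v : Fin n) :
    adjN G u v ≤ if u ≠ v then 1 else 0 := by
  unfold adjN
  by_cases h : G.Adj u v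
  · have := G.ne_of_adj h
    simp [h, this]
  · simp [h]

theorem deg_sum {n : ℕ} (G : SimpleGraph (Fin n)) (i : Fin n) :
    (G.neighborSet i).ncard = ∑ j, adjN G i j := by
  classical
  have h1 : (G.neighborSet i) = ((univ.filter (fun j => G.Adj i j) : Finset (Fin n)) : Set (Fin n)) := by
    ext j
    simp [SimpleGraph.mem_neighborSet]
  rw [h1, Set.ncard_coe_finset, card_filter]
  rfl

/-- counting identity -/
theorem split_count {n : ℕ} (d : Fin n → ℕ) (G : Realiz d) (K : Finset (Fin n)) :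
    ∑ u ∈ K, d u + ∑ u ∈ Kᶜ, ∑ v ∈ Kᶜ, adjN G.1 u v =
      ∑ u ∈ Kᶜ, d u + ∑ u ∈ K, ∑ v ∈ K, adjN G.1 u v := by
  have h1 : ∀ u, d u = ∑ v ∈ K, adjN G.1 u v + ∑ v ∈ Kᶜ, adjN G.1 u v := by
    intro u
    rw [← G.2 u, deg_sum, sum_add_sum_compl]
  have h2 : ∑ u ∈ K, d u = ∑ u ∈ K, ∑ v ∈ K, adjN G.1 u v + ∑ u ∈ K, ∑ v ∈ Kᶜ, adjN G.1 u v := by
    rw [← sum_add_distrib]
    exact sum_congr rfl (fun u _ => h1 u)
  have h3 : ∑ u ∈ Kᶜ, d u = ∑ u ∈ Kᶜ, ∑ v ∈ K, adjN G.1 u v + ∑ u ∈ Kᶜ, ∑ v ∈ Kᶜ, adjN G.1 u v := by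
    rw [← sum_add_distrib]
    exact sum_congr rfl (fun u _ => h1 u)
  have h4 : ∑ u ∈ K, ∑ v ∈ Kᶜ, adjN G.1 u v = ∑ u ∈ Kᶜ, ∑ v ∈ K, adjN G.1 u v := by
    rw [sum_comm]
    apply sum_congr rfl; intro u _
    apply sum_congr rfl; intro v _
    exact adjN_comm _ _ _
  omega

theorem isSplit_all {n : ℕ} (d : Fin n → ℕ) (G₀ G : Realiz d) (K : Finset (Fin n))
    (h : IsSplit G₀.1 K) : IsSplit G.1 K := by
  classical
  have h0 := split_count d G₀ K
  have h1 := split_count d G K
  have e1 : ∑ u ∈ Kᶜ, ∑ v ∈ Kᶜ, adjN G₀.1 u v = 0 := by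
    apply sum_eq_zero; intro u hu
    apply sum_eq_zero; intro v hv
    rw [mem_compl] at hu hv
    unfold adjN
    rw [if_neg (h.2 u hu v hv)]
  have e2 : ∑ u ∈ K, ∑ v ∈ K, adjN G₀.1 u v = ∑ u ∈ K, ∑ v ∈ K, (if u ≠ v then 1 else 0) := by
    apply sum_congr rfl; intro u hu
    apply sum_congr rfl; intro v hv
    unfold adjN
    by_cases huv : u = v
    · subst huv; simp
    · simp [huv, h.1 u hu v hv huv]
  have e3 : ∑ u ∈ K, ∑ v ∈ K, adjN G.1 u v ≤ ∑ u ∈ K, ∑ v ∈ K, (if u ≠ v then 1 else 0) := by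
    apply sum_le_sum; intro u _
    apply sum_le_sum; intro v _
    exact adjN_le _ _ _
  have e4 : ∑ u ∈ Kᶜ, ∑ v ∈ Kᶜ, adjN G.1 u v = 0 := by omega
  have e5 : ∑ u ∈ K, ∑ v ∈ K, adjN G.1 u v = ∑ u ∈ K, ∑ v ∈ K, (if u ≠ v then 1 else 0) := by omega
  constructor
  · intro u hu v hv huv
    have h2 := (sum_eq_sum_iff_of_le (fun u _ => sum_le_sum (fun v _ => adjN_le G.1 u v))).mp e5 u hu
    have h3 := (sum_eq_sum_iff_of_le (fun v _ => adjN_le G.1 u v)).mp h2 v hv
    by_contra hcon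
    unfold adjN at h3
    simp [hcon, huv] at h3
  · intro u hu v hv hadj
    rw [sum_eq_zero_iff] at e4
    have h2 := e4 u (mem_compl.mpr hu)
    rw [sum_eq_zero_iff] at h2
    have h3 := h2 v (mem_compl.mpr hv)
    unfold adjN at h3
    simp [hadj] at h3

/-! ### The biadjacency matrix -/

section bij

variable {n : ℕ}

theorem sum_two (K : Finset (Fin n)) (g : Fin n → ℕ) :
    ∑ j, g j = ∑ j : {j // j ∈ K}, g j + ∑ j : {j // j ∉ K}, g j := by
  have h := (Fintype.sum_subtype_add_sum_subtype (fun j => j ∈ K) g).symm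
  rw [h]
  congr 1
  apply sum_congr _ (fun _ _ => rfl)
  ext x
  simp

open Classical in
/-- biadjacency matrix -/
noncomputable def bia (G : SimpleGraph (Fin n)) (K : Finset (Fin n)) :
    {u // u ∈ K} → {w // w ∉ K} → Bool := fun u w => decide (G.Adj u w)

theorem adjN_bia (G : SimpleGraph (Fin n)) (K : Finset (Fin n)) (u : {u // u ∈ K})
    (w : {w // w ∉ K}) : adjN G u w = (bia G K u w).toNat := by
  unfold adjN bia
  by_cases h : G.Adj u w <;> simp [h]

theorem card_other (K : Finset (Fin n)) (u : Fin n) (hu : u ∈ K) :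
    ∑ v : {v // v ∈ K}, (if u ≠ v then 1 else 0) = K.card - 1 := by
  classical
  have h1 : ∑ v : {v // v ∈ K}, (if u ≠ v then 1 else 0) = ∑ v ∈ K, (if u ≠ v then 1 else 0) :=
    sum_coe_sort K (fun v => if u ≠ v then 1 else 0)
  rw [h1, ← card_filter]
  have h2 : (filter (fun v => u ≠ v) K) = K.erase u := by
    ext v
    simp only [mem_filter, mem_erase]
    tauto
  rw [h2, card_erase_of_mem hu]

theorem deg_row (G : SimpleGraph (Fin n)) (K : Finset (Fin n)) (h : IsSplit G K)
    (u : {u // u ∈ K}) :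
    (G.neighborSet u).ncard = (K.card - 1) + ∑ w, (bia G K u w).toNat := by
  classical
  rw [deg_sum, sum_two K, ← card_other K u.1 u.2]
  congr 1
  · apply sum_congr rfl
    intro v _
    unfold adjN
    by_cases huv : u.1 = v.1
    · rw [huv]; simp
    · rw [if_pos (h.1 u.1 u.2 v.1 v.2 huv), if_pos huv]
  · apply sum_congr rfl
    intro w _
    exact adjN_bia G K u w

theorem deg_col (G : SimpleGraph (Fin n)) (K : Finset (Fin n)) (h : IsSplit G K)
    (w : {w // w ∉ K}) :
    (G.neighborSet w).ncard = ∑ u, (bia G K u w).toNat := by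
  classical
  rw [deg_sum, sum_two K]
  have h1 : ∑ j : {j // j ∉ K}, adjN G w j = 0 := by
    apply sum_eq_zero; intro v _
    unfold adjN
    rw [if_neg (h.2 w.1 w.2 v.1 v.2)]
  rw [h1, add_zero]
  apply sum_congr rfl
  intro u _
  rw [adjN_comm]
  exact adjN_bia G K u w

/-- the graph with a given biadjacency matrix -/
def gr (K : Finset (Fin n)) (x : {u // u ∈ K} → {w // w ∉ K} → Bool) : SimpleGraph (Fin n) where
  Adj i j := (i ≠ j ∧ i ∈ K ∧ j ∈ K) ∨ (∃ (hi : i ∈ K) (hj : j ∉ K), x ⟨i, hi⟩ ⟨j, hj⟩ = true) ∨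
    (∃ (hj : j ∈ K) (hi : i ∉ K), x ⟨j, hj⟩ ⟨i, hi⟩ = true)
  symm := ⟨by
    rintro i j (⟨h1, h2, h3⟩ | h | h)
    · exact Or.inl ⟨h1.symm, h3, h2⟩
    · exact Or.inr (Or.inr h)
    · exact Or.inr (Or.inl h)⟩
  loopless := ⟨by
    rintro i (⟨h1, _, _⟩ | ⟨hi, hj, _⟩ | ⟨hj, hi, _⟩)
    · exact h1 rfl
    · exact hj hi
    · exact hi hj⟩

theorem gr_split (K : Finset (Fin n)) (x : {u // u ∈ K} → {w // w ∉ K} → Bool) :
    IsSplit (gr K x) K := by
  constructor
  · intro u hu v hv huv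
    exact Or.inl ⟨huv, hu, hv⟩
  · rintro u hu v hv (⟨_, h2, _⟩ | ⟨hi, _, _⟩ | ⟨hj, _, _⟩)
    · exact hu h2
    · exact hu hi
    · exact hv hj

theorem bia_gr (K : Finset (Fin n)) (x : {u // u ∈ K} → {w // w ∉ K} → Bool) :
    bia (gr K x) K = x := by
  funext u w
  unfold bia
  have : (gr K x).Adj u w ↔ x u w = true := by
    constructor
    · rintro (⟨_, _, h3⟩ | ⟨hi, hj, h⟩ | ⟨hj, hi, h⟩)
      · exact absurd h3 w.2
      · exact h
      · exact absurd hj w.2
    · intro h
      exact Or.inr (Or.inl ⟨u.2, w.2, h⟩)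
  cases hx : x u w
  · simp [this, hx]
  · simp [this, hx]

theorem bia_inj {G H : SimpleGraph (Fin n)} {K : Finset (Fin n)} (hG : IsSplit G K)
    (hH : IsSplit H K) (h : bia G K = bia H K) : G = H := by
  have key : ∀ (u : {u // u ∈ K}) (w : {w // w ∉ K}), G.Adj u w ↔ H.Adj u w := by
    intro u w
    have := congrFun (congrFun h u) w
    unfold bia at this
    simpa using this
  ext i j
  by_cases hi : i ∈ K
  · by_cases hj : j ∈ K
    · by_cases hij : i = j
      · subst hij; simp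
      · exact ⟨fun _ => hH.1 i hi j hj hij, fun _ => hG.1 i hi j hj hij⟩
    · exact key ⟨i, hi⟩ ⟨j, hj⟩
  · by_cases hj : j ∈ K
    · rw [G.adj_comm, H.adj_comm]
      exact key ⟨j, hj⟩ ⟨i, hi⟩
    · exact ⟨fun hh => absurd hh (hG.2 i hi j hj), fun hh => absurd hh (hH.2 i hi j hj)⟩

/-- row sums of the biadjacency matrices -/
def rS (d : Fin n → ℕ) (K : Finset (Fin n)) : {u // u ∈ K} → ℕ := fun u => d u - (K.card - 1)
/-- column sums of the biadjacency matrices -/
def cS (d : Fin n → ℕ) (K : Finset (Fin n)) : {w // w ∉ K} → ℕ := fun w => d w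

/-- the matrix of a realization -/
noncomputable def toMat (d : Fin n → ℕ) (K : Finset (Fin n)) (hall : ∀ G : Realiz d, IsSplit G.1 K)
    (G : Realiz d) : Mat {u // u ∈ K} {w // w ∉ K} (rS d K) (cS d K) :=
  ⟨bia G.1 K, by
    constructor
    · intro u
      have := deg_row G.1 K (hall G) u
      rw [G.2 u] at this
      unfold rS
      omega
    · intro w
      have := deg_col G.1 K (hall G) w
      rw [G.2 w] at this
      exact this.symm⟩

theorem toMat_bij (d : Fin n → ℕ) (K : Finset (Fin n)) (hall : ∀ G : Realiz d, IsSplit G.1 K)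
    (G₀ : Realiz d) : Function.Bijective (toMat d K hall) := by
  constructor
  · intro G H h
    have h1 : bia G.1 K = bia H.1 K := congrArg Subtype.val h
    exact Subtype.ext (bia_inj (hall G) (hall H) h1)
  · intro x
    have hs := gr_split K x.1
    refine ⟨⟨gr K x.1, ?_⟩, Subtype.ext (bia_gr K x.1)⟩
    intro i
    by_cases hi : i ∈ K
    · have h1 := deg_row (gr K x.1) K hs ⟨i, hi⟩
      rw [bia_gr, x.2.1] at h1
      have h2 := deg_row G₀.1 K (hall G₀) ⟨i, hi⟩
      rw [G₀.2 i] at h2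
      unfold rS at h1
      simp only at h1 h2
      omega
    · have h1 := deg_col (gr K x.1) K hs ⟨i, hi⟩
      rw [bia_gr, x.2.2] at h1
      exact h1

theorem mem_pair {K : Finset (Fin n)} (i u v : {u // u ∈ K}) (w a b : {w // w ∉ K}) :
    s((i : Fin n), (w : Fin n)) ∈ ({s((u : Fin n), (a : Fin n)), s((v : Fin n), (b : Fin n))} :
      Finset (Sym2 (Fin n))) ↔ (i = u ∧ w = a) ∨ (i = v ∧ w = b) := by
  have hia : (i : Fin n) ≠ a := by intro h; exact a.2 (h ▸ i.2)
  have hib : (i : Fin n) ≠ b := by intro h; exact b.2 (h ▸ i.2)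
  simp only [mem_insert, mem_singleton, Sym2.eq_iff, Subtype.ext_iff]
  constructor
  · rintro ((h | h) | (h | h))
    · exact Or.inl h
    · exact absurd h.1 hia
    · exact Or.inr h
    · exact absurd h.1 hib
  · rintro (h | h)
    · exact Or.inl (Or.inl h)
    · exact Or.inr (Or.inl h)

theorem sw_propose (d : Fin n → ℕ) (K : Finset (Fin n)) (hall : ∀ G : Realiz d, IsSplit G.1 K)
    (G H : Realiz d) (u v : {u // u ∈ K}) (a b : {w // w ∉ K})
    (h : Sw u v a b (toMat d K hall G) (toMat d K hall H)) :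
    ∃ S F F', S.card = 4 ∧ IsPM S F ∧ IsPM S F' ∧ F ≠ F' ∧ H.1 = propose G.1 F F' := by
  classical
  obtain ⟨h1, h2, h3, h4, h5⟩ := h
  have huv : u ≠ v := by rintro rfl; rw [h1] at h4; exact absurd h4 (by simp)
  have hab : a ≠ b := by rintro rfl; rw [h1] at h3; exact absurd h3 (by simp)
  have huv' : (u : Fin n) ≠ v := fun h => huv (Subtype.ext h)
  have hab' : (a : Fin n) ≠ b := fun h => hab (Subtype.ext h)
  have hua : (u : Fin n) ≠ a := by intro h; exact a.2 (h ▸ u.2)
  have hub : (u : Fin n) ≠ b := by intro h; exact b.2 (h ▸ u.2)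
  have hva : (v : Fin n) ≠ a := by intro h; exact a.2 (h ▸ v.2)
  have hvb : (v : Fin n) ≠ b := by intro h; exact b.2 (h ▸ v.2)
  have hF : IsPM ({(u : Fin n), (a : Fin n), (v : Fin n), (b : Fin n)} : Finset (Fin n))
      {s((u : Fin n), (a : Fin n)), s((v : Fin n), (b : Fin n))} :=
    isPM_pair hua huv' hub hva.symm hab' hvb
  have hF' : IsPM ({(u : Fin n), (a : Fin n), (v : Fin n), (b : Fin n)} : Finset (Fin n))
      {s((u : Fin n), (b : Fin n)), s((v : Fin n), (a : Fin n))} := by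
    have : ({(u : Fin n), (a : Fin n), (v : Fin n), (b : Fin n)} : Finset (Fin n)) =
        {(u : Fin n), (b : Fin n), (v : Fin n), (a : Fin n)} := by
      ext t; simp only [mem_insert, mem_singleton]; tauto
    rw [this]
    exact isPM_pair hub huv' hua hvb.symm hab'.symm hva
  have hAG : ∀ (i : {u // u ∈ K}) (w : {w // w ∉ K}), G.1.Adj i w ↔ (toMat d K hall G).1 i w = true := by
    intro i w
    change _ ↔ bia G.1 K i w = true
    unfold bia
    simp
  have hAH : ∀ (i : {u // u ∈ K}) (w : {w // w ∉ K}), H.1.Adj i w ↔ (toMat d K hall H).1 i w = true := by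
    intro i w
    change _ ↔ bia H.1 K i w = true
    unfold bia
    simp
  refine ⟨_, _, _, ?_, hF, hF', ?_, ?_⟩
  · rw [card_insert_of_notMem, card_insert_of_notMem, card_insert_of_notMem, card_singleton]
    · simpa using hvb
    · simp only [mem_insert, mem_singleton, not_or]
      exact ⟨hva.symm, hab'⟩
    · simp only [mem_insert, mem_singleton, not_or]
      exact ⟨hua, huv', hub⟩
  · intro hcon
    have : s((u : Fin n), (a : Fin n)) ∈ ({s((u : Fin n), (b : Fin n)), s((v : Fin n), (a : Fin n))} :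
        Finset (Sym2 (Fin n))) := by rw [← hcon]; simp
    simp only [mem_insert, mem_singleton, Sym2.eq_iff] at this
    rcases this with (⟨_, h⟩ | ⟨h, _⟩) | (⟨h, _⟩ | ⟨h, _⟩)
    · exact hab' h
    · exact hub h
    · exact huv' h
    · exact hua h
  · obtain ⟨H', hH'⟩ := exists_propose d G hF hF'
    rw [← hH']
    apply bia_inj (hall H) (hall H')
    have hc : (∀ e ∈ ({s((u : Fin n), (a : Fin n)), s((v : Fin n), (b : Fin n))} :
        Finset (Sym2 (Fin n))), e ∈ G.1.edgeSet) ∧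
        (∀ e ∈ ({s((u : Fin n), (b : Fin n)), s((v : Fin n), (a : Fin n))} :
        Finset (Sym2 (Fin n))), e ∉ G.1.edgeSet) := by
      constructor
      · intro e he
        simp only [mem_insert, mem_singleton] at he
        rcases he with rfl | rfl
        · rw [SimpleGraph.mem_edgeSet, hAG]; exact h1
        · rw [SimpleGraph.mem_edgeSet, hAG]; exact h2
      · intro e he
        simp only [mem_insert, mem_singleton] at he
        rcases he with rfl | rfl
        · rw [SimpleGraph.mem_edgeSet, hAG, h3]; simp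
        · rw [SimpleGraph.mem_edgeSet, hAG, h4]; simp
    have hE := edgeSet_propose hF' G.1 hc
    rw [← hH'] at hE
    funext i w
    have key : H.1.Adj i w ↔ H'.1.Adj i w := by
      rw [← SimpleGraph.mem_edgeSet (G := H'.1), hE, hAH, h5]
      have m1 := mem_pair i u v w a b
      have m2 := mem_pair i u v w b a
      simp only [Set.mem_union, Set.mem_sdiff, mem_coe, m1, m2, SimpleGraph.mem_edgeSet, hAG]
      by_cases hi1 : i = u
      · subst hi1
        by_cases hw1 : w = a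
        · subst hw1
          simp [h1, huv, hab]
        · by_cases hw2 : w = b
          · subst hw2
            simp [h3, huv, hab.symm]
          · simp [hw1, hw2]
      · by_cases hi2 : i = v
        · subst hi2
          by_cases hw1 : w = a
          · subst hw1
            simp [h4, huv.symm, hab]
          · by_cases hw2 : w = b
            · subst hw2
              simp [h2, huv.symm, hab.symm]
            · simp [hw1, hw2]
        · simp [hi1, hi2]
    unfold bia
    by_cases hh : H.1.Adj i w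
    · simp [hh, key.mp hh]
    · have hh' : ¬ H'.1.Adj i w := fun h' => hh (key.mpr h')
      simp [hh, hh']

theorem switchP_ge (d : Fin n → ℕ) (G H : Realiz d) {S : Finset (Fin n)}
    {F F' : Finset (Sym2 (Fin n))} (hS : S.card = 4) (hF : IsPM S F) (hF' : IsPM S F')
    (hne : F ≠ F') (h : H.1 = propose G.1 F F') :
    1 / (12 * (n.choose 4 : ℝ)) ≤ switchP d G H := by
  classical
  unfold switchP
  have hC : (0 : ℝ) ≤ 1 / (n.choose 4 : ℝ) := by positivity
  have h1 : (1 / 6 : ℝ) ≤ ∑ F ∈ pms S, ∑ F' ∈ (pms S).erase F,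
      (1 / 6) * (if H.1 = propose G.1 F F' then 1 else 0) := by
    have e1 : (1 / 6 : ℝ) = (1 / 6) * (if H.1 = propose G.1 F F' then 1 else 0) := by
      rw [if_pos h]; norm_num
    have e2 : (1 / 6 : ℝ) * (if H.1 = propose G.1 F F' then 1 else 0) ≤
        ∑ F' ∈ (pms S).erase F, (1 / 6) * (if H.1 = propose G.1 F F' then 1 else 0) := by
      apply Finset.single_le_sum (f := fun F' => (1 / 6 : ℝ) * (if H.1 = propose G.1 F F' then 1 else 0))
      · intro i _
        split_ifs <;> norm_num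
      · rw [mem_erase, mem_pms]
        exact ⟨hne.symm, hF'⟩
    have e3 : ∑ F' ∈ (pms S).erase F, (1 / 6 : ℝ) * (if H.1 = propose G.1 F F' then 1 else 0) ≤
        ∑ F ∈ pms S, ∑ F' ∈ (pms S).erase F, (1 / 6) * (if H.1 = propose G.1 F F' then 1 else 0) := by
      apply Finset.single_le_sum (f := fun F => ∑ F' ∈ (pms S).erase F,
        (1 / 6 : ℝ) * (if H.1 = propose G.1 F F' then 1 else 0))
      · intro i _
        apply sum_nonneg
        intro j _
        split_ifs <;> norm_num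
      · rw [mem_pms]; exact hF
    linarith [e1.le]
  have h2 : (1 / (n.choose 4 : ℝ)) * (1 / 6) ≤ ∑ S ∈ powersetCard 4 (univ : Finset (Fin n)),
      (1 / (n.choose 4 : ℝ)) * ∑ F ∈ pms S, ∑ F' ∈ (pms S).erase F,
        (1 / 6) * (if H.1 = propose G.1 F F' then 1 else 0) := by
    refine le_trans (mul_le_mul_of_nonneg_left h1 hC) ?_
    apply Finset.single_le_sum (f := fun S => (1 / (n.choose 4 : ℝ)) * ∑ F ∈ pms S, ∑ F' ∈ (pms S).erase F,
        (1 / 6) * (if H.1 = propose G.1 F F' then 1 else 0))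
    · intro i _
      apply mul_nonneg hC
      apply sum_nonneg; intro j _
      apply sum_nonneg; intro k _
      split_ifs <;> norm_num
    · rw [mem_powersetCard]
      exact ⟨subset_univ _, hS⟩
  have h3 : (0 : ℝ) ≤ (1 / 2) * (if H = G then 1 else 0) := by
    split_ifs <;> norm_num
  have h4 : 1 / (12 * (n.choose 4 : ℝ)) = (1 / 2) * ((1 / (n.choose 4 : ℝ)) * (1 / 6)) := by
    by_cases hz : (n.choose 4 : ℝ) = 0
    · rw [hz]; simp
    · field_simp; norm_num
  rw [h4]
  linarith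

end bij

/-! ### counting quadruples -/

open Classical in
theorem quad_count {R W : Type} [Fintype R] [Fintype W] [DecidableEq R] [DecidableEq W]
    {r : R → ℕ} {c : W → ℕ} (x y : Mat R W r c) (k p : ℝ) (hk : 0 ≤ k) (hp : 0 ≤ p)
    (hP : ∀ u v a b, Sw u v a b x y → 1 ≤ p) :
    ∑ u, ∑ v, ∑ a, ∑ b, (if Sw u v a b x y then k else 0) ≤ 4 * (p * k) := by
  have e1 : ∑ u, ∑ v, ∑ a, ∑ b, (if Sw u v a b x y then k else 0) =
      ∑ q : R × R × W × W, (if Sw q.1 q.2.1 q.2.2.1 q.2.2.2 x y then k else 0) := by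
    simp only [Fintype.sum_prod_type]
  rw [e1, ← sum_filter, sum_const, nsmul_eq_mul]
  by_cases hex : ∃ u v a b, Sw u v a b x y
  · obtain ⟨u0, v0, a0, b0, h0⟩ := hex
    have hp1 := hP _ _ _ _ h0
    have hsub : (univ.filter (fun q : R × R × W × W => Sw q.1 q.2.1 q.2.2.1 q.2.2.2 x y)) ⊆
        {(u0, v0, a0, b0), (u0, v0, b0, a0), (v0, u0, a0, b0), (v0, u0, b0, a0)} := by
      rintro ⟨u, v, a, b⟩ hq
      simp only [mem_filter, mem_univ, true_and] at hq
      obtain ⟨h1, h2, h3, h4, h5⟩ := hq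
      have huv : u ≠ v := by rintro rfl; rw [h1] at h4; exact absurd h4 (by simp)
      have hab : a ≠ b := by rintro rfl; rw [h1] at h3; exact absurd h3 (by simp)
      have key : ∀ t w, y.1 t w ≠ x.1 t w → (t = u0 ∨ t = v0) ∧ (w = a0 ∨ w = b0) := by
        intro t w hne
        by_contra hcon
        apply hne
        rw [h0.2.2.2.2]
        simp only
        rw [if_neg hcon]
      have k1 := key u a (by rw [h5]; simp)
      have k2 := key v b (by rw [h5]; simp)
      simp only [mem_insert, mem_singleton, Prod.mk.injEq]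
      rcases k1 with ⟨k1 | k1, k1' | k1'⟩ <;> rcases k2 with ⟨k2 | k2, k2' | k2'⟩
      all_goals first
        | exact absurd (k1.trans k2.symm) huv
        | exact absurd (k1'.trans k2'.symm) hab
        | simp [k1, k2, k1', k2']
    have hcard : (univ.filter (fun q : R × R × W × W => Sw q.1 q.2.1 q.2.2.1 q.2.2.2 x y)).card ≤ 4 :=
      (card_le_card hsub).trans card_le_four
    have h6 : ((univ.filter (fun q : R × R × W × W => Sw q.1 q.2.1 q.2.2.1 q.2.2.2 x y)).card : ℝ) ≤ 4 := by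
      exact_mod_cast hcard
    have h7 : k ≤ p * k := by nlinarith
    nlinarith
  · have : (univ.filter (fun q : R × R × W × W => Sw q.1 q.2.1 q.2.2.1 q.2.2.2 x y)) = ∅ := by
      ext q
      simp only [mem_filter, mem_univ, true_and, notMem_empty, iff_false]
      exact fun h => hex ⟨_, _, _, _, h⟩
    rw [this]
    simp only [card_empty, Nat.cast_zero, zero_mul]
    positivity

theorem sum6 {R W X : Type} [Fintype R] [Fintype W] [Fintype X] (φ : R → R → W → W → X → X → ℝ) :
    ∑ u, ∑ v, ∑ a, ∑ b, ∑ x, ∑ y, φ u v a b x y = ∑ x, ∑ y, ∑ u, ∑ v, ∑ a, ∑ b, φ u v a b x y := by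
  have e1 : ∑ u, ∑ v, ∑ a, ∑ b, ∑ x, ∑ y, φ u v a b x y =
      ∑ q : R × R × W × W, ∑ z : X × X, φ q.1 q.2.1 q.2.2.1 q.2.2.2 z.1 z.2 := by
    simp only [Fintype.sum_prod_type]
  have e2 : ∑ x, ∑ y, ∑ u, ∑ v, ∑ a, ∑ b, φ u v a b x y =
      ∑ z : X × X, ∑ q : R × R × W × W, φ q.1 q.2.1 q.2.2.1 q.2.2.2 z.1 z.2 := by
    simp only [Fintype.sum_prod_type]
  rw [e1, e2, sum_comm]

theorem switch_poincare {R W : Type} [Fintype R] [Fintype W] [DecidableEq R] [DecidableEq W]
    {r : R → ℕ} {c : W → ℕ} (f : Mat R W r c → ℝ) (hf : ∑ x, f x = 0) [∀ u v a b, DecidableRel (Sw (r := r) (c := c) (R := R) (W := W) u v a b)] :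
    ∑ x, f x ^ 2 ≤ (1 / 8) * ∑ u, ∑ v, ∑ a, ∑ b, ∑ x, ∑ y,
      (if Sw u v a b x y then (f x - f y) ^ 2 else 0) := by
  have h := switch_poincare_of (fun R W _ _ _ _ r c f hf => row_poincare f hf) f hf
  convert h

/-- Poincare inequality of the switch chain for split degree vectors. -/
theorem split_poincare {n : ℕ} (hn : 4 ≤ n) (d : Fin n → ℕ) (G₀ : Realiz d) (K : Finset (Fin n))
    (h : IsSplit G₀.1 K) (f : Realiz d → ℝ) (hf : ∑ G, f G = 0) :
    ∑ G, f G ^ 2 ≤ (12 * (n.choose 4 : ℝ)) * ∑ G, ∑ H, switchP d G H * (f G - f H) ^ 2 / 2 := by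
  classical
  have hall : ∀ G : Realiz d, IsSplit G.1 K := fun G => isSplit_all d G₀ G K h
  set e : Realiz d ≃ Mat {u // u ∈ K} {w // w ∉ K} (rS d K) (cS d K) :=
    Equiv.ofBijective _ (toMat_bij d K hall G₀) with he
  have hC : (0 : ℝ) < n.choose 4 := by
    have := Nat.choose_pos hn
    exact_mod_cast this
  have h1 := switch_poincare (fun x => f (e.symm x)) (by
    rw [Equiv.sum_comp e.symm f]; exact hf)
  rw [Equiv.sum_comp e.symm (fun G => f G ^ 2), sum6] at h1
  have h2 : ∑ x, ∑ y, ∑ u, ∑ v, ∑ a, ∑ b,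
      (if Sw u v a b x y then (f (e.symm x) - f (e.symm y)) ^ 2 else 0) =
      ∑ G, ∑ H, ∑ u, ∑ v, ∑ a, ∑ b,
      (if Sw u v a b (e G) (e H) then (f G - f H) ^ 2 else 0) := by
    rw [← Equiv.sum_comp e]
    apply sum_congr rfl; intro G _
    rw [← Equiv.sum_comp e]
    apply sum_congr rfl; intro H _
    simp only [Equiv.symm_apply_apply]
  rw [h2] at h1
  have h3 : ∑ G, ∑ H, ∑ u, ∑ v, ∑ a, ∑ b,
      (if Sw u v a b (e G) (e H) then (f G - f H) ^ 2 else 0) ≤
      ∑ G, ∑ H, 4 * ((12 * (n.choose 4 : ℝ) * switchP d G H) * (f G - f H) ^ 2) := by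
    apply sum_le_sum; intro G _
    apply sum_le_sum; intro H _
    apply quad_count _ _ _ _ (sq_nonneg _)
    · have := switchP_nonneg d G H
      positivity
    · intro u v a b hsw
      obtain ⟨S, F, F', hS, hF, hF', hne, hH⟩ := sw_propose d K hall G H u v a b hsw
      have h5 := switchP_ge d G H hS hF hF' hne hH
      rw [div_le_iff₀ (by positivity)] at h5
      linarith
  have h4 : ∑ G, ∑ H, 4 * ((12 * (n.choose 4 : ℝ) * switchP d G H) * (f G - f H) ^ 2) =
      8 * ((12 * (n.choose 4 : ℝ)) * ∑ G, ∑ H, switchP d G H * (f G - f H) ^ 2 / 2) := by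
    simp only [mul_sum]
    apply sum_congr rfl; intro G _
    apply sum_congr rfl; intro H _
    ring
  rw [h4] at h3
  linarith

theorem choose_four (n : ℕ) : 12 * (n.choose 4 : ℝ) ≤ (n : ℝ) ^ 4 / 2 := by
  have h := Nat.choose_le_pow_div (α := ℝ) 4 n
  have : ((4 : ℕ).factorial : ℝ) = 24 := by norm_num [Nat.factorial]
  rw [this] at h
  linarith

/-- final theorem -/
theorem final {n : ℕ} (hn : 4 ≤ n) (d : Fin n → ℕ) (G₀ : Realiz d) (K : Finset (Fin n))
    (h : IsSplit G₀.1 K) : mixed d (n ^ 6) := by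
  classical
  intro G
  have : Nonempty (Realiz d) := ⟨G₀⟩
  have hC : (0 : ℝ) < n.choose 4 := by
    have := Nat.choose_pos hn
    exact_mod_cast this
  have hn' : (4 : ℝ) ≤ n := by exact_mod_cast hn
  have key := mixing (switchP d) (switchP_symm d) (switchP_row hn d) (switchP_nonneg d)
    (switchP_lazy d) (12 * (n.choose 4 : ℝ)) (by positivity)
    (fun f hf => split_poincare hn d G₀ K h f hf) (n ^ 6) (by
      have hcard : (Fintype.card (Realiz d) : ℝ) ≤ 2 ^ (n ^ 2) := by
        exact_mod_cast card_realiz d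
      have hpos : (0 : ℝ) < Fintype.card (Realiz d) := by
        exact_mod_cast Fintype.card_pos
      have h1 : Real.log (4 * Fintype.card (Realiz d)) ≤ ((n : ℝ) ^ 2 + 2) * Real.log 2 := by
        have : (4 : ℝ) * Fintype.card (Realiz d) ≤ 2 ^ (n ^ 2 + 2) := by
          rw [pow_add]; linarith
        refine (Real.log_le_log (by positivity) this).trans (le_of_eq ?_)
        rw [Real.log_pow]
        push_cast
        ring
      have h2 : Real.log 2 ≤ 0.7 := by
        have := Real.log_two_lt_d9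
        linarith
      have h3 : ((n : ℝ) ^ 2 + 2) * Real.log 2 ≤ ((n : ℝ) ^ 2 + 2) * 0.7 :=
        mul_le_mul_of_nonneg_left h2 (by positivity)
      have h4 : (12 * (n.choose 4 : ℝ)) * Real.log (4 * Fintype.card (Realiz d)) ≤
          ((n : ℝ) ^ 4 / 2) * (((n : ℝ) ^ 2 + 2) * 0.7) := by
        have hlog : 0 ≤ Real.log (4 * Fintype.card (Realiz d)) := by
          apply Real.log_nonneg
          have : (1 : ℝ) ≤ Fintype.card (Realiz d) := by
            exact_mod_cast Fintype.card_pos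
          linarith
        exact mul_le_mul (choose_four n) (h1.trans h3) hlog (by positivity)
      refine h4.trans ?_
      push_cast
      have h5 : ((n : ℝ) ^ 2 + 2) * 0.7 ≤ 2 * (n : ℝ) ^ 2 := by nlinarith
      calc (n : ℝ) ^ 4 / 2 * (((n : ℝ) ^ 2 + 2) * 0.7) ≤ (n : ℝ) ^ 4 / 2 * (2 * (n : ℝ) ^ 2) :=
            mul_le_mul_of_nonneg_left h5 (by positivity)
        _ = (n : ℝ) ^ 6 := by ring) G
  exact key

end Vale.Agent.Lib.P335
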