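import Mathlib

/-!
# P335 : 0/1 matrices with prescribed margins
-/

open Finset

namespace Vale.Agent.Lib.P335

/-- 0/1 matrices with rows indexed by `R`, columns by `W`, row sums `r` and column sums `c`. -/
def Mat (R W : Type) [Fintype R] [Fintype W] (r : R → ℕ) (c : W → ℕ) : Type :=
  {x : R → W → Bool // (∀ u, ∑ w, (x u w).toNat = r u) ∧ (∀ w, ∑ u, (x u w).toNat = c w)}

namespace Mat

variable {R W : Type} [Fintype R] [Fintype W] [DecidableEq R] [DecidableEq W]
  {r : R → ℕ} {c : W → ℕ}

instance : Fintype (Mat R W r c) := by unfold Mat; infer_instance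
instance : DecidableEq (Mat R W r c) := by unfold Mat; infer_instance

/-- `x` and `y` agree on all rows different from `u` and `v`. -/
def Off2 (u v : R) (x y : Mat R W r c) : Prop := ∀ t, t ≠ u → t ≠ v → x.1 t = y.1 t

instance (u v : R) : DecidableRel (Off2 (r := r) (c := c) (W := W) u v) := by
  intro x y; unfold Off2; infer_instance

end Mat

/-- averaging over the classes of a relation -/
noncomputable def avg {Ω : Type} [Fintype Ω] (s : Ω → Ω → Prop) [DecidableRel s] (f : Ω → ℝ)
    (x : Ω) : ℝ :=
  (∑ y with s x y, f y) / ((univ.filter (fun y => s x y)).card : ℝ)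

end Vale.Agent.Lib.P335
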