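import Vale.Agent.Lib.P335.Avg

/-!
# P335 : an abstract inequality for averaging operators
-/

set_option linter.unusedSectionVars false

open Finset

namespace Vale.Agent.Lib.P335.SG

section pairabs

variable {Ω : Type} [Fintype Ω] [DecidableEq Ω]

theorem pa_jensen (s : Ω → Ω → Prop) [DecidableRel s] (hs : Equivalence s) (f : Ω → ℝ) (x : Ω) :
    avg s f x ^ 2 ≤ avg s (fun y => f y ^ 2) x := by
  unfold avg
  have hpos := cls_card_pos hs x
  rw [div_pow, div_le_div_iff₀ (by positivity) hpos]
  have := sq_sum_le_card_mul_sum_sq (s := univ.filter (fun y => s x y)) (f := f)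
  nlinarith

theorem pa_sum_avg (s : Ω → Ω → Prop) [DecidableRel s] (hs : Equivalence s) (D : Ω → Prop)
    [DecidablePred D] (hD : ∀ x y, s x y → (D x ↔ D y)) (g : Ω → ℝ) :
    ∑ x with D x, avg s g x = ∑ x with D x, g x := by
  have h := avg_sym hs g (fun x => if D x then (1 : ℝ) else 0)
  rw [sum_filter, sum_filter]
  have e1 : ∀ x, avg s (fun x => if D x then (1 : ℝ) else 0) x = if D x then (1 : ℝ) else 0 := by
    intro x
    apply avg_of_inv hs
    intro y hy
    by_cases hx : D x
    · rw [if_pos hx, if_pos ((hD x y hy).mp hx)]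
    · rw [if_neg hx, if_neg (fun h' => hx ((hD x y hy).mpr h'))]
  simp_rw [e1] at h
  simpa [mul_ite] using h

theorem pa_comp (s : Ω → Ω → Prop) [DecidableRel s] (T : Ω → Ω) (hT : ∀ x, T (T x) = x)
    (h : ∀ x y, s x y → s (T x) (T y)) (f : Ω → ℝ) (x : Ω) :
    avg s (fun y => f (T y)) x = avg s f (T x) := by
  have hb : ∀ g : Ω → ℝ, ∑ y with s x y, g (T y) = ∑ y with s (T x) y, g y := by
    intro g
    apply sum_bij' (fun y _ => T y) (fun y _ => T y)
    · intro y hy
      simp only [mem_filter, mem_univ, true_and] at hy ⊢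
      exact h x y hy
    · intro y hy
      simp only [mem_filter, mem_univ, true_and] at hy ⊢
      have := h _ _ hy
      rwa [hT] at this
    · intro y _; exact hT y
    · intro y _; exact hT y
    · intro y _; rfl
  unfold avg
  rw [hb f]
  congr 1
  have := hb (fun _ => 1)
  simpa using this

/-- commuting reduction -/
theorem pa_reduce (s s' σ : Ω → Ω → Prop) [DecidableRel s] [DecidableRel s'] [DecidableRel σ]
    (hs : Equivalence s) (hs' : Equivalence s') (hσ : Equivalence σ)
    (h1 : ∀ x y, σ x y → s x y)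
    (r1 : ∀ x y z, σ x y → s' x z → ∃! w, s' y w ∧ σ z w) (F : Ω → ℝ) :
    ∑ x, (avg σ F x - avg s (avg σ F) x) * (avg σ F x - avg s' (avg σ F) x) ≤
      ∑ x, (F x - avg s F x) * (F x - avg s' F x) := by
  have hPR : ∀ x, avg s (avg σ F) x = avg s F x := by
    intro x
    -- sum over the class of `s` of `avg σ F` equals the sum of `F`
    unfold avg
    congr 1
    exact pa_sum_avg σ hσ (fun y => s x y) (fun y z hyz =>
      ⟨fun h => hs.trans h (h1 y z hyz), fun h => hs.trans h (hs.symm (h1 y z hyz))⟩) F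
  have hRP : ∀ x, avg σ (avg s F) x = avg s F x := by
    intro x
    apply avg_of_inv hσ
    intro y hy
    exact avg_inv hs F (h1 x y hy)
  have hcomm : ∀ x, avg σ (avg s' F) x = avg s' (avg σ F) x := fun x =>
    avg_comm hσ hs' r1 F x
  have hpos := inner_nonneg_of_comm hσ hs' r1 F
  -- second part
  have h2 : ∑ x, (avg σ F x - avg s F x) * (F x - avg s' F x) =
      ∑ x, (avg σ F x - avg s F x) * (avg σ F x - avg s' (avg σ F) x) := by
    have e1 : ∀ x, avg σ (fun y => avg σ F y - avg s F y) x = avg σ F x - avg s F x := by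
      intro x
      rw [avg_sub, avg_idem hσ, hRP]
    have e2 := avg_sym hσ (fun y => avg σ F y - avg s F y) (fun y => F y - avg s' F y)
    simp_rw [e1] at e2
    rw [e2]
    apply sum_congr rfl
    intro x _
    rw [avg_sub, hcomm]
  have h3 : ∑ x, (F x - avg s F x) * (F x - avg s' F x) =
      ∑ x, (F x - avg σ F x) * (F x - avg s' F x) +
        ∑ x, (avg σ F x - avg s F x) * (F x - avg s' F x) := by
    rw [← sum_add_distrib]
    apply sum_congr rfl
    intro x _; ring
  rw [h3, h2]
  simp_rw [hPR]
  linarith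

/-- nonnegativity on an invariant set where the averages commute -/
theorem pa_inner_part (s s' : Ω → Ω → Prop) [DecidableRel s] [DecidableRel s']
    (E : Ω → Prop) [DecidablePred E]
    (hs : Equivalence s) (hs' : Equivalence s')
    (r4 : ∀ x y z, ¬ E x → s x y → s' x z → ∃! w, s' y w ∧ s z w)
    (hE : ∀ x y, s x y → (E x ↔ E y)) (hE' : ∀ x y, s' x y → (E x ↔ E y)) (F : Ω → ℝ) :
    0 ≤ ∑ x with ¬ E x, (F x - avg s F x) * (F x - avg s' F x) := by
  classical
  set s1 : Ω → Ω → Prop := fun x y => if E x then x = y else s x y with hs1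
  set s1' : Ω → Ω → Prop := fun x y => if E x then x = y else s' x y with hs1'
  have gen : ∀ (t : Ω → Ω → Prop) (_ : Equivalence t) (_ : ∀ x y, t x y → (E x ↔ E y)),
      Equivalence (fun x y => if E x then x = y else t x y) := by
    intro t ht hEt
    refine ⟨?_, ?_, ?_⟩
    · intro x
      by_cases h : E x
      · simp [h]
      · simp only [h, if_false]; exact ht.refl x
    · intro x y hxy
      by_cases h : E x
      · simp only [h, if_true] at hxy
        subst hxy
        simp [h]
      · simp only [h, if_false] at hxy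
        have h' : ¬ E y := fun h' => h ((hEt x y hxy).mpr h')
        simp only [h', if_false]
        exact ht.symm hxy
    · intro x y z hxy hyz
      by_cases h : E x
      · simp only [h, if_true] at hxy
        subst hxy
        exact hyz
      · simp only [h, if_false] at hxy ⊢
        have h' : ¬ E y := fun h' => h ((hEt x y hxy).mpr h')
        simp only [h', if_false] at hyz
        exact ht.trans hxy hyz
  have q1 := gen s hs hE
  have q1' := gen s' hs' hE'
  have rect : ∀ x y z, s1 x y → s1' x z → ∃! w, s1' y w ∧ s1 z w := by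
    intro x y z h h'
    by_cases hx : E x
    · simp only [hs1, hs1', hx, if_true] at h h'
      subst h; subst h'
      refine ⟨x, ?_, ?_⟩
      · simp [hs1, hs1', hx]
      · intro w hw
        simp only [hs1, hs1', hx, if_true] at hw
        exact hw.1.symm
    · simp only [hs1, hs1', hx, if_false] at h h'
      have hy : ¬ E y := fun h2 => hx ((hE x y h).mpr h2)
      have hz : ¬ E z := fun h2 => hx ((hE' x z h').mpr h2)
      simp only [hs1, hs1', hy, hz, if_false]
      exact r4 x y z hx h h'
  have key := inner_nonneg_of_comm (s := s1) (s' := s1') q1 q1' rect F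
  have av : ∀ (t : Ω → Ω → Prop) [DecidableRel t] (x : Ω),
      avg (fun x y => if E x then x = y else t x y) F x = if E x then F x else avg t F x := by
    intro t _ x
    by_cases hx : E x
    · rw [if_pos hx]
      unfold avg
      simp only [hx, if_true]
      have : (univ.filter (fun y => x = y)) = {x} := by ext y; simp [eq_comm]
      rw [this]; simp
    · rw [if_neg hx]
      unfold avg
      simp only [hx, if_false]
  rw [sum_filter]
  refine le_trans key (le_of_eq ?_)
  apply sum_congr rfl
  intro x _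
  have a1 : avg s1 F x = if E x then F x else avg s F x := by
    have := av s x
    rw [← this]
  have a2 : avg s1' F x = if E x then F x else avg s' F x := by
    have := av s' x
    rw [← this]
  rw [a1, a2]
  by_cases hx : E x
  · simp [hx]
  · simp [hx]

/-- the value of the reduced projection on the `D`-states -/
theorem pa_half (s s' σ σ' : Ω → Ω → Prop)
    [DecidableRel s] [DecidableRel s'] [DecidableRel σ] [DecidableRel σ'] (T : Ω → Ω)
    (D : Ω → Prop) [DecidablePred D]
    (hs : Equivalence s) (hσ : Equivalence σ) (hσ' : Equivalence σ')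
    (h1 : ∀ x y, σ x y → s x y)
    (r2 : ∀ x y z, s x y → σ' x z → ∃! w, σ' y w ∧ s z w)
    (r3 : ∀ x y z, σ x y → σ' x z → ∃! w, σ' y w ∧ σ z w)
    (hT1 : ∀ x, T (T x) = x) (hT2 : ∀ x, s x (T x))
    (hT4 : ∀ x y, σ x y → σ (T x) (T y))
    (hDσ' : ∀ x y, σ' x y → (D x ↔ D y))
    (hDs : ∀ x y, D x → (s x y ∧ D y ↔ σ x y ∨ σ (T x) y))
    (f : Ω → ℝ) :
    ∑ x with D x, (avg σ' (avg σ (fun y => (f y + f (T y)) / 2)) x
        - avg s (avg σ' (avg σ (fun y => (f y + f (T y)) / 2))) x) ^ 2 ≤
      ∑ x with D x, ((∑ y with (s x y ∧ D y), (f y - avg s f y)) /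
          ((univ.filter (fun y => s x y ∧ D y)).card : ℝ)) ^ 2 := by
  set fp : Ω → ℝ := fun y => (f y + f (T y)) / 2 with hfp
  set m : Ω → ℝ := fun x => (∑ y with (s x y ∧ D y), (f y - avg s f y)) /
          ((univ.filter (fun y => s x y ∧ D y)).card : ℝ) with hm
  have hTs : ∀ x y, s x y → s (T x) (T y) := fun x y h =>
    hs.trans (hs.symm (hT2 x)) (hs.trans h (hT2 y))
  have hPT : ∀ x, avg s (fun y => f (T y)) x = avg s f x := by
    intro x
    rw [pa_comp s T hT1 hTs f x]
    exact (avg_inv hs f (hT2 x)).symm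
  have hPfp : ∀ x, avg s fp x = avg s f x := by
    intro x
    have e : fp = fun y => (1 / 2) * (f y + f (T y)) := by
      funext y; simp only [hfp]; ring
    rw [e, avg_smul, avg_add, hPT]; ring
  have hPR : ∀ (F : Ω → ℝ) x, avg s (avg σ F) x = avg s F x := by
    intro F x
    unfold avg
    congr 1
    exact pa_sum_avg σ hσ (fun y => s x y) (fun y z hyz =>
      ⟨fun h => hs.trans h (h1 y z hyz), fun h => hs.trans h (hs.symm (h1 y z hyz))⟩) F
  -- the reduced projection is an average of `R fp - P f`
  have key1 : ∀ x, avg σ' (avg σ fp) x - avg s (avg σ' (avg σ fp)) x =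
      avg σ' (fun y => avg σ fp y - avg s f y) x := by
    intro x
    have c1 : avg s (avg σ' (avg σ fp)) x = avg σ' (avg s (avg σ fp)) x :=
      avg_comm hs hσ' r2 (avg σ fp) x
    have c2 : avg s (avg σ fp) = avg s f := by
      funext y
      rw [hPR, hPfp]
    rw [c1, c2, avg_sub]
  -- on `D`, `R fp - P f = m`
  have key2 : ∀ y, D y → avg σ fp y - avg s f y = m y := by
    intro y hy
    have hset : (univ.filter (fun z => s y z ∧ D z)) =
        univ.filter (fun z => σ y z ∨ σ (T y) z) := by
      ext z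
      simp only [mem_filter, mem_univ, true_and]
      exact hDs y z hy
    have hcardT : (univ.filter (fun z => σ (T y) z)).card = (univ.filter (fun z => σ y z)).card := by
      apply card_bij (fun z _ => T z)
      · intro z hz
        simp only [mem_filter, mem_univ, true_and] at hz ⊢
        have := hT4 _ _ hz
        rwa [hT1] at this
      · intro z _ z' _ h
        have := congrArg T h
        rwa [hT1, hT1] at this
      · intro z hz
        simp only [mem_filter, mem_univ, true_and] at hz
        refine ⟨T z, ?_, hT1 z⟩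
        simp only [mem_filter, mem_univ, true_and]
        exact hT4 _ _ hz
    have hcp := cls_card_pos hσ y
    have hcpT := cls_card_pos hσ (T y)
    have hRfp : avg σ fp y = (avg σ f y + avg σ f (T y)) / 2 := by
      have e : fp = fun z => (1 / 2) * (f z + f (T z)) := by
        funext z; simp only [hfp]; ring
      rw [e, avg_smul, avg_add, pa_comp σ T hT1 hT4 f y]; ring
    have hconst : ∀ z, s y z → avg s f z = avg s f y := fun z hz => (avg_inv hs f hz).symm
    have hmem : ∀ z ∈ univ.filter (fun z => σ y z ∨ σ (T y) z), avg s f z = avg s f y := by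
      intro z hz
      simp only [mem_filter, mem_univ, true_and] at hz
      apply hconst
      rcases hz with hz | hz
      · exact h1 y z hz
      · exact hs.trans (hT2 y) (h1 _ _ hz)
    have hcu : 0 < ((univ.filter (fun z => σ y z ∨ σ (T y) z)).card : ℝ) := by
      have : 0 < (univ.filter (fun z => σ y z ∨ σ (T y) z)).card :=
        card_pos.mpr ⟨y, by simp [hσ.refl y]⟩
      exact_mod_cast this
    have hm1 : m y = (∑ z with (σ y z ∨ σ (T y) z), f z) /
        ((univ.filter (fun z => σ y z ∨ σ (T y) z)).card : ℝ) - avg s f y := by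
      simp only [hm]
      rw [hset, sum_sub_distrib, sum_congr rfl hmem, sum_const, nsmul_eq_mul]
      field_simp
    rw [hm1, hRfp]
    congr 1
    by_cases hyT : σ y (T y)
    · have e1 : (univ.filter (fun z => σ y z ∨ σ (T y) z)) = univ.filter (fun z => σ y z) := by
        ext z
        simp only [mem_filter, mem_univ, true_and]
        exact ⟨fun h => h.elim id (fun h => hσ.trans hyT h), fun h => Or.inl h⟩
      rw [e1, ← avg_inv hσ f hyT]
      unfold avg
      ring
    · have hdisj : Disjoint (univ.filter (fun z => σ y z)) (univ.filter (fun z => σ (T y) z)) := by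
        rw [disjoint_left]
        intro z hz hz'
        simp only [mem_filter, mem_univ, true_and] at hz hz'
        exact hyT (hσ.trans hz (hσ.symm hz'))
      have e1 : (univ.filter (fun z => σ y z ∨ σ (T y) z)) =
          univ.filter (fun z => σ y z) ∪ univ.filter (fun z => σ (T y) z) := by
        ext z; simp
      rw [e1, sum_union hdisj, card_union_of_disjoint hdisj, hcardT]
      unfold avg
      rw [hcardT]
      push_cast
      field_simp
      ring
  have key3 : ∀ x, D x → avg σ' (fun y => avg σ fp y - avg s f y) x = avg σ' m x := by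
    intro x hx
    apply avg_congr
    intro y hy
    exact key2 y ((hDσ' x y hy).mp hx)
  calc ∑ x with D x, (avg σ' (avg σ fp) x - avg s (avg σ' (avg σ fp)) x) ^ 2
      ≤ ∑ x with D x, avg σ' (fun y => m y ^ 2) x := by
        apply sum_le_sum
        intro x hx
        simp only [mem_filter, mem_univ, true_and] at hx
        rw [key1, key3 x hx]
        exact pa_jensen σ' hσ' m x
    _ = ∑ x with D x, m x ^ 2 := pa_sum_avg σ' hσ' D hDσ' (fun y => m y ^ 2)

theorem pair_abs (s s' σ σ' : Ω → Ω → Prop)
    [DecidableRel s] [DecidableRel s'] [DecidableRel σ] [DecidableRel σ'] (T : Ω → Ω)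
    (D E : Ω → Prop) [DecidablePred D] [DecidablePred E]
    (hs : Equivalence s) (hs' : Equivalence s') (hσ : Equivalence σ) (hσ' : Equivalence σ')
    (h1 : ∀ x y, σ x y → s x y) (h1' : ∀ x y, σ' x y → s' x y)
    (r1 : ∀ x y z, σ x y → s' x z → ∃! w, s' y w ∧ σ z w)
    (r2 : ∀ x y z, s x y → σ' x z → ∃! w, σ' y w ∧ s z w)
    (r3 : ∀ x y z, σ x y → σ' x z → ∃! w, σ' y w ∧ σ z w)
    (r4 : ∀ x y z, ¬ E x → s x y → s' x z → ∃! w, s' y w ∧ s z w)
    (hE : ∀ x y, s x y → (E x ↔ E y)) (hE' : ∀ x y, s' x y → (E x ↔ E y))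
    (hT1 : ∀ x, T (T x) = x) (hT2 : ∀ x, s x (T x)) (hT3 : ∀ x, s' x (T x))
    (hT4 : ∀ x y, σ x y → σ (T x) (T y)) (hT5 : ∀ x y, σ' x y → σ' (T x) (T y))
    (hDE : ∀ x, D x → E x) (hDT : ∀ x, D x → D (T x))
    (hDσ : ∀ x y, σ x y → (D x ↔ D y)) (hDσ' : ∀ x y, σ' x y → (D x ↔ D y))
    (hDs : ∀ x y, D x → (s x y ∧ D y ↔ σ x y ∨ σ (T x) y))
    (hDs' : ∀ x y, D x → (s' x y ∧ D y ↔ σ' x y ∨ σ' (T x) y))
    (hnD : ∀ x, E x → ¬ D x → (∀ y, s x y → σ x y) ∨ (∀ y, s' x y → σ' x y))
    (f : Ω → ℝ) :
    ∑ x, ((f x - f (T x)) / 2) ^ 2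
      - (1 / 2) * (∑ x with D x, ((∑ y with (s x y ∧ D y), (f y - avg s f y)) /
          ((univ.filter (fun y => s x y ∧ D y)).card : ℝ)) ^ 2)
      - (1 / 2) * (∑ x with D x, ((∑ y with (s' x y ∧ D y), (f y - avg s' f y)) /
          ((univ.filter (fun y => s' x y ∧ D y)).card : ℝ)) ^ 2) ≤
      ∑ x, (f x - avg s f x) * (f x - avg s' f x) := by
  set fp : Ω → ℝ := fun y => (f y + f (T y)) / 2 with hfp
  set fm : Ω → ℝ := fun y => (f y - f (T y)) / 2 with hfm
  have hsum : ∀ g : Ω → ℝ, ∑ x, g (T x) = ∑ x, g x := fun g =>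
    Function.Involutive.bijective (f := T) hT1 |>.sum_comp g
  have hPfp : ∀ (t : Ω → Ω → Prop) [DecidableRel t] (_ : Equivalence t) (_ : ∀ x, t x (T x)) x,
      avg t fp x = avg t f x := by
    intro t _ ht hTt x
    have hTs : ∀ x y, t x y → t (T x) (T y) := fun x y h =>
      ht.trans (ht.symm (hTt x)) (ht.trans h (hTt y))
    have e : fp = fun y => (1 / 2) * (f y + f (T y)) := by
      funext y; simp only [hfp]; ring
    rw [e, avg_smul, avg_add, pa_comp t T hT1 hTs f x, ← avg_inv ht f (hTt x)]; ring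
  -- step 1 : even and odd parts
  have step1 : ∑ x, (f x - avg s f x) * (f x - avg s' f x) =
      ∑ x, fm x ^ 2 + ∑ x, (fp x - avg s fp x) * (fp x - avg s' fp x) := by
    have e1 : ∀ x, (f x - avg s f x) * (f x - avg s' f x) =
        fm x ^ 2 + (fp x - avg s fp x) * (fp x - avg s' fp x) +
          fm x * ((fp x - avg s f x) + (fp x - avg s' f x)) := by
      intro x
      rw [hPfp s hs hT2, hPfp s' hs' hT3]
      have : f x = fp x + fm x := by simp only [hfp, hfm]; ring
      rw [this]; ring
    rw [sum_congr rfl (fun x _ => e1 x), sum_add_distrib, sum_add_distrib]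
    have e2 : ∑ x, fm x * ((fp x - avg s f x) + (fp x - avg s' f x)) = 0 := by
      have e3 := hsum (fun x => fm x * ((fp x - avg s f x) + (fp x - avg s' f x)))
      have e4 : ∀ x, fm (T x) * ((fp (T x) - avg s f (T x)) + (fp (T x) - avg s' f (T x))) =
          -(fm x * ((fp x - avg s f x) + (fp x - avg s' f x))) := by
        intro x
        rw [← avg_inv hs f (hT2 x), ← avg_inv hs' f (hT3 x)]
        simp only [hfp, hfm, hT1]
        ring
      simp_rw [e4] at e3
      rw [sum_neg_distrib] at e3
      linarith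
    rw [e2, add_zero]
  -- step 2 : reduction to block functions
  have r2' : ∀ x y z, σ' x y → s x z → ∃! w, s y w ∧ σ' z w := by
    intro x y z hxy hxz
    obtain ⟨w, hw, hu⟩ := r2 x z y hxz hxy
    exact ⟨w, ⟨hw.2, hw.1⟩, fun w' hw' => hu w' ⟨hw'.2, hw'.1⟩⟩
  set g : Ω → ℝ := avg σ' (avg σ fp) with hg
  have step2 : ∑ x, (g x - avg s g x) * (g x - avg s' g x) ≤
      ∑ x, (fp x - avg s fp x) * (fp x - avg s' fp x) := by
    have a1 := pa_reduce s s' σ hs hs' hσ h1 r1 fp
    have a2 := pa_reduce s' s σ' hs' hs hσ' h1' r2' (avg σ fp)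
    refine le_trans (le_of_eq ?_) (a2.trans (le_trans (le_of_eq ?_) a1))
    · apply sum_congr rfl; intro x _; ring
    · apply sum_congr rfl; intro x _; ring
  -- invariance of g
  have hcomm : ∀ x, avg σ' (avg σ fp) x = avg σ (avg σ' fp) x := fun x =>
    (avg_comm hσ hσ' r3 fp x).symm
  have hgσ : ∀ x y, σ x y → g x = g y := by
    intro x y h
    simp only [hg]
    rw [hcomm, hcomm]
    exact avg_inv hσ _ h
  have hgσ' : ∀ x y, σ' x y → g x = g y := fun x y h => avg_inv hσ' _ h
  -- step 3 : lower bound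
  have step3 : -(1 / 2) * ∑ x with D x, (g x - avg s g x) ^ 2
      - (1 / 2) * ∑ x with D x, (g x - avg s' g x) ^ 2 ≤
      ∑ x, (g x - avg s g x) * (g x - avg s' g x) := by
    have b1 := pa_inner_part s s' E hs hs' r4 hE hE' g
    have b2 : ∑ x, (g x - avg s g x) * (g x - avg s' g x) =
        ∑ x with ¬ E x, (g x - avg s g x) * (g x - avg s' g x) +
          ∑ x with D x, (g x - avg s g x) * (g x - avg s' g x) := by
      rw [sum_filter, sum_filter, ← sum_add_distrib]
      apply sum_congr rfl
      intro x _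
      by_cases hx : E x
      · by_cases hD : D x
        · simp [hx, hD]
        · rw [if_neg (not_not.mpr hx), if_neg hD, add_zero]
          rcases hnD x hx hD with h | h
          · rw [avg_of_inv hs g x (fun y hy => hgσ x y (h y hy))]; ring
          · rw [avg_of_inv hs' g x (fun y hy => hgσ' x y (h y hy))]; ring
      · have hD : ¬ D x := fun h => hx (hDE x h)
        rw [if_pos hx, if_neg hD, add_zero]
    rw [b2]
    have b3 : -(1 / 2) * ∑ x with D x, (g x - avg s g x) ^ 2
        - (1 / 2) * ∑ x with D x, (g x - avg s' g x) ^ 2 ≤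
        ∑ x with D x, (g x - avg s g x) * (g x - avg s' g x) := by
      rw [mul_sum, mul_sum, ← sum_sub_distrib]
      apply sum_le_sum
      intro x _
      nlinarith [sq_nonneg ((g x - avg s g x) + (g x - avg s' g x))]
    linarith
  -- step 4 : Jensen
  have step4 := pa_half s s' σ σ' T D hs hσ hσ' h1 r2 r3 hT1 hT2 hT4 hDσ' hDs f
  have r1' : ∀ x y z, s' x y → σ x z → ∃! w, σ y w ∧ s' z w := by
    intro x y z hxy hxz
    obtain ⟨w, hw, hu⟩ := r1 x z y hxz hxy
    exact ⟨w, ⟨hw.2, hw.1⟩, fun w' hw' => hu w' ⟨hw'.2, hw'.1⟩⟩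
  have r3' : ∀ x y z, σ' x y → σ x z → ∃! w, σ y w ∧ σ' z w := by
    intro x y z hxy hxz
    obtain ⟨w, hw, hu⟩ := r3 x z y hxz hxy
    exact ⟨w, ⟨hw.2, hw.1⟩, fun w' hw' => hu w' ⟨hw'.2, hw'.1⟩⟩
  have step4' := pa_half s' s σ' σ T D hs' hσ' hσ h1' r1' r3' hT1 hT3 hT5 hDσ hDs' f
  have hg' : g = avg σ (avg σ' fp) := by funext x; exact hcomm x
  have e4 : ∑ x with D x, (g x - avg s' g x) ^ 2 ≤
      ∑ x with D x, ((∑ y with (s' x y ∧ D y), (f y - avg s' f y)) /
          ((univ.filter (fun y => s' x y ∧ D y)).card : ℝ)) ^ 2 := by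
    rw [hg']; exact step4'
  rw [step1]
  linarith [step4, e4, step3, step2]

end pairabs

end Vale.Agent.Lib.P335.SG
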