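import Vale.Agent.Lib.P335.Rows

/-!
# P335 : simple graphs as symmetric 0/1 matrices

`SG V d` is the set of simple graphs on `V` with degrees `d`. `Off u v x y` : the graphs `x`, `y` have
the same edges inside `V \ {u, v}`. `Q u v = 1 - E_{uv}`. `D u v w z x` : the block `{u,v} x {w,z}` of
`x` is a permutation matrix. `T u v w z` : the switch of the block `{u,v} x {w,z}` (identity if not `D`).
-/

set_option linter.unusedSectionVars false

open Finset

namespace Vale.Agent.Lib.P335

/-- symmetric 0/1 matrices with zero diagonal and row sums `d` -/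
def SG (V : Type) [Fintype V] (d : V → ℕ) : Type :=
  {x : V → V → Bool // (∀ i j, x i j = x j i) ∧ (∀ i, x i i = false) ∧
    (∀ i, ∑ j, (x i j).toNat = d i)}

namespace SG

variable {V : Type} [Fintype V] [DecidableEq V] {d : V → ℕ}

instance : Fintype (SG V d) := by unfold SG; infer_instance
instance : DecidableEq (SG V d) := by unfold SG; infer_instance

theorem ext' {x y : SG V d} (h : ∀ a b, x.1 a b = y.1 a b) : x = y :=
  Subtype.ext (funext fun a => funext fun b => h a b)

theorem symm (x : SG V d) (i j : V) : x.1 i j = x.1 j i := x.2.1 i j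
theorem diag (x : SG V d) (i : V) : x.1 i i = false := x.2.2.1 i
theorem deg (x : SG V d) (i : V) : ∑ j, (x.1 i j).toNat = d i := x.2.2.2 i

/-- `x` and `y` have the same edges inside `V \ {u, v}` -/
def Off (u v : V) (x y : SG V d) : Prop :=
  ∀ a b, a ≠ u → a ≠ v → b ≠ u → b ≠ v → x.1 a b = y.1 a b

instance (u v : V) : DecidableRel (Off (d := d) u v) := by
  intro x y; unfold Off; infer_instance

theorem off_equiv (u v : V) : Equivalence (Off (d := d) u v) where
  refl := fun _ _ _ _ _ _ _ => rfl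
  symm := fun h a b h1 h2 h3 h4 => (h a b h1 h2 h3 h4).symm
  trans := fun h h' a b h1 h2 h3 h4 => (h a b h1 h2 h3 h4).trans (h' a b h1 h2 h3 h4)

theorem off_comm {u v : V} {x y : SG V d} (h : Off u v x y) : Off v u x y :=
  fun a b h1 h2 h3 h4 => h a b h2 h1 h4 h3

/-- sum over a finite type split at two points (natural numbers) -/
theorem nsplit2 (φ : V → ℕ) {u v : V} (h : u ≠ v) :
    ∑ w, φ w = φ u + φ v + ∑ w with (w ≠ u ∧ w ≠ v), φ w := by
  have h1 : (univ.filter (fun w => w ≠ u ∧ w ≠ v)) = (univ.erase u).erase v := by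
    ext w; simp [and_comm]
  rw [h1, ← add_sum_erase univ φ (mem_univ u), ← add_sum_erase (univ.erase u) φ
    (by simp [h.symm] : v ∈ univ.erase u)]
  ring

/-- the number of edges from an outside vertex `w` to `{u, v}` is constant on the classes of `Off` -/
theorem off_col {u v : V} (huv : u ≠ v) {x y : SG V d} (h : Off u v x y) {w : V} (hu : w ≠ u)
    (hv : w ≠ v) : (x.1 u w).toNat + (x.1 v w).toNat = (y.1 u w).toNat + (y.1 v w).toNat := by
  have h1 := x.deg w
  have h2 := y.deg w
  rw [nsplit2 _ huv] at h1 h2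
  have h3 : ∑ t with (t ≠ u ∧ t ≠ v), (x.1 w t).toNat = ∑ t with (t ≠ u ∧ t ≠ v), (y.1 w t).toNat := by
    apply sum_congr rfl
    intro t ht
    simp only [mem_filter, mem_univ, true_and] at ht
    rw [h w t hu hv ht.1 ht.2]
  rw [x.symm u w, x.symm v w, y.symm u w, y.symm v w]
  omega

/-- the edge `uv` is constant on the classes of `Off` -/
theorem off_uv {u v : V} (huv : u ≠ v) {x y : SG V d} (h : Off u v x y) : x.1 u v = y.1 u v := by
  have h1 := x.deg u
  have h2 := y.deg u
  have h3 := x.deg v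
  have h4 := y.deg v
  rw [nsplit2 _ huv] at h1 h2 h3 h4
  have h5 : ∑ t with (t ≠ u ∧ t ≠ v), (x.1 u t).toNat + ∑ t with (t ≠ u ∧ t ≠ v), (x.1 v t).toNat =
      ∑ t with (t ≠ u ∧ t ≠ v), (y.1 u t).toNat + ∑ t with (t ≠ u ∧ t ≠ v), (y.1 v t).toNat := by
    rw [← sum_add_distrib, ← sum_add_distrib]
    apply sum_congr rfl
    intro t ht
    simp only [mem_filter, mem_univ, true_and] at ht
    exact off_col huv h ht.1 ht.2
  rw [x.diag] at h1 h3
  rw [y.diag] at h2 h4
  rw [x.symm v u] at h3
  rw [y.symm v u] at h4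
  have h6 : (x.1 u v).toNat = (y.1 u v).toNat := by
    simp only [Bool.toNat_false] at h1 h2 h3 h4
    omega
  revert h6
  cases x.1 u v <;> cases y.1 u v <;> simp

/-- the projection `Q_{uv} = 1 - E_{uv}` -/
noncomputable def Q (u v : V) (f : SG V d → ℝ) (x : SG V d) : ℝ := f x - avg (Off u v) f x

/-- the block `{u,v} x {w,z}` of `x` is one of the two permutation matrices -/
def D (u v w z : V) (x : SG V d) : Prop :=
  x.1 u z = !(x.1 u w) ∧ x.1 v w = !(x.1 u w) ∧ x.1 v z = x.1 u w

instance (u v w z : V) : DecidablePred (D (d := d) u v w z) := by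
  intro x; unfold D; infer_instance

/-- four distinct vertices -/
def Dist (u v w z : V) : Prop := u ≠ v ∧ w ≠ z ∧ u ≠ w ∧ u ≠ z ∧ v ≠ w ∧ v ≠ z

instance (u v w z : V) : Decidable (Dist u v w z) := by unfold Dist; infer_instance

/-- complement the entries of the block `{u,v} x {w,z}` (and the symmetric ones) -/
def flip (u v w z : V) (x : V → V → Bool) : V → V → Bool := fun s t =>
  if ((s = u ∨ s = v) ∧ (t = w ∨ t = z)) ∨ ((t = u ∨ t = v) ∧ (s = w ∨ s = z)) then !(x s t) else x s t

theorem nsplit4 (φ : V → ℕ) {u v w z : V} (h : Dist u v w z) :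
    ∑ t, φ t = φ u + φ v + φ w + φ z + ∑ t with (t ≠ u ∧ t ≠ v ∧ t ≠ w ∧ t ≠ z), φ t := by
  obtain ⟨h1, h2, h3, h4, h5, h6⟩ := h
  have e : (univ.filter (fun t => t ≠ u ∧ t ≠ v ∧ t ≠ w ∧ t ≠ z)) =
      (((univ.erase u).erase v).erase w).erase z := by
    ext t; simp; tauto
  rw [e, ← add_sum_erase univ φ (mem_univ u), ← add_sum_erase (univ.erase u) φ
    (by simp [h1.symm] : v ∈ univ.erase u), ← add_sum_erase ((univ.erase u).erase v) φ
    (by simp [h3.symm, h5.symm] : w ∈ (univ.erase u).erase v),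
    ← add_sum_erase (((univ.erase u).erase v).erase w) φ
    (by simp [h2.symm, h4.symm, h6.symm] : z ∈ ((univ.erase u).erase v).erase w)]
  ring

/-- `y` is a valid symmetric matrix -/
def Valid (d : V → ℕ) (y : V → V → Bool) : Prop :=
  (∀ i j, y i j = y j i) ∧ (∀ i, y i i = false) ∧ (∀ i, ∑ j, (y i j).toNat = d i)

/-- constructor -/
def mk (y : V → V → Bool) (h : Valid d y) : SG V d := ⟨y, h⟩

theorem mk_val (y : V → V → Bool) (h : Valid d y) : (mk y h).1 = y := rfl

theorem flip_valid (x : SG V d) {u v w z : V} (h : Dist u v w z) (hD : D u v w z x) :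
    Valid d (flip u v w z x.1) := by
  obtain ⟨d1, d2, d3⟩ := hD
  have h' := h
  obtain ⟨h1, h2, h3, h4, h5, h6⟩ := h
  refine ⟨?_, ?_, ?_⟩
  · intro i j
    unfold flip
    rw [x.symm i j]
    by_cases hc : ((i = u ∨ i = v) ∧ (j = w ∨ j = z)) ∨ ((j = u ∨ j = v) ∧ (i = w ∨ i = z))
    · rw [if_pos hc, if_pos hc.symm]
    · rw [if_neg hc, if_neg (fun h => hc h.symm)]
  · intro i
    unfold flip
    rw [x.diag, if_neg]
    rintro (⟨rfl | rfl, rfl | rfl⟩ | ⟨rfl | rfl, rfl | rfl⟩) <;> simp_all
  · intro i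
    rw [← x.deg i, nsplit4 _ h', nsplit4 _ h']
    have e : ∑ t with (t ≠ u ∧ t ≠ v ∧ t ≠ w ∧ t ≠ z), (flip u v w z x.1 i t).toNat =
        ∑ t with (t ≠ u ∧ t ≠ v ∧ t ≠ w ∧ t ≠ z), (x.1 i t).toNat := by
      apply sum_congr rfl
      intro t ht
      simp only [mem_filter, mem_univ, true_and] at ht
      unfold flip
      rw [if_neg]
      rintro (⟨-, rfl | rfl⟩ | ⟨rfl | rfl, -⟩) <;> simp_all
    rw [e]
    congr 1
    have s1 := x.symm
    have s2 := x.diag
    by_cases i1 : i = u
    · subst i1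
      simp only [flip]
      have e1 : x.1 i z = !(x.1 i w) := d1
      simp [h1, h1.symm, h2, h2.symm, h3, h3.symm, h4, h4.symm, h5, h5.symm, h6, h6.symm, e1]
      cases x.1 i w <;> simp
    by_cases i2 : i = v
    · subst i2
      simp only [flip]
      simp [h1, h1.symm, h2, h2.symm, h3, h3.symm, h4, h4.symm, h5, h5.symm, h6, h6.symm, d2, d3]
      cases x.1 u w <;> simp
    by_cases i3 : i = w
    · subst i3
      simp only [flip]
      simp [h1, h1.symm, h2, h2.symm, h3, h3.symm, h4, h4.symm, h5, h5.symm, h6, h6.symm, s1 i u,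
        s1 i v, d2]
      cases x.1 u i <;> simp
    by_cases i4 : i = z
    · subst i4
      simp only [flip]
      simp [h1, h1.symm, h2, h2.symm, h3, h3.symm, h4, h4.symm, h5, h5.symm, h6, h6.symm, s1 i u,
        s1 i v, d1, d3]
      cases x.1 u w <;> simp
    · simp [flip, i1, i2, i3, i4]

/-- the block switch -/
def T (u v w z : V) (x : SG V d) : SG V d :=
  if h : Dist u v w z ∧ D u v w z x then mk (flip u v w z x.1) (flip_valid x h.1 h.2) else x

theorem T_val {u v w z : V} (h : Dist u v w z) {x : SG V d} (hD : D u v w z x) :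
    (T u v w z x).1 = flip u v w z x.1 := by
  have : T u v w z x = mk (flip u v w z x.1) (flip_valid x h hD) := by
    unfold T
    exact dif_pos (⟨h, hD⟩ : Dist u v w z ∧ D u v w z x)
  rw [this]
  rfl

theorem T_of_not {u v w z : V} {x : SG V d} (hD : ¬ D u v w z x) : T u v w z x = x := by
  unfold T
  exact dif_neg (fun h => hD h.2)

/-- mean of `g` over the states `y` of the `uv`-class of `x` with `D u v w z y` -/
noncomputable def mD (u v w z : V) (g : SG V d → ℝ) (x : SG V d) : ℝ :=
  (∑ y with (Off u v x y ∧ D u v w z y), g y) /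
    ((univ.filter (fun y => Off u v x y ∧ D u v w z y)).card : ℝ)

/-- `A = sum over D-states of (mean over the D-states of the uv-class of Q_{uv} f)^2` -/
noncomputable def A (u v w z : V) (f : SG V d → ℝ) : ℝ :=
  ∑ x with D u v w z x, (mD u v w z (Q u v f) x) ^ 2

/-- `N = |f^-|^2` -/
noncomputable def N (u v w z : V) (f : SG V d → ℝ) : ℝ :=
  ∑ x, ((f x - f (T u v w z x)) / 2) ^ 2

/-- the switch relation: edges `ua, vb` present, `ub, va` absent in `x`, and `y` is the switched graph -/
def Sw (u v a b : V) (x y : SG V d) : Prop :=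
  Dist u v a b ∧ x.1 u a = true ∧ x.1 v b = true ∧ x.1 u b = false ∧ x.1 v a = false ∧
    y.1 = flip u v a b x.1

instance (u v a b : V) : DecidableRel (Sw (d := d) u v a b) := by
  intro x y; unfold Sw; infer_instance

end SG

end Vale.Agent.Lib.P335
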