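import Vale.Agent.Lib.P335.SGFibre1
import Vale.Agent.Lib.P335F.Slice

/-!
# P335 : module FIBRE, final form
-/

open Finset

namespace Vale.Agent.Lib.P335.SG

variable {V : Type} [Fintype V] [DecidableEq V] {d : V → ℕ}

theorem slice_ineq' : SliceIneq := by
  intro J _ _ a F hF
  have h1 := Vale.Agent.Lib.P335F.slice_bool a F hF
  refine le_trans (le_of_eq ?_) h1
  apply sum_congr rfl
  intro w _
  apply sum_congr rfl
  intro z _
  by_cases hwz : w = z
  · subst hwz
    simp
  · rw [if_pos hwz]
    rfl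

theorem fibre_ineq {u v : V} (huv : u ≠ v) (f : SG V d → ℝ) :
    ∑ w, ∑ z, (if Dist u v w z then A u v w z f else 0) ≤
      ∑ w, ∑ z, (if Dist u v w z then N u v w z f else 0) :=
  fibre_ineq_of slice_ineq' huv f

end Vale.Agent.Lib.P335.SG
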