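import Vale.Agent.Lib.P335.SG

/-!
# P335 : connectivity of the simple graphs with given degrees

`const_of_off` : a function on `SG V d` which is constant on the classes of all relations `Off u v`
(`u ≠ v`) is constant.
-/

set_option linter.unusedSectionVars false

open Finset

namespace Vale.Agent.Lib.P335

namespace SG

variable {V : Type} [Fintype V] [DecidableEq V] {d : V → ℕ}

/-- existence of a good partner vertex -/
theorem ker_partner (x : SG V d) (S : Finset V) {k p q : V} (hk : k ∈ S) (hp : p ∈ S) (hq : q ∈ S)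
    (hkq : k ≠ q) (hxp : x.1 k p = true) (hxq : x.1 k q = false)
    (hs : ∑ t ∈ S, (x.1 t p).toNat ≤ ∑ t ∈ S, (x.1 t q).toNat) :
    ∃ v ∈ S, v ≠ p ∧ x.1 v q = true ∧ x.1 v p = false := by
  by_contra hcon
  push Not at hcon
  have e : ∑ t ∈ S, (x.1 t q).toNat = ∑ t ∈ S, (x.1 (Equiv.swap p q t) q).toNat := by
    symm
    apply Finset.sum_equiv (Equiv.swap p q)
    · intro i
      by_cases h1 : i = p
      · subst h1; simp [hp, hq]
      by_cases h2 : i = q
      · subst h2; simp [hp, hq]
      rw [Equiv.swap_apply_of_ne_of_ne h1 h2]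
    · intro i _
      rfl
  have hlt : ∑ t ∈ S, (x.1 (Equiv.swap p q t) q).toNat < ∑ t ∈ S, (x.1 t p).toNat := by
    apply sum_lt_sum
    · intro t ht
      by_cases h1 : t = p
      · subst h1
        rw [Equiv.swap_apply_left, x.diag]
        simp
      by_cases h2 : t = q
      · subst h2
        rw [Equiv.swap_apply_right, x.symm]
      rw [Equiv.swap_apply_of_ne_of_ne h1 h2]
      have := hcon t ht h1
      cases hh : x.1 t q
      · simp
      · have h2 := this hh
        simp only [ne_eq, Bool.not_eq_false] at h2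
        rw [h2]
    · refine ⟨k, hk, ?_⟩
      have h1 : k ≠ p := by
        rintro rfl
        rw [x.diag] at hxp
        exact absurd hxp (by simp)
      rw [Equiv.swap_apply_of_ne_of_ne h1 hkq, hxq, hxp]
      simp
  omega

/-- the switch inside `S` -/
theorem ker_switch (x : SG V d) (S : Finset V) {k p q : V} (hk : k ∈ S) (hp : p ∈ S) (hq : q ∈ S)
    (hkq : k ≠ q) (hxp : x.1 k p = true) (hxq : x.1 k q = false)
    (hs : ∑ t ∈ S, (x.1 t p).toNat ≤ ∑ t ∈ S, (x.1 t q).toNat) :
    ∃ (v : V) (z : SG V d), k ≠ v ∧ Off k v x z ∧ z.1 k p = false ∧ z.1 k q = true ∧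
      (∀ a, a ≠ p → a ≠ q → z.1 k a = x.1 k a) ∧
      (∀ a b, ¬ (a ∈ S ∧ b ∈ S) → z.1 a b = x.1 a b) := by
  obtain ⟨v, hv, hvp, hvq1, hvp0⟩ := ker_partner x S hk hp hq hkq hxp hxq hs
  have hkp : k ≠ p := by
    rintro rfl
    rw [x.diag] at hxp
    exact absurd hxp (by simp)
  have hpq : p ≠ q := by
    rintro rfl
    rw [hxp] at hxq
    exact absurd hxq (by simp)
  have hkv : k ≠ v := by
    rintro rfl
    rw [hxp] at hvp0
    exact absurd hvp0 (by simp)
  have hvq : v ≠ q := by
    rintro rfl
    rw [x.diag] at hvq1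
    exact absurd hvq1 (by simp)
  have hD : Dist k v p q := ⟨hkv, hpq, hkp, hkq, hvp, hvq⟩
  have hDD : D k v p q x := by
    refine ⟨?_, ?_, ?_⟩
    · rw [hxp, hxq]; rfl
    · rw [hxp, hvp0]; rfl
    · rw [hxp, hvq1]
  have hz : (T k v p q x).1 = flip k v p q x.1 := T_val hD hDD
  refine ⟨v, T k v p q x, hkv, ?_, ?_, ?_, ?_, ?_⟩
  · intro a b h1 h2 h3 h4
    rw [hz]
    unfold flip
    rw [if_neg]
    rintro (⟨h | h, -⟩ | ⟨h | h, -⟩)
    · exact h1 h
    · exact h2 h
    · exact h3 h
    · exact h4 h
  · rw [hz]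
    unfold flip
    rw [if_pos (Or.inl ⟨Or.inl rfl, Or.inl rfl⟩), hxp]
    rfl
  · rw [hz]
    unfold flip
    rw [if_pos (Or.inl ⟨Or.inl rfl, Or.inr rfl⟩), hxq]
    rfl
  · intro a h1 h2
    rw [hz]
    unfold flip
    rw [if_neg]
    rintro (⟨-, h | h⟩ | ⟨-, h | h⟩)
    · exact h1 h
    · exact h2 h
    · exact hkp h
    · exact hkq h
  · intro a b hab
    rw [hz]
    unfold flip
    rw [if_neg]
    rintro (⟨h | h, h' | h'⟩ | ⟨h | h, h' | h'⟩) <;> subst h <;> subst h' <;>
      exact hab ⟨by assumption, by assumption⟩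

/-- equalization of the row `k` -/
theorem ker_equalize (f : SG V d → ℝ) (h : ∀ u v x y, u ≠ v → Off u v x y → f x = f y)
    (S : Finset V) (k : V) (hk : k ∈ S) :
    ∀ (n : ℕ) (x y : SG V d), (univ.filter (fun a => x.1 k a = true ∧ y.1 k a = false)).card = n →
      (∀ a b, ¬ (a ∈ S ∧ b ∈ S) → x.1 a b = y.1 a b) →
      ∃ x' y' : SG V d, f x = f x' ∧ f y = f y' ∧ x'.1 k = y'.1 k ∧
        (∀ a b, ¬ (a ∈ S ∧ b ∈ S) → x'.1 a b = y'.1 a b) := by
  intro n
  induction n using Nat.strong_induction_on with
  | _ n ih =>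
    intro x y hn hoff
    by_cases hxy : x.1 k = y.1 k
    · exact ⟨x, y, rfl, rfl, hxy, hoff⟩
    have hp : ∃ p, x.1 k p = true ∧ y.1 k p = false := by
      by_contra hcon
      push Not at hcon
      apply hxy
      apply rows_eq_of_le
      · rw [x.deg k, y.deg k]
      · intro w hw
        have := hcon w hw
        simpa using this
    have hq : ∃ q, x.1 k q = false ∧ y.1 k q = true := by
      by_contra hcon
      push Not at hcon
      apply hxy
      symm
      apply rows_eq_of_le
      · rw [x.deg k, y.deg k]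
      · intro w hw
        by_contra h
        simp only [Bool.not_eq_true] at h
        exact hcon w h hw
    obtain ⟨p, hxp, hyp⟩ := hp
    obtain ⟨q, hxq, hyq⟩ := hq
    have hpS : p ∈ S := by
      by_contra hc
      have := hoff k p (fun hh => hc hh.2)
      rw [hxp, hyp] at this
      exact absurd this (by simp)
    have hqS : q ∈ S := by
      by_contra hc
      have := hoff k q (fun hh => hc hh.2)
      rw [hxq, hyq] at this
      exact absurd this (by simp)
    have hkp : k ≠ p := by
      rintro rfl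
      rw [x.diag] at hxp
      exact absurd hxp (by simp)
    have hkq : k ≠ q := by
      rintro rfl
      rw [y.diag] at hyq
      exact absurd hyq (by simp)
    -- degrees inside `S`
    have hcol : ∀ w, ∑ t ∈ S, (x.1 t w).toNat = ∑ t ∈ S, (y.1 t w).toNat := by
      intro w
      have h1 := x.deg w
      have h2 := y.deg w
      rw [← sum_add_sum_compl S] at h1 h2
      have h3 : ∑ t ∈ Sᶜ, (x.1 w t).toNat = ∑ t ∈ Sᶜ, (y.1 w t).toNat := by
        apply sum_congr rfl
        intro t ht
        rw [hoff w t (fun hh => (mem_compl.mp ht) hh.2)]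
      have h4 : ∑ t ∈ S, (x.1 t w).toNat = ∑ t ∈ S, (x.1 w t).toNat :=
        sum_congr rfl (fun t _ => by rw [x.symm])
      have h5 : ∑ t ∈ S, (y.1 t w).toNat = ∑ t ∈ S, (y.1 w t).toNat :=
        sum_congr rfl (fun t _ => by rw [y.symm])
      omega
    by_cases hs : ∑ t ∈ S, (x.1 t p).toNat ≤ ∑ t ∈ S, (x.1 t q).toNat
    · obtain ⟨v, z, hkv, hO, hzp, hzq, hza, hzoff⟩ := ker_switch x S hk hpS hqS hkq hxp hxq hs
      have hcard : (univ.filter (fun a => z.1 k a = true ∧ y.1 k a = false)).card < n := by
        rw [← hn]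
        apply card_lt_card
        rw [ssubset_iff_of_subset]
        · refine ⟨p, by simp [hxp, hyp], ?_⟩
          simp [hzp]
        · intro a ha
          simp only [mem_filter, mem_univ, true_and] at ha ⊢
          refine ⟨?_, ha.2⟩
          have haq : a ≠ q := by rintro rfl; rw [hyq] at ha; exact absurd ha.2 (by simp)
          have hap : a ≠ p := by rintro rfl; rw [hzp] at ha; exact absurd ha.1 (by simp)
          rw [← hza a hap haq]
          exact ha.1
      obtain ⟨x', y', h1, h2, h3, h4⟩ := ih _ hcard z y rfl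
        (fun a b hab => (hzoff a b hab).trans (hoff a b hab))
      exact ⟨x', y', (h k v x z hkv hO).trans h1, h2, h3, h4⟩
    · have hs' : ∑ t ∈ S, (y.1 t q).toNat ≤ ∑ t ∈ S, (y.1 t p).toNat := by
        rw [← hcol, ← hcol]
        omega
      obtain ⟨v, z, hkv, hO, hzq, hzp, hza, hzoff⟩ := ker_switch y S hk hqS hpS hkp hyq hyp hs'
      have hcard : (univ.filter (fun a => x.1 k a = true ∧ z.1 k a = false)).card < n := by
        rw [← hn]
        apply card_lt_card
        rw [ssubset_iff_of_subset]
        · refine ⟨p, by simp [hxp, hyp], ?_⟩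
          simp [hzp]
        · intro a ha
          simp only [mem_filter, mem_univ, true_and] at ha ⊢
          refine ⟨ha.1, ?_⟩
          have haq : a ≠ q := by rintro rfl; rw [hxq] at ha; exact absurd ha.1 (by simp)
          have hap : a ≠ p := by rintro rfl; rw [hzp] at ha; exact absurd ha.2 (by simp)
          rw [← hza a haq hap]
          exact ha.2
      obtain ⟨x', y', h1, h2, h3, h4⟩ := ih _ hcard x z rfl
        (fun a b hab => (hoff a b hab).trans (hzoff a b hab).symm)
      exact ⟨x', y', h1, (h k v y z hkv hO).trans h2, h3, h4⟩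

/-- CONNECTIVITY: a function constant on all `Off`-classes is constant -/
theorem const_of_off (f : SG V d → ℝ) (h : ∀ u v x y, u ≠ v → Off u v x y → f x = f y)
    (x y : SG V d) : f x = f y := by
  have key : ∀ (S : Finset V) (x y : SG V d),
      (∀ a b, ¬ (a ∈ S ∧ b ∈ S) → x.1 a b = y.1 a b) → f x = f y := by
    intro S
    induction S using Finset.induction_on with
    | empty =>
      intro x y hxy
      have : x = y := ext' (fun a b => hxy a b (by simp))
      rw [this]
    | insert k S hkS ih =>
      intro x y hxy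
      obtain ⟨x', y', h1, h2, h3, h4⟩ := ker_equalize f h (insert k S) k (mem_insert_self k S) _ x y
        rfl hxy
      rw [h1, h2]
      apply ih
      intro a b hab
      by_cases ha : a = k
      · rw [ha]; exact congrFun h3 b
      by_cases hb : b = k
      · rw [hb, x'.symm, y'.symm]; exact congrFun h3 a
      apply h4
      rintro ⟨g1, g2⟩
      exact hab ⟨(mem_insert.mp g1).resolve_left ha, (mem_insert.mp g2).resolve_left hb⟩
  exact key univ x y (fun a b hab => absurd ⟨mem_univ a, mem_univ b⟩ hab)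

end SG

end Vale.Agent.Lib.P335
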