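import Vale.Agent.Lib.P335.SG
import Vale.Agent.Lib.P335.PairAbs

/-!
# P335 : disjoint pairs, the rectangle properties for graphs
-/

set_option linter.unusedSectionVars false

open Finset

namespace Vale.Agent.Lib.P335.SG

set_option maxRecDepth 4000 in
theorem block4 : ∀ ax bx cx dx ay bY cy dy az bz cz dz : Bool,
    ax.toNat + bx.toNat + cx.toNat + dx.toNat ≠ 2 →
    ax.toNat + cx.toNat = ay.toNat + cy.toNat → bx.toNat + dx.toNat = bY.toNat + dy.toNat →
    ax.toNat + bx.toNat = az.toNat + bz.toNat → cx.toNat + dx.toNat = cz.toNat + dz.toNat →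
    ∃ a b c d : Bool, (a.toNat + b.toNat = ay.toNat + bY.toNat ∧ c.toNat + d.toNat = cy.toNat + dy.toNat ∧
      a.toNat + c.toNat = az.toNat + cz.toNat ∧ b.toNat + d.toNat = bz.toNat + dz.toNat) ∧
      ∀ a' b' c' d' : Bool, (a'.toNat + b'.toNat = ay.toNat + bY.toNat ∧ c'.toNat + d'.toNat = cy.toNat + dy.toNat ∧
      a'.toNat + c'.toNat = az.toNat + cz.toNat ∧ b'.toNat + d'.toNat = bz.toNat + dz.toNat) →
      a' = a ∧ b' = b ∧ c' = c ∧ d' = d := by
  decide +kernel

variable {V : Type} [Fintype V] [DecidableEq V] {d : V → ℕ}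

/-- same block `{u,v} x {w,z}` -/
def Blk (u v w z : V) (x y : SG V d) : Prop :=
  x.1 u w = y.1 u w ∧ x.1 u z = y.1 u z ∧ x.1 v w = y.1 v w ∧ x.1 v z = y.1 v z

/-- resampling of the `uv`-assignment off the block -/
def Sg (u v w z : V) (x y : SG V d) : Prop := Off u v x y ∧ Blk u v w z x y

/-- resampling of the `wz`-assignment off the block -/
def Sg' (u v w z : V) (x y : SG V d) : Prop := Off w z x y ∧ Blk u v w z x y

instance (u v w z : V) : DecidableRel (Sg (d := d) u v w z) := by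
  intro x y; unfold Sg Blk; infer_instance

instance (u v w z : V) : DecidableRel (Sg' (d := d) u v w z) := by
  intro x y; unfold Sg' Blk; infer_instance

theorem blk_refl (u v w z : V) (x : SG V d) : Blk u v w z x x := ⟨rfl, rfl, rfl, rfl⟩

theorem blk_symm {u v w z : V} {x y : SG V d} (h : Blk u v w z x y) : Blk u v w z y x :=
  ⟨h.1.symm, h.2.1.symm, h.2.2.1.symm, h.2.2.2.symm⟩

theorem blk_trans {u v w z : V} {x y t : SG V d} (h : Blk u v w z x y) (h' : Blk u v w z y t) :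
    Blk u v w z x t :=
  ⟨h.1.trans h'.1, h.2.1.trans h'.2.1, h.2.2.1.trans h'.2.2.1, h.2.2.2.trans h'.2.2.2⟩

theorem sg_equiv (u v w z : V) : Equivalence (Sg (d := d) u v w z) where
  refl := fun x => ⟨(off_equiv u v).refl x, blk_refl u v w z x⟩
  symm := fun h => ⟨(off_equiv u v).symm h.1, blk_symm h.2⟩
  trans := fun h h' => ⟨(off_equiv u v).trans h.1 h'.1, blk_trans h.2 h'.2⟩

theorem sg'_equiv (u v w z : V) : Equivalence (Sg' (d := d) u v w z) where
  refl := fun x => ⟨(off_equiv w z).refl x, blk_refl u v w z x⟩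
  symm := fun h => ⟨(off_equiv w z).symm h.1, blk_symm h.2⟩
  trans := fun h h' => ⟨(off_equiv w z).trans h.1 h'.1, blk_trans h.2 h'.2⟩

/-- the block as a function -/
def bk (u w : V) (a b c e : Bool) : V → V → Bool := fun s t =>
  if s = u then (if t = w then a else b) else (if t = w then c else e)

/-- the glued matrix: block `a b c e`, rows `u, v` from `y`, the rest from `z'` -/
def glue (u v w z : V) (a b c e : Bool) (y z' : V → V → Bool) : V → V → Bool := fun s t =>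
  if (s = u ∨ s = v) ∧ (t = w ∨ t = z) then bk u w a b c e s t
  else if (t = u ∨ t = v) ∧ (s = w ∨ s = z) then bk u w a b c e t s
  else if s = u ∨ s = v ∨ t = u ∨ t = v then y s t
  else z' s t

theorem dist_not {u v w z : V} (h : Dist u v w z) {s : V} (hs : s = u ∨ s = v) :
    ¬ (s = w ∨ s = z) := by
  obtain ⟨h1, h2, h3, h4, h5, h6⟩ := h
  rcases hs with rfl | rfl
  · rintro (h | h); exacts [h3 h, h4 h]
  · rintro (h | h); exacts [h5 h, h6 h]

section gl
variable {u v w z : V} {a b c e : Bool} {y z' : V → V → Bool}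

theorem glue_in {s t : V} (hs : s = u ∨ s = v) (ht : t = w ∨ t = z) :
    glue u v w z a b c e y z' s t = bk u w a b c e s t := by
  unfold glue; rw [if_pos ⟨hs, ht⟩]

theorem glue_in' (h : Dist u v w z) {s t : V} (hs : s = w ∨ s = z) (ht : t = u ∨ t = v) :
    glue u v w z a b c e y z' s t = bk u w a b c e t s := by
  unfold glue
  rw [if_neg (fun h' => dist_not h h'.1 hs), if_pos ⟨ht, hs⟩]

theorem glue_y {s t : V} (hs : s = u ∨ s = v) (ht : ¬ (t = w ∨ t = z)) (hst : ¬ (s = w ∨ s = z)) :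
    glue u v w z a b c e y z' s t = y s t := by
  unfold glue
  rw [if_neg (fun h' => ht h'.2), if_neg (fun h' => hst h'.2), if_pos]
  rcases hs with h | h
  · exact Or.inl h
  · exact Or.inr (Or.inl h)

theorem glue_y' {s t : V} (ht : t = u ∨ t = v) (hs : ¬ (s = w ∨ s = z)) (hst : ¬ (t = w ∨ t = z)) :
    glue u v w z a b c e y z' s t = y s t := by
  unfold glue
  rw [if_neg (fun h' => hst h'.2), if_neg (fun h' => hs h'.2), if_pos]
  rcases ht with h | h
  · exact Or.inr (Or.inr (Or.inl h))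
  · exact Or.inr (Or.inr (Or.inr h))

theorem glue_z {s t : V} (hs : ¬ (s = u ∨ s = v)) (ht : ¬ (t = u ∨ t = v)) :
    glue u v w z a b c e y z' s t = z' s t := by
  unfold glue
  rw [if_neg (fun h' => hs h'.1), if_neg (fun h' => ht h'.1), if_neg]
  rintro (h | h | h | h)
  · exact hs (Or.inl h)
  · exact hs (Or.inr h)
  · exact ht (Or.inl h)
  · exact ht (Or.inr h)

end gl

theorem glue_valid {u v w z : V} (h : Dist u v w z) {x y z' : SG V d} (hy : Off u v x y)
    (hz : Off w z x z') {a b c e : Bool}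
    (r1 : a.toNat + b.toNat = (y.1 u w).toNat + (y.1 u z).toNat)
    (r2 : c.toNat + e.toNat = (y.1 v w).toNat + (y.1 v z).toNat)
    (r3 : a.toNat + c.toNat = (z'.1 u w).toNat + (z'.1 v w).toNat)
    (r4 : b.toNat + e.toNat = (z'.1 u z).toNat + (z'.1 v z).toNat) :
    Valid d (glue u v w z a b c e y.1 z'.1) := by
  have h' := h
  obtain ⟨h1, h2, h3, h4, h5, h6⟩ := h
  have bk1 : bk u w a b c e u w = a := by simp [bk]
  have bk2 : bk u w a b c e u z = b := by simp [bk, h2.symm]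
  have bk3 : bk u w a b c e v w = c := by simp [bk, h1.symm]
  have bk4 : bk u w a b c e v z = e := by simp [bk, h1.symm, h2.symm]
  refine ⟨?_, ?_, ?_⟩
  · intro i j
    by_cases pi : i = u ∨ i = v
    · by_cases wj : j = w ∨ j = z
      · rw [glue_in pi wj, glue_in' h' wj pi]
      · rw [glue_y pi wj (dist_not h' pi), glue_y' pi wj (dist_not h' pi), y.symm]
    · by_cases pj : j = u ∨ j = v
      · by_cases wi : i = w ∨ i = z
        · rw [glue_in' h' wi pj, glue_in pj wi]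
        · rw [glue_y' pj wi (dist_not h' pj), glue_y pj wi (dist_not h' pj), y.symm]
      · rw [glue_z pi pj, glue_z pj pi, z'.symm]
  · intro i
    by_cases pi : i = u ∨ i = v
    · rw [glue_y pi (dist_not h' pi) (dist_not h' pi), y.diag]
    · rw [glue_z pi pi, z'.diag]
  · intro i
    by_cases pi : i = u ∨ i = v
    · rw [← y.deg i, nsplit2 _ h2, nsplit2 (fun t => (y.1 i t).toNat) h2]
      have e1 : ∑ t with (t ≠ w ∧ t ≠ z), (glue u v w z a b c e y.1 z'.1 i t).toNat =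
          ∑ t with (t ≠ w ∧ t ≠ z), (y.1 i t).toNat := by
        apply sum_congr rfl
        intro t ht
        simp only [mem_filter, mem_univ, true_and] at ht
        rw [glue_y pi (by rintro (h | h); exacts [ht.1 h, ht.2 h]) (dist_not h' pi)]
      rw [e1, glue_in pi (Or.inl rfl), glue_in pi (Or.inr rfl)]
      congr 1
      rcases pi with rfl | rfl
      · rw [bk1, bk2]; exact r1
      · rw [bk3, bk4]; exact r2
    · rw [← z'.deg i, nsplit2 _ h1, nsplit2 (fun t => (z'.1 i t).toNat) h1]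
      have e1 : ∑ t with (t ≠ u ∧ t ≠ v), (glue u v w z a b c e y.1 z'.1 i t).toNat =
          ∑ t with (t ≠ u ∧ t ≠ v), (z'.1 i t).toNat := by
        apply sum_congr rfl
        intro t ht
        simp only [mem_filter, mem_univ, true_and] at ht
        rw [glue_z pi (by rintro (h | h); exacts [ht.1 h, ht.2 h])]
      rw [e1]
      congr 1
      by_cases wi : i = w ∨ i = z
      · rw [glue_in' h' wi (Or.inl rfl), glue_in' h' wi (Or.inr rfl), z'.symm i u, z'.symm i v]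
        rcases wi with rfl | rfl
        · rw [bk1, bk3]; exact r3
        · rw [bk2, bk4]; exact r4
      · rw [glue_y' (Or.inl rfl) wi (dist_not h' (Or.inl rfl)),
          glue_y' (Or.inr rfl) wi (dist_not h' (Or.inr rfl))]
        push Not at pi wi
        have k1 := off_col h1 hy pi.1 pi.2
        have k2 : x.1 u i = z'.1 u i := hz u i h3 h4 wi.1 wi.2
        have k3 : x.1 v i = z'.1 v i := hz v i h5 h6 wi.1 wi.2
        rw [k2, k3] at k1
        rw [y.symm i u, y.symm i v, z'.symm i u, z'.symm i v]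
        exact k1.symm

theorem glue_exists {u v w z : V} (h : Dist u v w z) {x y z' : SG V d} (hy : Off u v x y)
    (hz : Off w z x z') {a b c e : Bool}
    (r1 : a.toNat + b.toNat = (y.1 u w).toNat + (y.1 u z).toNat)
    (r2 : c.toNat + e.toNat = (y.1 v w).toNat + (y.1 v z).toNat)
    (r3 : a.toNat + c.toNat = (z'.1 u w).toNat + (z'.1 v w).toNat)
    (r4 : b.toNat + e.toNat = (z'.1 u z).toNat + (z'.1 v z).toNat) :
    ∃ g : SG V d, Off w z y g ∧ Off u v z' g ∧ g.1 u w = a ∧ g.1 u z = b ∧ g.1 v w = c ∧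
      g.1 v z = e := by
  have hval := glue_valid h hy hz r1 r2 r3 r4
  have h' := h
  obtain ⟨h1, h2, h3, h4, h5, h6⟩ := h
  refine ⟨mk _ hval, ?_, ?_, ?_, ?_, ?_, ?_⟩
  · intro s t a1 a2 a3 a4
    show y.1 s t = glue u v w z a b c e y.1 z'.1 s t
    have ws : ¬ (s = w ∨ s = z) := by rintro (h | h); exacts [a1 h, a2 h]
    have wt : ¬ (t = w ∨ t = z) := by rintro (h | h); exacts [a3 h, a4 h]
    by_cases ps : s = u ∨ s = v
    · rw [glue_y ps wt ws]
    by_cases pt : t = u ∨ t = v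
    · rw [glue_y' pt ws wt]
    · rw [glue_z ps pt]
      push Not at ps pt
      rw [← hy s t ps.1 ps.2 pt.1 pt.2, hz s t a1 a2 a3 a4]
  · intro s t a1 a2 a3 a4
    show z'.1 s t = glue u v w z a b c e y.1 z'.1 s t
    rw [glue_z (by rintro (h | h); exacts [a1 h, a2 h]) (by rintro (h | h); exacts [a3 h, a4 h])]
  · show glue u v w z a b c e y.1 z'.1 u w = a
    rw [glue_in (Or.inl rfl) (Or.inl rfl)]; simp [bk]
  · show glue u v w z a b c e y.1 z'.1 u z = b
    rw [glue_in (Or.inl rfl) (Or.inr rfl)]; simp [bk, h2.symm]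
  · show glue u v w z a b c e y.1 z'.1 v w = c
    rw [glue_in (Or.inr rfl) (Or.inl rfl)]; simp [bk, h1.symm]
  · show glue u v w z a b c e y.1 z'.1 v z = e
    rw [glue_in (Or.inr rfl) (Or.inr rfl)]; simp [bk, h1.symm, h2.symm]

theorem glue_unique {u v w z : V} (h : Dist u v w z) {y z' g g' : SG V d}
    (a1 : Off w z y g) (a2 : Off u v z' g) (a1' : Off w z y g') (a2' : Off u v z' g')
    (hb : Blk u v w z g g') : g = g' := by
  obtain ⟨b1, b2, b3, b4⟩ := hb
  have key : ∀ s t, (s = u ∨ s = v) → (t = w ∨ t = z) → g.1 s t = g'.1 s t := by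
    rintro s t (rfl | rfl) (rfl | rfl)
    exacts [b1, b2, b3, b4]
  apply ext'
  intro s t
  by_cases ws : s = w ∨ s = z
  · by_cases pt : t = u ∨ t = v
    · rw [g.symm, g'.symm]; exact key t s pt ws
    · have ps : ¬ (s = u ∨ s = v) := fun hp => dist_not h hp ws
      push Not at ps pt
      rw [← a2 s t ps.1 ps.2 pt.1 pt.2, ← a2' s t ps.1 ps.2 pt.1 pt.2]
  · by_cases wt : t = w ∨ t = z
    · by_cases ps : s = u ∨ s = v
      · exact key s t ps wt
      · have pt : ¬ (t = u ∨ t = v) := fun hp => dist_not h hp wt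
        push Not at ps pt
        rw [← a2 s t ps.1 ps.2 pt.1 pt.2, ← a2' s t ps.1 ps.2 pt.1 pt.2]
    · push Not at ws wt
      rw [← a1 s t ws.1 ws.2 wt.1 wt.2, ← a1' s t ws.1 ws.2 wt.1 wt.2]

/-! ### rectangle properties -/

theorem col_off {u v w : V} {x y : SG V d} (huv : u ≠ v) (h : Off u v x y) (hu : w ≠ u)
    (hv : w ≠ v) : (x.1 w u).toNat + (x.1 w v).toNat = (y.1 w u).toNat + (y.1 w v).toNat := by
  have := off_col huv h hu hv
  rw [x.symm w u, x.symm w v, y.symm w u, y.symm w v]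
  exact this

theorem rect1 {u v w z : V} (h : Dist u v w z) (x y z' : SG V d) (hy : Sg u v w z x y)
    (hz : Off w z x z') : ∃! g, Off w z y g ∧ Sg u v w z z' g := by
  have h' := h
  obtain ⟨h1, h2, h3, h4, h5, h6⟩ := h
  have c1 := col_off h2 hz h3 h4
  have c2 := col_off h2 hz h5 h6
  obtain ⟨g, g1, g2, g3, g4, g5, g6⟩ := glue_exists h' hy.1 hz (a := z'.1 u w) (b := z'.1 u z)
    (c := z'.1 v w) (e := z'.1 v z) (by rw [← hy.2.1, ← hy.2.2.1]; exact c1.symm)
    (by rw [← hy.2.2.2.1, ← hy.2.2.2.2]; exact c2.symm) rfl rfl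
  refine ⟨g, ⟨g1, g2, g3.symm, g4.symm, g5.symm, g6.symm⟩, ?_⟩
  rintro g' ⟨k1, k2, k3⟩
  exact glue_unique h' k1 k2 g1 g2 (blk_trans (blk_symm k3) ⟨g3.symm, g4.symm, g5.symm, g6.symm⟩)

theorem rect2 {u v w z : V} (h : Dist u v w z) (x y z' : SG V d) (hy : Off u v x y)
    (hz : Sg' u v w z x z') : ∃! g, Sg' u v w z y g ∧ Off u v z' g := by
  have h' := h
  obtain ⟨h1, h2, h3, h4, h5, h6⟩ := h
  have c1 := off_col h1 hy h3.symm h5.symm
  have c2 := off_col h1 hy h4.symm h6.symm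
  obtain ⟨g, g1, g2, g3, g4, g5, g6⟩ := glue_exists h' hy hz.1 (a := y.1 u w) (b := y.1 u z)
    (c := y.1 v w) (e := y.1 v z) rfl rfl (by rw [← hz.2.1, ← hz.2.2.2.1]; exact c1.symm)
    (by rw [← hz.2.2.1, ← hz.2.2.2.2]; exact c2.symm)
  refine ⟨g, ⟨⟨g1, g3.symm, g4.symm, g5.symm, g6.symm⟩, g2⟩, ?_⟩
  rintro g' ⟨⟨k1, k3⟩, k2⟩
  exact glue_unique h' k1 k2 g1 g2 (blk_trans (blk_symm k3) ⟨g3.symm, g4.symm, g5.symm, g6.symm⟩)

theorem rect3 {u v w z : V} (h : Dist u v w z) (x y z' : SG V d) (hy : Sg u v w z x y)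
    (hz : Sg' u v w z x z') : ∃! g, Sg' u v w z y g ∧ Sg u v w z z' g := by
  obtain ⟨g, ⟨g1, g2⟩, hu⟩ := rect1 h x y z' hy hz.1
  refine ⟨g, ⟨⟨g1, blk_trans (blk_trans (blk_symm hy.2) hz.2) g2.2⟩, g2⟩, ?_⟩
  rintro g' ⟨k1, k2⟩
  exact hu g' ⟨k1.1, k2⟩

/-- the block has exactly two ones -/
def E2 (u v w z : V) (x : SG V d) : Prop :=
  (x.1 u w).toNat + (x.1 u z).toNat + (x.1 v w).toNat + (x.1 v z).toNat = 2

instance (u v w z : V) : DecidablePred (E2 (d := d) u v w z) := by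
  intro x; unfold E2; infer_instance

theorem rect4 {u v w z : V} (h : Dist u v w z) (x y z' : SG V d) (hE : ¬ E2 u v w z x)
    (hy : Off u v x y) (hz : Off w z x z') : ∃! g, Off w z y g ∧ Off u v z' g := by
  have h' := h
  obtain ⟨h1, h2, h3, h4, h5, h6⟩ := h
  have c1 := off_col h1 hy h3.symm h5.symm
  have c2 := off_col h1 hy h4.symm h6.symm
  have c3 := col_off h2 hz h3 h4
  have c4 := col_off h2 hz h5 h6
  obtain ⟨a, b, c, e, ⟨q1, q2, q3, q4⟩, hq⟩ := block4 _ _ _ _ _ _ _ _ _ _ _ _ hE c1 c2 c3 c4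
  obtain ⟨g, g1, g2, g3, g4, g5, g6⟩ := glue_exists h' hy hz q1 q2 q3 q4
  refine ⟨g, ⟨g1, g2⟩, ?_⟩
  rintro g' ⟨k1, k2⟩
  have k3 := col_off h2 k1 h3 h4
  have k4 := col_off h2 k1 h5 h6
  have k5 := off_col h1 k2 h3.symm h5.symm
  have k6 := off_col h1 k2 h4.symm h6.symm
  obtain ⟨m1, m2, m3, m4⟩ := hq _ _ _ _ ⟨k3.symm, k4.symm, k5.symm, k6.symm⟩
  exact glue_unique h' k1 k2 g1 g2 ⟨m1.trans g3.symm, m2.trans g4.symm, m3.trans g5.symm,
    m4.trans g6.symm⟩

theorem E2_off {u v w z : V} (h : Dist u v w z) {x y : SG V d} (hy : Off u v x y) :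
    E2 u v w z x ↔ E2 u v w z y := by
  obtain ⟨h1, h2, h3, h4, h5, h6⟩ := h
  have c1 := off_col h1 hy h3.symm h5.symm
  have c2 := off_col h1 hy h4.symm h6.symm
  unfold E2
  constructor <;> intro <;> omega

theorem E2_off' {u v w z : V} (h : Dist u v w z) {x y : SG V d} (hy : Off w z x y) :
    E2 u v w z x ↔ E2 u v w z y := by
  obtain ⟨h1, h2, h3, h4, h5, h6⟩ := h
  have c1 := col_off h2 hy h3 h4
  have c2 := col_off h2 hy h5 h6
  unfold E2
  constructor <;> intro <;> omega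

/-! ### the block switch -/

theorem T_entry {u v w z : V} (h : Dist u v w z) {x : SG V d} (hD : D u v w z x) {s t : V}
    (hs : s = u ∨ s = v) (ht : t = w ∨ t = z) : (T u v w z x).1 s t = !(x.1 s t) := by
  rw [T_val h hD]
  unfold flip
  rw [if_pos (Or.inl ⟨hs, ht⟩)]

theorem T_off {u v w z : V} (h : Dist u v w z) (x : SG V d) : Off u v x (T u v w z x) := by
  by_cases hD : D u v w z x
  · intro a b h1 h2 h3 h4
    rw [T_val h hD]
    unfold flip
    rw [if_neg]
    rintro (⟨rfl | rfl, -⟩ | ⟨rfl | rfl, -⟩) <;> simp_all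
  · rw [T_of_not hD]; exact (off_equiv u v).refl x

theorem T_off' {u v w z : V} (h : Dist u v w z) (x : SG V d) : Off w z x (T u v w z x) := by
  by_cases hD : D u v w z x
  · intro a b h1 h2 h3 h4
    rw [T_val h hD]
    unfold flip
    rw [if_neg]
    rintro (⟨-, rfl | rfl⟩ | ⟨-, rfl | rfl⟩) <;> simp_all
  · rw [T_of_not hD]; exact (off_equiv w z).refl x

theorem D_T {u v w z : V} (h : Dist u v w z) {x : SG V d} (hD : D u v w z x) :
    D u v w z (T u v w z x) := by
  have e1 := T_entry h hD (Or.inl rfl : u = u ∨ u = v) (Or.inl rfl : w = w ∨ w = z)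
  have e2 := T_entry h hD (Or.inl rfl : u = u ∨ u = v) (Or.inr rfl : z = w ∨ z = z)
  have e3 := T_entry h hD (Or.inr rfl : v = u ∨ v = v) (Or.inl rfl : w = w ∨ w = z)
  have e4 := T_entry h hD (Or.inr rfl : v = u ∨ v = v) (Or.inr rfl : z = w ∨ z = z)
  obtain ⟨d1, d2, d3⟩ := hD
  unfold D
  rw [e1, e2, e3, e4, d1, d2, d3]
  simp

theorem T_T {u v w z : V} (h : Dist u v w z) (x : SG V d) : T u v w z (T u v w z x) = x := by
  by_cases hD : D u v w z x
  · apply ext'
    intro s t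
    rw [T_val h (D_T h hD), T_val h hD]
    unfold flip
    by_cases hc : ((s = u ∨ s = v) ∧ (t = w ∨ t = z)) ∨ ((t = u ∨ t = v) ∧ (s = w ∨ s = z))
    · rw [if_pos hc, if_pos hc]; simp
    · rw [if_neg hc, if_neg hc]
  · rw [T_of_not hD, T_of_not hD]

theorem D_blk {u v w z : V} {x y : SG V d} (hb : Blk u v w z x y) : D u v w z x ↔ D u v w z y := by
  obtain ⟨b1, b2, b3, b4⟩ := hb
  unfold D
  rw [b1, b2, b3, b4]

theorem T_blk {u v w z : V} (h : Dist u v w z) {x y : SG V d} (hb : Blk u v w z x y) :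
    Blk u v w z (T u v w z x) (T u v w z y) := by
  by_cases hD : D u v w z x
  · have hD' := (D_blk hb).mp hD
    obtain ⟨b1, b2, b3, b4⟩ := hb
    refine ⟨?_, ?_, ?_, ?_⟩
    · rw [T_entry h hD (Or.inl rfl) (Or.inl rfl), T_entry h hD' (Or.inl rfl) (Or.inl rfl), b1]
    · rw [T_entry h hD (Or.inl rfl) (Or.inr rfl), T_entry h hD' (Or.inl rfl) (Or.inr rfl), b2]
    · rw [T_entry h hD (Or.inr rfl) (Or.inl rfl), T_entry h hD' (Or.inr rfl) (Or.inl rfl), b3]
    · rw [T_entry h hD (Or.inr rfl) (Or.inr rfl), T_entry h hD' (Or.inr rfl) (Or.inr rfl), b4]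
  · have hD' := fun h => hD ((D_blk hb).mpr h)
    rw [T_of_not hD, T_of_not hD']
    exact hb

theorem T_sg {u v w z : V} (h : Dist u v w z) (x y : SG V d) (hs : Sg u v w z x y) :
    Sg u v w z (T u v w z x) (T u v w z y) :=
  ⟨(off_equiv u v).trans ((off_equiv u v).symm (T_off h x)) ((off_equiv u v).trans hs.1 (T_off h y)),
    T_blk h hs.2⟩

theorem T_sg' {u v w z : V} (h : Dist u v w z) (x y : SG V d) (hs : Sg' u v w z x y) :
    Sg' u v w z (T u v w z x) (T u v w z y) :=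
  ⟨(off_equiv w z).trans ((off_equiv w z).symm (T_off' h x)) ((off_equiv w z).trans hs.1 (T_off' h y)),
    T_blk h hs.2⟩

theorem D_E2 {u v w z : V} (x : SG V d) (hD : D u v w z x) : E2 u v w z x := by
  obtain ⟨d1, d2, d3⟩ := hD
  unfold E2
  rw [d1, d2, d3]
  cases x.1 u w <;> simp

theorem blk_or {u v w z : V} (h : Dist u v w z) {x y : SG V d} (hx : D u v w z x)
    (hy : D u v w z y) : Blk u v w z x y ∨ Blk u v w z (T u v w z x) y := by
  have e1 := T_entry h hx (Or.inl rfl : u = u ∨ u = v) (Or.inl rfl : w = w ∨ w = z)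
  have e2 := T_entry h hx (Or.inl rfl : u = u ∨ u = v) (Or.inr rfl : z = w ∨ z = z)
  have e3 := T_entry h hx (Or.inr rfl : v = u ∨ v = v) (Or.inl rfl : w = w ∨ w = z)
  have e4 := T_entry h hx (Or.inr rfl : v = u ∨ v = v) (Or.inr rfl : z = w ∨ z = z)
  obtain ⟨d1, d2, d3⟩ := hx
  obtain ⟨k1, k2, k3⟩ := hy
  unfold Blk
  rw [e1, e2, e3, e4, d1, d2, d3, k1, k2, k3]
  cases x.1 u w <;> cases y.1 u w <;> simp

theorem D_s {u v w z : V} (h : Dist u v w z) (x y : SG V d) (hx : D u v w z x) :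
    (Off u v x y ∧ D u v w z y ↔ Sg u v w z x y ∨ Sg u v w z (T u v w z x) y) := by
  constructor
  · rintro ⟨h1, h2⟩
    rcases blk_or h hx h2 with hb | hb
    · exact Or.inl ⟨h1, hb⟩
    · exact Or.inr ⟨(off_equiv u v).trans ((off_equiv u v).symm (T_off h x)) h1, hb⟩
  · rintro (⟨h1, h2⟩ | ⟨h1, h2⟩)
    · exact ⟨h1, (D_blk h2).mp hx⟩
    · exact ⟨(off_equiv u v).trans (T_off h x) h1, (D_blk h2).mp (D_T h hx)⟩

theorem D_s' {u v w z : V} (h : Dist u v w z) (x y : SG V d) (hx : D u v w z x) :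
    (Off w z x y ∧ D u v w z y ↔ Sg' u v w z x y ∨ Sg' u v w z (T u v w z x) y) := by
  constructor
  · rintro ⟨h1, h2⟩
    rcases blk_or h hx h2 with hb | hb
    · exact Or.inl ⟨h1, hb⟩
    · exact Or.inr ⟨(off_equiv w z).trans ((off_equiv w z).symm (T_off' h x)) h1, hb⟩
  · rintro (⟨h1, h2⟩ | ⟨h1, h2⟩)
    · exact ⟨h1, (D_blk h2).mp hx⟩
    · exact ⟨(off_equiv w z).trans (T_off' h x) h1, (D_blk h2).mp (D_T h hx)⟩

theorem bool2 : ∀ a b c e : Bool, a.toNat + b.toNat + c.toNat + e.toNat = 2 →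
    ¬ (b = !a ∧ c = !a ∧ e = a) → (a = c ∧ b = e ∧ a = !b) ∨ (a = b ∧ c = e ∧ a = !c) := by
  decide

theorem bool_col : ∀ a c a' c' : Bool, a = c → a.toNat + c.toNat = a'.toNat + c'.toNat →
    a = a' ∧ c = c' := by
  decide

theorem nD {u v w z : V} (h : Dist u v w z) (x : SG V d) (hE : E2 u v w z x)
    (hD : ¬ D u v w z x) : (∀ y, Off u v x y → Sg u v w z x y) ∨
      (∀ y, Off w z x y → Sg' u v w z x y) := by
  obtain ⟨h1, h2, h3, h4, h5, h6⟩ := h
  rcases bool2 _ _ _ _ hE hD with ⟨k1, k2, -⟩ | ⟨k1, k2, -⟩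
  · left
    intro y hy
    obtain ⟨a1, a2⟩ := bool_col _ _ _ _ k1 (off_col h1 hy h3.symm h5.symm)
    obtain ⟨a3, a4⟩ := bool_col _ _ _ _ k2 (off_col h1 hy h4.symm h6.symm)
    exact ⟨hy, a1, a3, a2, a4⟩
  · right
    intro y hy
    obtain ⟨a1, a2⟩ := bool_col _ _ _ _ k1 (col_off h2 hy h3 h4)
    obtain ⟨a3, a4⟩ := bool_col _ _ _ _ k2 (col_off h2 hy h5 h6)
    exact ⟨hy, a1, a2, a3, a4⟩

theorem D_swap (u v w z : V) (x : SG V d) : D w z u v x ↔ D u v w z x := by
  unfold D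
  rw [x.symm w v, x.symm w u, x.symm z u, x.symm z v]
  constructor
  · rintro ⟨a, b, c⟩; exact ⟨b, a, c⟩
  · rintro ⟨a, b, c⟩; exact ⟨b, a, c⟩

/-- the inequality for a disjoint pair of pairs -/
theorem pair_ineq {u v w z : V} (h : Dist u v w z) (f : SG V d → ℝ) :
    N u v w z f - (1 / 2) * A u v w z f - (1 / 2) * A w z u v f ≤ ∑ x, Q u v f x * Q w z f x := by
  have key := pair_abs (Off u v) (Off w z) (Sg u v w z) (Sg' u v w z) (T u v w z)
    (D u v w z) (E2 u v w z) (off_equiv u v) (off_equiv w z) (sg_equiv u v w z) (sg'_equiv u v w z)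
    (fun _ _ h => h.1) (fun _ _ h => h.1) (rect1 h) (rect2 h) (rect3 h)
    (fun x y z' hE hy hz => rect4 h x y z' hE hy hz) (fun _ _ hy => E2_off h hy)
    (fun _ _ hy => E2_off' h hy) (T_T h) (T_off h) (T_off' h) (T_sg h) (T_sg' h)
    D_E2 (fun _ hD => D_T h hD) (fun _ _ hb => D_blk hb.2) (fun _ _ hb => D_blk hb.2)
    (D_s h) (D_s' h) (nD h) f
  have e : A w z u v f = ∑ x with D u v w z x, ((∑ y with (Off w z x y ∧ D u v w z y),
      (f y - avg (Off w z) f y)) /
      ((univ.filter (fun y => Off w z x y ∧ D u v w z y)).card : ℝ)) ^ 2 := by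
    unfold A mD
    simp only [D_swap]
    rfl
  rw [e]
  exact key

end Vale.Agent.Lib.P335.SG
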