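import Vale.Agent.Lib.P335.SG
import Vale.Agent.Lib.P335.Rows

/-!
# P335 : the three vertex lemma for simple graphs
The three rows `i, j, k` outside `{i,j,k}` and one more column holding the complement of the opposite
edge form a 0/1 matrix with fixed margins.
-/

set_option linter.unusedSectionVars false
set_option linter.unusedSimpArgs false
set_option linter.unusedVariables false

open Finset

namespace Vale.Agent.Lib.P335.SG

namespace T3

variable {V : Type} [Fintype V] [DecidableEq V] {d : V → ℕ}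

/-- same edges outside the three vertices -/
def Of3 (i j k : V) (x y : SG V d) : Prop :=
  ∀ a b, a ≠ i → a ≠ j → a ≠ k → b ≠ i → b ≠ j → b ≠ k → x.1 a b = y.1 a b

instance (i j k : V) : DecidableRel (Of3 (d := d) i j k) := by
  intro x y; unfold Of3; infer_instance

theorem of3_equiv (i j k : V) : Equivalence (Of3 (d := d) i j k) where
  refl := fun _ _ _ _ _ _ _ _ _ => rfl
  symm := fun h a b h1 h2 h3 h4 h5 h6 => (h a b h1 h2 h3 h4 h5 h6).symm
  trans := fun h h' a b h1 h2 h3 h4 h5 h6 =>
    (h a b h1 h2 h3 h4 h5 h6).trans (h' a b h1 h2 h3 h4 h5 h6)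

theorem nsplit3 (φ : V → ℕ) {i j k : V} (hij : i ≠ j) (hik : i ≠ k) (hjk : j ≠ k) :
    ∑ t, φ t = φ i + φ j + φ k + ∑ t with (t ≠ i ∧ t ≠ j ∧ t ≠ k), φ t := by
  have e : (univ.filter (fun t => t ≠ i ∧ t ≠ j ∧ t ≠ k)) =
      ((univ.erase i).erase j).erase k := by
    ext t; simp; tauto
  rw [e, ← add_sum_erase univ φ (mem_univ i), ← add_sum_erase (univ.erase i) φ
    (by simp [hij.symm] : j ∈ univ.erase i), ← add_sum_erase ((univ.erase i).erase j) φ
    (by simp [hik.symm, hjk.symm] : k ∈ (univ.erase i).erase j)]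
  ring

theorem nt (b : Bool) : (!b).toNat + b.toNat = 1 := by cases b <;> rfl

/-- number of edges in the triangle -/
def tr (i j k : V) (x : V → V → Bool) : ℕ := (x i j).toNat + (x i k).toNat + (x j k).toNat

theorem col3 {i j k : V} (hij : i ≠ j) (hik : i ≠ k) (hjk : j ≠ k) {x y : SG V d}
    (h : Of3 i j k x y) {w : V} (h1 : w ≠ i) (h2 : w ≠ j) (h3 : w ≠ k) :
    (x.1 i w).toNat + (x.1 j w).toNat + (x.1 k w).toNat =
    (y.1 i w).toNat + (y.1 j w).toNat + (y.1 k w).toNat := by
  have e1 := x.deg w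
  have e2 := y.deg w
  rw [nsplit3 _ hij hik hjk] at e1 e2
  have e3 : ∑ t with (t ≠ i ∧ t ≠ j ∧ t ≠ k), (x.1 w t).toNat =
      ∑ t with (t ≠ i ∧ t ≠ j ∧ t ≠ k), (y.1 w t).toNat := by
    apply sum_congr rfl
    intro t ht
    simp only [mem_filter, mem_univ, true_and] at ht
    rw [h w t h1 h2 h3 ht.1 ht.2.1 ht.2.2]
  rw [x.symm i w, x.symm j w, x.symm k w, y.symm i w, y.symm j w, y.symm k w]
  omega

theorem tr_eq {i j k : V} (hij : i ≠ j) (hik : i ≠ k) (hjk : j ≠ k) {x y : SG V d}
    (h : Of3 i j k x y) : tr i j k x.1 = tr i j k y.1 := by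
  have e : ∀ z : SG V d, d i + d j + d k = 2 * tr i j k z.1 +
      ∑ t with (t ≠ i ∧ t ≠ j ∧ t ≠ k), ((z.1 i t).toNat + (z.1 j t).toNat + (z.1 k t).toNat) := by
    intro z
    have e1 := z.deg i
    have e2 := z.deg j
    have e3 := z.deg k
    rw [nsplit3 _ hij hik hjk] at e1 e2 e3
    rw [sum_add_distrib, sum_add_distrib]
    rw [z.diag] at e1 e2 e3
    rw [z.symm j i] at e2
    rw [z.symm k i, z.symm k j] at e3
    unfold tr
    simp only [Bool.toNat_false] at e1 e2 e3
    omega
  have e1 := e x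
  have e2 := e y
  have e3 : ∑ t with (t ≠ i ∧ t ≠ j ∧ t ≠ k), ((x.1 i t).toNat + (x.1 j t).toNat + (x.1 k t).toNat) =
      ∑ t with (t ≠ i ∧ t ≠ j ∧ t ≠ k), ((y.1 i t).toNat + (y.1 j t).toNat + (y.1 k t).toNat) := by
    apply sum_congr rfl
    intro t ht
    simp only [mem_filter, mem_univ, true_and] at ht
    exact col3 hij hik hjk h ht.1 ht.2.1 ht.2.2
  omega

/-- the matrix with the three rows -/
def tri (i j k : V) (x : V → V → Bool) (a : V) : Option V → Bool
  | some w => if (a = i ∨ a = j ∨ a = k) ∧ w ≠ i ∧ w ≠ j ∧ w ≠ k then x a w else false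
  | none => if a = i then !(x j k) else if a = j then !(x i k) else if a = k then !(x i j) else false

theorem tri_some (i j k : V) (x : V → V → Bool) (a w : V) : tri i j k x a (some w) =
    if (a = i ∨ a = j ∨ a = k) ∧ w ≠ i ∧ w ≠ j ∧ w ≠ k then x a w else false := rfl

theorem tri_none (i j k : V) (x : V → V → Bool) (a : V) : tri i j k x a none =
    if a = i then !(x j k) else if a = j then !(x i k) else if a = k then !(x i j) else false := rfl

theorem tri_swap {i j k : V} (hij : i ≠ j) (hik : i ≠ k) (hjk : j ≠ k) (x : SG V d) :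
    tri i j k x.1 = tri i k j x.1 := by
  funext a w
  cases w with
  | some w =>
    rw [tri_some, tri_some]
    have : ((a = i ∨ a = j ∨ a = k) ∧ w ≠ i ∧ w ≠ j ∧ w ≠ k) ↔
        ((a = i ∨ a = k ∨ a = j) ∧ w ≠ i ∧ w ≠ k ∧ w ≠ j) := by tauto
    simp only [this]
  | none =>
    rw [tri_none, tri_none]
    by_cases a1 : a = i
    · subst a1; simp [x.symm j k]
    · by_cases a2 : a = j
      · subst a2; simp [a1, hjk]
      · by_cases a3 : a = k
        · subst a3; simp [a1, a2]
        · simp [a1, a2, a3]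

theorem tri_swap' {i j k : V} (hij : i ≠ j) (hik : i ≠ k) (hjk : j ≠ k) (x : SG V d) :
    tri i j k x.1 = tri j i k x.1 := by
  funext a w
  cases w with
  | some w =>
    rw [tri_some, tri_some]
    have : ((a = i ∨ a = j ∨ a = k) ∧ w ≠ i ∧ w ≠ j ∧ w ≠ k) ↔
        ((a = j ∨ a = i ∨ a = k) ∧ w ≠ j ∧ w ≠ i ∧ w ≠ k) := by tauto
    simp only [this]
  | none =>
    rw [tri_none, tri_none]
    by_cases a1 : a = i
    · subst a1; simp [hij]
    · by_cases a2 : a = j
      · subst a2; simp [a1]
      · by_cases a3 : a = k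
        · subst a3; simp [a1, a2, x.symm i j]
        · simp [a1, a2, a3]

theorem off_iff {i j k : V} (hij : i ≠ j) (hik : i ≠ k) (hjk : j ≠ k) {x y : SG V d}
    (h : Of3 i j k x y) : Off i j x y ↔ ∀ t, t ≠ i → t ≠ j → tri i j k x.1 t = tri i j k y.1 t := by
  constructor
  · intro h1 t t1 t2
    funext w
    cases w with
    | some w =>
      rw [tri_some, tri_some]
      by_cases c : (t = i ∨ t = j ∨ t = k) ∧ w ≠ i ∧ w ≠ j ∧ w ≠ k
      · rw [if_pos c, if_pos c]
        exact h1 t w t1 t2 c.2.1 c.2.2.1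
      · rw [if_neg c, if_neg c]
    | none =>
      rw [tri_none, tri_none]
      simp only [t1, t2, if_false]
      rw [off_uv hij h1]
  · intro h1 a b a1 a2 b1 b2
    by_cases a3 : a = k
    · subst a3
      by_cases b3 : b = a
      · subst b3; rw [x.diag, y.diag]
      · have := congrFun (h1 a a1 a2) (some b)
        simpa [tri, b1, b2, b3] using this
    · by_cases b3 : b = k
      · subst b3
        have := congrFun (h1 b b1 b2) (some a)
        rw [x.symm, y.symm]
        simpa [tri, a1, a2, a3] using this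
      · exact h a b a1 a2 a3 b1 b2 b3

/-- row sums -/
def rw' (i j k : V) (x0 : SG V d) (a : V) : ℕ := ∑ w, (tri i j k x0.1 a w).toNat
/-- column sums -/
def cl' (i j k : V) (x0 : SG V d) (w : Option V) : ℕ := ∑ a, (tri i j k x0.1 a w).toNat

theorem sum_some {i j k : V} (hij : i ≠ j) (hik : i ≠ k) (hjk : j ≠ k) (x : V → V → Bool) (a : V)
    (ha : a = i ∨ a = j ∨ a = k) :
    ∑ w, (tri i j k x a (some w)).toNat = ∑ w with (w ≠ i ∧ w ≠ j ∧ w ≠ k), (x a w).toNat := by
  rw [sum_filter]
  apply sum_congr rfl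
  intro w _
  rw [tri_some]
  by_cases c : w ≠ i ∧ w ≠ j ∧ w ≠ k
  · rw [if_pos ⟨ha, c⟩, if_pos c]
  · rw [if_neg (fun h => c h.2), if_neg c]; rfl

theorem row_val {i j k : V} (hij : i ≠ j) (hik : i ≠ k) (hjk : j ≠ k) (x : SG V d) {a : V}
    (ha : a = i ∨ a = j ∨ a = k) :
    ∑ w, (tri i j k x.1 a w).toNat + tr i j k x.1 = d a + 1 := by
  rw [Fintype.sum_option, sum_some hij hik hjk _ _ ha]
  have e1 := x.deg a
  rw [nsplit3 _ hij hik hjk] at e1
  unfold tr
  rcases ha with rfl | rfl | rfl
  · have n1 := nt (x.1 j k)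
    simp only [tri, if_true]
    rw [x.diag] at e1
    simp only [Bool.toNat_false] at e1
    omega
  · have n1 := nt (x.1 i k)
    simp only [tri, hij.symm, if_true, if_false]
    rw [x.diag, x.symm a i] at e1
    simp only [Bool.toNat_false] at e1
    omega
  · have n1 := nt (x.1 i j)
    simp only [tri, hik.symm, hjk.symm, if_true, if_false]
    rw [x.diag, x.symm a i, x.symm a j] at e1
    simp only [Bool.toNat_false] at e1
    omega

theorem tri_zero {i j k : V} (x : V → V → Bool) {a : V} (h1 : a ≠ i) (h2 : a ≠ j) (h3 : a ≠ k)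
    (w : Option V) : tri i j k x a w = false := by
  cases w <;> simp [tri, h1, h2, h3]

theorem tri_zero' {i j k : V} (x : V → V → Bool) (a : V) {w : V} (h : w = i ∨ w = j ∨ w = k) :
    tri i j k x a (some w) = false := by
  rw [tri_some, if_neg]
  rintro ⟨-, h1, h2, h3⟩
  tauto

theorem row_eq {i j k : V} (hij : i ≠ j) (hik : i ≠ k) (hjk : j ≠ k) {x0 x : SG V d}
    (h : Of3 i j k x0 x) (a : V) : ∑ w, (tri i j k x.1 a w).toNat = rw' i j k x0 a := by
  unfold rw'
  by_cases ha : a = i ∨ a = j ∨ a = k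
  · have e1 := row_val hij hik hjk x ha
    have e2 := row_val hij hik hjk x0 ha
    have e3 := tr_eq hij hik hjk h
    omega
  · push Not at ha
    apply sum_congr rfl
    intro w _
    rw [tri_zero _ ha.1 ha.2.1 ha.2.2, tri_zero _ ha.1 ha.2.1 ha.2.2]

theorem colsum {i j k : V} (hij : i ≠ j) (hik : i ≠ k) (hjk : j ≠ k) (x : V → V → Bool)
    (w : Option V) : ∑ a, (tri i j k x a w).toNat =
      (tri i j k x i w).toNat + (tri i j k x j w).toNat + (tri i j k x k w).toNat := by
  rw [nsplit3 _ hij hik hjk]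
  have : ∑ t with (t ≠ i ∧ t ≠ j ∧ t ≠ k), (tri i j k x t w).toNat = 0 := by
    apply sum_eq_zero
    intro t ht
    simp only [mem_filter, mem_univ, true_and] at ht
    rw [tri_zero _ ht.1 ht.2.1 ht.2.2]; rfl
  omega

theorem col_eq {i j k : V} (hij : i ≠ j) (hik : i ≠ k) (hjk : j ≠ k) {x0 x : SG V d}
    (h : Of3 i j k x0 x) (w : Option V) : ∑ a, (tri i j k x.1 a w).toNat = cl' i j k x0 w := by
  unfold cl'
  rw [colsum hij hik hjk, colsum hij hik hjk]
  cases w with
  | none =>
    have e := tr_eq hij hik hjk h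
    unfold tr at e
    simp only [tri, if_true, if_false, hij.symm, hik.symm, hjk.symm]
    have n1 := nt (x.1 i j)
    have n2 := nt (x.1 i k)
    have n3 := nt (x.1 j k)
    have n4 := nt (x0.1 i j)
    have n5 := nt (x0.1 i k)
    have n6 := nt (x0.1 j k)
    omega
  | some w =>
    by_cases c : w ≠ i ∧ w ≠ j ∧ w ≠ k
    · simp only [tri, true_or, or_true, true_and, c, if_true, ne_eq, not_false_eq_true, and_self]
      exact (col3 hij hik hjk h c.1 c.2.1 c.2.2).symm
    · have c' : w = i ∨ w = j ∨ w = k := by tauto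
      simp only [tri_zero' _ _ c']

/-- the matrix of a graph in the fibre -/
def toM {i j k : V} (hij : i ≠ j) (hik : i ≠ k) (hjk : j ≠ k) (x0 x : SG V d)
    (h : Of3 i j k x0 x) : Mat V (Option V) (rw' i j k x0) (cl' i j k x0) :=
  ⟨tri i j k x.1, row_eq hij hik hjk h, col_eq hij hik hjk h⟩

/-- the graph of a matrix -/
def insF (i j k : V) (x0 : V → V → Bool) (z : V → Option V → Bool) (a b : V) : Bool :=
  if a = b then false
  else if a = i then (if b = j then !(z k none) else if b = k then !(z j none) else z i (some b))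
  else if a = j then (if b = i then !(z k none) else if b = k then !(z i none) else z j (some b))
  else if a = k then (if b = i then !(z j none) else if b = j then !(z i none) else z k (some b))
  else if b = i then z i (some a) else if b = j then z j (some a) else if b = k then z k (some a)
  else x0 a b

theorem z_row0 {i j k : V} {x0 : SG V d} (z : Mat V (Option V) (rw' i j k x0) (cl' i j k x0))
    {a : V} (h1 : a ≠ i) (h2 : a ≠ j) (h3 : a ≠ k) (w : Option V) : z.1 a w = false := by
  have h := z.2.1 a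
  have h0 : rw' i j k x0 a = 0 := by
    unfold rw'
    apply sum_eq_zero
    intro w _
    rw [tri_zero _ h1 h2 h3]; rfl
  rw [h0, sum_eq_zero_iff] at h
  have := h w (mem_univ w)
  revert this
  cases z.1 a w <;> simp

theorem z_col0 {i j k : V} {x0 : SG V d} (z : Mat V (Option V) (rw' i j k x0) (cl' i j k x0))
    (a : V) {w : V} (hw : w = i ∨ w = j ∨ w = k) : z.1 a (some w) = false := by
  have h := z.2.2 (some w)
  have h0 : cl' i j k x0 (some w) = 0 := by
    unfold cl'
    apply sum_eq_zero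
    intro a _
    rw [tri_zero' _ _ hw]; rfl
  rw [h0, sum_eq_zero_iff] at h
  have := h a (mem_univ a)
  revert this
  cases z.1 a (some w) <;> simp

theorem z_col {i j k : V} (hij : i ≠ j) (hik : i ≠ k) (hjk : j ≠ k) {x0 : SG V d}
    (z : Mat V (Option V) (rw' i j k x0) (cl' i j k x0)) (w : Option V) :
    (z.1 i w).toNat + (z.1 j w).toNat + (z.1 k w).toNat =
      (tri i j k x0.1 i w).toNat + (tri i j k x0.1 j w).toNat + (tri i j k x0.1 k w).toNat := by
  have h := z.2.2 w
  unfold cl' at h
  rw [colsum hij hik hjk, nsplit3 _ hij hik hjk] at h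
  have : ∑ t with (t ≠ i ∧ t ≠ j ∧ t ≠ k), (z.1 t w).toNat = 0 := by
    apply sum_eq_zero
    intro t ht
    simp only [mem_filter, mem_univ, true_and] at ht
    rw [z_row0 z ht.1 ht.2.1 ht.2.2]; rfl
  omega

theorem z_none {i j k : V} (hij : i ≠ j) (hik : i ≠ k) (hjk : j ≠ k) {x0 : SG V d}
    (z : Mat V (Option V) (rw' i j k x0) (cl' i j k x0)) :
    (z.1 i none).toNat + (z.1 j none).toNat + (z.1 k none).toNat + tr i j k x0.1 = 3 := by
  rw [z_col hij hik hjk]
  simp only [tri, if_true, if_false, hij.symm, hik.symm, hjk.symm]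
  have n4 := nt (x0.1 i j)
  have n5 := nt (x0.1 i k)
  have n6 := nt (x0.1 j k)
  unfold tr
  omega

theorem z_row {i j k : V} (hij : i ≠ j) (hik : i ≠ k) (hjk : j ≠ k) {x0 : SG V d}
    (z : Mat V (Option V) (rw' i j k x0) (cl' i j k x0)) {a : V} (ha : a = i ∨ a = j ∨ a = k) :
    ∑ w with (w ≠ i ∧ w ≠ j ∧ w ≠ k), (z.1 a (some w)).toNat + (z.1 a none).toNat + tr i j k x0.1
      = d a + 1 := by
  have h := z.2.1 a
  have h2 := row_val hij hik hjk x0 ha
  unfold rw' at h
  rw [← h, Fintype.sum_option, nsplit3 _ hij hik hjk, z_col0 z a (Or.inl rfl),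
    z_col0 z a (Or.inr (Or.inl rfl)), z_col0 z a (Or.inr (Or.inr rfl))] at h2
  simp only [Bool.toNat_false] at h2
  omega

theorem ins_valid {i j k : V} (hij : i ≠ j) (hik : i ≠ k) (hjk : j ≠ k) (x0 : SG V d)
    (z : Mat V (Option V) (rw' i j k x0) (cl' i j k x0)) : Valid d (insF i j k x0.1 z.1) := by
  refine ⟨?_, ?_, ?_⟩
  · intro a b
    by_cases hab : a = b
    · subst hab; rfl
    by_cases a1 : a = i
    · subst a1
      by_cases b1 : b = j
      · subst b1; simp [insF, hab, Ne.symm hab, hij, hij.symm, hik, hik.symm, hjk, hjk.symm]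
      · by_cases b2 : b = k
        · subst b2; simp [insF, hab, Ne.symm hab, hij, hij.symm, hik, hik.symm, hjk, hjk.symm]
        · simp [insF, hab, Ne.symm hab, b1, b2]
    · by_cases a2 : a = j
      · subst a2
        by_cases b1 : b = i
        · subst b1; simp [insF, hab, Ne.symm hab, hij, hij.symm, hik, hik.symm, hjk, hjk.symm]
        · by_cases b2 : b = k
          · subst b2; simp [insF, hab, Ne.symm hab, hij, hij.symm, hik, hik.symm, hjk, hjk.symm]
          · simp [insF, hab, Ne.symm hab, a1, b1, b2]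
      · by_cases a3 : a = k
        · subst a3
          by_cases b1 : b = i
          · subst b1; simp [insF, hab, Ne.symm hab, hij, hij.symm, hik, hik.symm, hjk, hjk.symm]
          · by_cases b2 : b = j
            · subst b2; simp [insF, hab, Ne.symm hab, hij, hij.symm, hik, hik.symm, hjk, hjk.symm]
            · simp [insF, hab, Ne.symm hab, a1, a2, b1, b2]
        · by_cases b1 : b = i
          · subst b1; simp [insF, hab, Ne.symm hab, a1, a2, a3]
          · by_cases b2 : b = j
            · subst b2; simp [insF, hab, Ne.symm hab, a1, a2, a3, b1]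
            · by_cases b3 : b = k
              · subst b3; simp [insF, hab, Ne.symm hab, a1, a2, a3, b1, b2]
              · simp [insF, hab, Ne.symm hab, a1, a2, a3, b1, b2, b3, x0.symm a b]
  · intro a
    simp [insF]
  · intro a
    rw [nsplit3 _ hij hik hjk]
    have hn := z_none hij hik hjk z
    have n1 := nt (z.1 i none)
    have n2 := nt (z.1 j none)
    have n3 := nt (z.1 k none)
    by_cases a1 : a = i
    · have hr := z_row hij hik hjk z (a := a) (Or.inl a1)
      subst a1
      have e : ∑ w with (w ≠ a ∧ w ≠ j ∧ w ≠ k), (insF a j k x0.1 z.1 a w).toNat =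
          ∑ w with (w ≠ a ∧ w ≠ j ∧ w ≠ k), (z.1 a (some w)).toNat := by
        apply sum_congr rfl
        intro t ht
        simp only [mem_filter, mem_univ, true_and] at ht
        simp [insF, ht.1, Ne.symm ht.1, ht.2.1, ht.2.2]
      rw [e]
      have e1 : insF a j k x0.1 z.1 a a = false := by simp [insF]
      have e2 : insF a j k x0.1 z.1 a j = !(z.1 k none) := by simp [insF, hij]
      have e3 : insF a j k x0.1 z.1 a k = !(z.1 j none) := by simp [insF, hik, hjk.symm]
      rw [e1, e2, e3]
      simp only [Bool.toNat_false]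
      omega
    by_cases a2 : a = j
    · have hr := z_row hij hik hjk z (a := a) (Or.inr (Or.inl a2))
      subst a2
      have e : ∑ w with (w ≠ i ∧ w ≠ a ∧ w ≠ k), (insF i a k x0.1 z.1 a w).toNat =
          ∑ w with (w ≠ i ∧ w ≠ a ∧ w ≠ k), (z.1 a (some w)).toNat := by
        apply sum_congr rfl
        intro t ht
        simp only [mem_filter, mem_univ, true_and] at ht
        simp [insF, a1, ht.1, ht.2.1, Ne.symm ht.2.1, ht.2.2]
      rw [e]
      have e1 : insF i a k x0.1 z.1 a a = false := by simp [insF]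
      have e2 : insF i a k x0.1 z.1 a i = !(z.1 k none) := by simp [insF, a1]
      have e3 : insF i a k x0.1 z.1 a k = !(z.1 i none) := by simp [insF, a1, hik.symm, hjk]
      rw [e1, e2, e3]
      simp only [Bool.toNat_false]
      omega
    by_cases a3 : a = k
    · have hr := z_row hij hik hjk z (a := a) (Or.inr (Or.inr a3))
      subst a3
      have e : ∑ w with (w ≠ i ∧ w ≠ j ∧ w ≠ a), (insF i j a x0.1 z.1 a w).toNat =
          ∑ w with (w ≠ i ∧ w ≠ j ∧ w ≠ a), (z.1 a (some w)).toNat := by
        apply sum_congr rfl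
        intro t ht
        simp only [mem_filter, mem_univ, true_and] at ht
        simp [insF, a1, a2, ht.1, ht.2.1, ht.2.2, Ne.symm ht.2.2]
      rw [e]
      have e1 : insF i j a x0.1 z.1 a a = false := by simp [insF]
      have e2 : insF i j a x0.1 z.1 a i = !(z.1 j none) := by simp [insF, a1, a2]
      have e3 : insF i j a x0.1 z.1 a j = !(z.1 i none) := by simp [insF, a1, a2, hij.symm]
      rw [e1, e2, e3]
      simp only [Bool.toNat_false]
      omega
    · have h0 := x0.deg a
      rw [nsplit3 _ hij hik hjk] at h0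
      have e : ∑ w with (w ≠ i ∧ w ≠ j ∧ w ≠ k), (insF i j k x0.1 z.1 a w).toNat =
          ∑ w with (w ≠ i ∧ w ≠ j ∧ w ≠ k), (x0.1 a w).toNat := by
        apply sum_congr rfl
        intro t ht
        simp only [mem_filter, mem_univ, true_and] at ht
        by_cases hat : a = t
        · subst hat; simp [insF, x0.diag]
        · simp [insF, hat, a1, a2, a3, ht.1, ht.2.1, ht.2.2]
      rw [e]
      have e1 : insF i j k x0.1 z.1 a i = z.1 i (some a) := by simp [insF, a1, a2, a3]
      have e2 : insF i j k x0.1 z.1 a j = z.1 j (some a) := by simp [insF, a1, a2, a3, hij.symm]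
      have e3 : insF i j k x0.1 z.1 a k = z.1 k (some a) := by
        simp [insF, a1, a2, a3, hik.symm, hjk.symm]
      rw [e1, e2, e3]
      have hc := z_col hij hik hjk z (some a)
      simp only [tri, true_or, or_true, true_and, a1, a2, a3, if_true, ne_eq, not_false_eq_true,
        and_self] at hc
      rw [x0.symm a i, x0.symm a j, x0.symm a k] at h0
      omega

/-- the graph of a matrix -/
def ins {i j k : V} (hij : i ≠ j) (hik : i ≠ k) (hjk : j ≠ k) (x0 : SG V d)
    (z : Mat V (Option V) (rw' i j k x0) (cl' i j k x0)) : SG V d :=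
  ⟨insF i j k x0.1 z.1, ins_valid hij hik hjk x0 z⟩

theorem ins_val {i j k : V} (hij : i ≠ j) (hik : i ≠ k) (hjk : j ≠ k) (x0 : SG V d)
    (z : Mat V (Option V) (rw' i j k x0) (cl' i j k x0)) :
    (ins hij hik hjk x0 z).1 = insF i j k x0.1 z.1 := rfl

theorem of3_ins {i j k : V} (hij : i ≠ j) (hik : i ≠ k) (hjk : j ≠ k) (x0 : SG V d)
    (z : Mat V (Option V) (rw' i j k x0) (cl' i j k x0)) : Of3 i j k x0 (ins hij hik hjk x0 z) := by
  intro a b a1 a2 a3 b1 b2 b3
  rw [ins_val]
  by_cases hab : a = b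
  · subst hab; simp [insF, x0.diag]
  · simp [insF, hab, a1, a2, a3, b1, b2, b3]

theorem tri_ins {i j k : V} (hij : i ≠ j) (hik : i ≠ k) (hjk : j ≠ k) (x0 : SG V d)
    (z : Mat V (Option V) (rw' i j k x0) (cl' i j k x0)) :
    tri i j k (ins hij hik hjk x0 z).1 = z.1 := by
  rw [ins_val]
  funext a w
  by_cases ha : a = i ∨ a = j ∨ a = k
  · cases w with
    | none =>
      rcases ha with rfl | rfl | rfl
      · simp [tri, insF, hij, hik, hjk, hij.symm, hik.symm, hjk.symm]
      · simp [tri, insF, hij, hik, hjk, hij.symm, hik.symm, hjk.symm]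
      · simp [tri, insF, hij, hik, hjk, hij.symm, hik.symm, hjk.symm]
    | some w =>
      by_cases c : w = i ∨ w = j ∨ w = k
      · rw [tri_zero' _ _ c, z_col0 z a c]
      · have c' : w ≠ i ∧ w ≠ j ∧ w ≠ k := by tauto
        have : tri i j k (insF i j k x0.1 z.1) a (some w) = insF i j k x0.1 z.1 a w := by
          simp [tri, ha, c']
        rw [this]
        rcases ha with rfl | rfl | rfl
        · simp [insF, c'.1, Ne.symm c'.1, c'.2.1, c'.2.2]
        · simp [insF, hij, hij.symm, c'.1, c'.2.1, Ne.symm c'.2.1, c'.2.2]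
        · simp [insF, hik, hjk, hik.symm, hjk.symm, c'.1, c'.2.1, c'.2.2, Ne.symm c'.2.2]
  · push Not at ha
    rw [tri_zero _ ha.1 ha.2.1 ha.2.2, z_row0 z ha.1 ha.2.1 ha.2.2]

theorem ins_toM {i j k : V} (hij : i ≠ j) (hik : i ≠ k) (hjk : j ≠ k) (x0 y : SG V d)
    (h : Of3 i j k x0 y) : ins hij hik hjk x0 (toM hij hik hjk x0 y h) = y := by
  apply ext'
  intro a b
  rw [ins_val]
  have hz : (toM hij hik hjk x0 y h).1 = tri i j k y.1 := rfl
  rw [hz]
  have s := y.symm
  by_cases hab : a = b
  · subst hab; simp [insF, y.diag]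
  by_cases a1 : a = i
  · subst a1
    by_cases b1 : b = j
    · subst b1
      simp [insF, tri, hab, hij, hik, hjk, hij.symm, hik.symm, hjk.symm]
    · by_cases b2 : b = k
      · subst b2
        simp [insF, tri, hab, hij, hik, hjk, hij.symm, hik.symm, hjk.symm]
      · simp [insF, tri, hab, Ne.symm hab, b1, b2]
  · by_cases a2 : a = j
    · subst a2
      by_cases b1 : b = i
      · subst b1
        simp [insF, tri, hab, hij, hik, hjk, hij.symm, hik.symm, hjk.symm, s a b]
      · by_cases b2 : b = k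
        · subst b2
          simp [insF, tri, hab, hij, hik, hjk, hij.symm, hik.symm, hjk.symm]
        · simp [insF, tri, hab, Ne.symm hab, a1, b1, b2]
    · by_cases a3 : a = k
      · subst a3
        by_cases b1 : b = i
        · subst b1
          simp [insF, tri, hab, hij, hik, hjk, hij.symm, hik.symm, hjk.symm, s a b]
        · by_cases b2 : b = j
          · subst b2
            simp [insF, tri, hab, hij, hik, hjk, hij.symm, hik.symm, hjk.symm, s a b]
          · simp [insF, tri, hab, Ne.symm hab, a1, a2, b1, b2]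
      · by_cases b1 : b = i
        · subst b1
          simp [insF, tri, hab, a1, a2, a3, s a b]
        · by_cases b2 : b = j
          · subst b2
            simp [insF, tri, hab, a1, a2, a3, b1, s a b]
          · by_cases b3 : b = k
            · subst b3
              simp [insF, tri, hab, a1, a2, a3, b1, b2, s a b]
            · simp [insF, hab, a1, a2, a3, b1, b2, b3, h a b a1 a2 a3 b1 b2 b3]

theorem sum_fibre {i j k : V} (hij : i ≠ j) (hik : i ≠ k) (hjk : j ≠ k) (x0 : SG V d)
    (φ : SG V d → ℝ) : ∑ y with Of3 i j k x0 y, φ y = ∑ z, φ (ins hij hik hjk x0 z) := by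
  symm
  apply sum_bij (fun z _ => ins hij hik hjk x0 z)
  · intro z _
    simp only [mem_filter, mem_univ, true_and]
    exact of3_ins hij hik hjk x0 z
  · intro z _ z' _ h
    apply Subtype.ext
    rw [← tri_ins hij hik hjk x0 z, ← tri_ins hij hik hjk x0 z', h]
  · intro y hy
    simp only [mem_filter, mem_univ, true_and] at hy
    exact ⟨toM hij hik hjk x0 y hy, mem_univ _, ins_toM hij hik hjk x0 y hy⟩
  · intro z _
    rfl

theorem Q_ins {i j k : V} (hij : i ≠ j) (hik : i ≠ k) (hjk : j ≠ k) (x0 : SG V d) (u v : V)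
    (hsub : ∀ x y : SG V d, Off u v x y → Of3 i j k x y)
    (hrel : ∀ z z' : Mat V (Option V) (rw' i j k x0) (cl' i j k x0),
      Off u v (ins hij hik hjk x0 z) (ins hij hik hjk x0 z') ↔ Mat.Off2 u v z z')
    (f : SG V d → ℝ) (z : Mat V (Option V) (rw' i j k x0) (cl' i j k x0)) :
    Q u v f (ins hij hik hjk x0 z) = P335.Q u v (fun z => f (ins hij hik hjk x0 z)) z := by
  have key : ∀ g : SG V d → ℝ, ∑ y with Off u v (ins hij hik hjk x0 z) y, g y =
      ∑ z' with Mat.Off2 u v z z', g (ins hij hik hjk x0 z') := by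
    intro g
    have e1 : ∑ y with Off u v (ins hij hik hjk x0 z) y, g y =
        ∑ y with Of3 i j k x0 y, (if Off u v (ins hij hik hjk x0 z) y then g y else 0) := by
      rw [sum_filter, sum_filter]
      apply sum_congr rfl
      intro y _
      by_cases h : Off u v (ins hij hik hjk x0 z) y
      · rw [if_pos h, if_pos ((of3_equiv i j k).trans (of3_ins hij hik hjk x0 z) (hsub _ _ h))]
      · rw [if_neg h]; simp
    rw [e1, sum_fibre hij hik hjk, sum_filter]
    apply sum_congr rfl
    intro z' _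
    by_cases h : Mat.Off2 u v z z'
    · rw [if_pos h, if_pos ((hrel z z').mpr h)]
    · rw [if_neg h, if_neg (fun h' => h ((hrel z z').mp h'))]
  have kc : ((univ.filter (fun y => Off u v (ins hij hik hjk x0 z) y)).card : ℝ) =
      ((univ.filter (fun z' => Mat.Off2 u v z z')).card : ℝ) := by
    have := key (fun _ => 1)
    simpa using this
  unfold Q P335.Q avg
  rw [key, kc]

theorem fibre_three {i j k : V} (hij : i ≠ j) (hik : i ≠ k) (hjk : j ≠ k) (f : SG V d → ℝ)
    (x0 : SG V d) : 0 ≤ ∑ x with Of3 i j k x0 x,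
      (Q i j f x * Q i k f x + Q i j f x * Q j k f x + Q i k f x * Q j k f x) := by
  have h3 : ∀ z z' : Mat V (Option V) (rw' i j k x0) (cl' i j k x0),
      Of3 i j k (ins hij hik hjk x0 z) (ins hij hik hjk x0 z') := fun z z' =>
    (of3_equiv i j k).trans ((of3_equiv i j k).symm (of3_ins hij hik hjk x0 z))
      (of3_ins hij hik hjk x0 z')
  have r1 : ∀ z z' : Mat V (Option V) (rw' i j k x0) (cl' i j k x0),
      Off i j (ins hij hik hjk x0 z) (ins hij hik hjk x0 z') ↔ Mat.Off2 i j z z' := by
    intro z z'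
    rw [off_iff hij hik hjk (h3 z z'), tri_ins, tri_ins]
    rfl
  have r2 : ∀ z z' : Mat V (Option V) (rw' i j k x0) (cl' i j k x0),
      Off i k (ins hij hik hjk x0 z) (ins hij hik hjk x0 z') ↔ Mat.Off2 i k z z' := by
    intro z z'
    have h3' : Of3 i k j (ins hij hik hjk x0 z) (ins hij hik hjk x0 z') :=
      fun a b c1 c2 c3 c4 c5 c6 => h3 z z' a b c1 c3 c2 c4 c6 c5
    rw [off_iff hik hij hjk.symm h3', ← tri_swap hij hik hjk, ← tri_swap hij hik hjk, tri_ins,
      tri_ins]
    rfl
  have r3 : ∀ z z' : Mat V (Option V) (rw' i j k x0) (cl' i j k x0),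
      Off j k (ins hij hik hjk x0 z) (ins hij hik hjk x0 z') ↔ Mat.Off2 j k z z' := by
    intro z z'
    have h3' : Of3 j k i (ins hij hik hjk x0 z) (ins hij hik hjk x0 z') :=
      fun a b c1 c2 c3 c4 c5 c6 => h3 z z' a b c3 c1 c2 c6 c4 c5
    rw [off_iff hjk hij.symm hik.symm h3', ← tri_swap hij.symm hjk hik,
      ← tri_swap hij.symm hjk hik, ← tri_swap' hij hik hjk, ← tri_swap' hij hik hjk, tri_ins,
      tri_ins]
    rfl
  rw [sum_fibre hij hik hjk]
  have q1 := Q_ins hij hik hjk x0 i j
    (fun x y h a b c1 c2 c3 c4 c5 c6 => h a b c1 c2 c4 c5) r1 f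
  have q2 := Q_ins hij hik hjk x0 i k
    (fun x y h a b c1 c2 c3 c4 c5 c6 => h a b c1 c3 c4 c6) r2 f
  have q3 := Q_ins hij hik hjk x0 j k
    (fun x y h a b c1 c2 c3 c4 c5 c6 => h a b c2 c3 c5 c6) r3 f
  simp only [q1, q2, q3]
  exact three_rows hij hik hjk _

end T3

variable {V : Type} [Fintype V] [DecidableEq V] {d : V → ℕ}

open T3 in
theorem three {i j k : V} (hij : i ≠ j) (hik : i ≠ k) (hjk : j ≠ k) (f : SG V d → ℝ) :
    0 ≤ ∑ x, (Q i j f x * Q i k f x + Q i j f x * Q j k f x + Q i k f x * Q j k f x) := by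
  have h := avg_sym (of3_equiv (d := d) i j k)
    (fun x => Q i j f x * Q i k f x + Q i j f x * Q j k f x + Q i k f x * Q j k f x) (fun _ => 1)
  have h1 : ∀ x, avg (Of3 (d := d) i j k) (fun _ => (1 : ℝ)) x = 1 := fun x =>
    avg_of_inv (of3_equiv i j k) (fun _ => (1 : ℝ)) x (fun _ _ => rfl)
  simp only [h1, mul_one] at h
  rw [← h]
  apply sum_nonneg
  intro x _
  unfold avg
  exact div_nonneg (fibre_three hij hik hjk f x) (Nat.cast_nonneg _)

end Vale.Agent.Lib.P335.SG
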