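import Vale.Agent.Lib.P335.SGPoinc0
import Vale.Agent.Lib.P335.SGPair
import Vale.Agent.Lib.P335.SGFibre
import Vale.Agent.Lib.P335.SGThree
import Vale.Agent.Lib.P335.SGKer

open Finset

namespace Vale.Agent.Lib.P335.SG

variable {V : Type} [Fintype V] [DecidableEq V] {d : V → ℕ}

theorem disj_nonneg (f : SG V d → ℝ) :
    0 ≤ ∑ u, ∑ v, ∑ w, ∑ z, (if Dist u v w z then ∑ x, Q u v f x * Q w z f x else 0) :=
  disj_of f (fun _ _ _ _ h => pair_ineq h f) (fun _ _ h => fibre_ineq h f)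

theorem poincare (f : SG V d → ℝ) (hf : ∑ x, f x = 0) :
    ∑ x, f x ^ 2 ≤ (1 / 2) * ∑ u, ∑ v, ∑ x, (Q u v f x) ^ 2 :=
  poincare_of disj_nonneg (fun f _ _ _ h1 h2 h3 => three h1 h2 h3 f)
    (fun f h x y => const_of_off f h x y) f hf

end Vale.Agent.Lib.P335.SG
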