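import Vale.Agent.Lib.P335.SG
import Vale.Agent.Lib.P335.Two

/-!
# P335 : from two vertices to switches (simple graphs)
-/

set_option linter.unusedSectionVars false

open Finset

namespace Vale.Agent.Lib.P335.SG

namespace SwB

variable {V : Type} [Fintype V] [DecidableEq V] {d : V → ℕ}

/-- row sums of the two-column matrix -/
def rr (x0 : SG V d) (u v : V) : V → ℕ := fun w =>
  if w = u ∨ w = v then 0 else (x0.1 u w).toNat + (x0.1 v w).toNat

/-- column sums of the two-column matrix -/
def cc (x0 : SG V d) (u v : V) : Bool → ℕ := fun i =>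
  if i then d u - (x0.1 u v).toNat else d v - (x0.1 u v).toNat

/-- insert two stars in `x0` -/
def insF (x0 : SG V d) (u v : V) (z : V → Bool → Bool) : V → V → Bool := fun s t =>
  if s = u then (if t = v then x0.1 u v else z t true)
  else if s = v then (if t = u then x0.1 u v else z t false)
  else if t = u then z s true
  else if t = v then z s false
  else x0.1 s t

theorem z_zero {x0 : SG V d} {u v : V} (z : Mat V Bool (rr x0 u v) (cc x0 u v)) {w : V}
    (hw : w = u ∨ w = v) (i : Bool) : z.1 w i = false := by
  have h := z.2.1 w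
  simp only [Fintype.sum_bool, rr, hw, if_true] at h
  cases i
  · cases h2 : z.1 w false
    · rfl
    · rw [h2] at h; simp at h
  · cases h2 : z.1 w true
    · rfl
    · rw [h2] at h; simp at h

theorem deg_ge (x0 : SG V d) {u v : V} : (x0.1 u v).toNat ≤ d u := by
  rw [← x0.deg u]
  exact single_le_sum (f := fun j => (x0.1 u j).toNat) (fun _ _ => Nat.zero_le _) (mem_univ v)

theorem ins_valid (x0 : SG V d) {u v : V} (huv : u ≠ v)
    (z : Mat V Bool (rr x0 u v) (cc x0 u v)) : Valid d (insF x0 u v z.1) := by
  have hzu : ∀ i, z.1 u i = false := z_zero z (Or.inl rfl)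
  have hzv : ∀ i, z.1 v i = false := z_zero z (Or.inr rfl)
  have hge := deg_ge x0 (u := u) (v := v)
  have hge' := deg_ge x0 (u := v) (v := u)
  rw [x0.symm v u] at hge'
  refine ⟨?_, ?_, ?_⟩
  · intro i j
    unfold insF
    by_cases i1 : i = u
    · subst i1
      by_cases j1 : j = i
      · subst j1; rfl
      · by_cases j2 : j = v
        · subst j2; simp [j1]
        · simp [j1, j2, huv]
    · by_cases i2 : i = v
      · subst i2
        by_cases j1 : j = u
        · subst j1; simp [i1]
        · by_cases j2 : j = i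
          · subst j2; rfl
          · simp [i1, j1, j2]
      · by_cases j1 : j = u
        · subst j1; simp [i1, i2]
        · by_cases j2 : j = v
          · subst j2; simp [i1, i2, j1]
          · simp [i1, i2, j1, j2, x0.symm i j]
  · intro i
    unfold insF
    by_cases i1 : i = u
    · subst i1; simp [huv, hzu]
    · by_cases i2 : i = v
      · subst i2; simp [i1, hzv]
      · simp [i1, i2, x0.diag]
  · intro i
    by_cases i1 : i = u
    · subst i1
      have h := z.2.2 true
      simp only [cc, if_true] at h
      rw [nsplit2 _ huv] at h ⊢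
      have e : ∑ w with (w ≠ i ∧ w ≠ v), (insF x0 i v z.1 i w).toNat =
          ∑ w with (w ≠ i ∧ w ≠ v), (z.1 w true).toNat := by
        apply sum_congr rfl
        intro w hw
        simp only [mem_filter, mem_univ, true_and] at hw
        simp [insF, hw.2]
      rw [e]
      rw [hzu, hzv] at h
      have e2 : insF x0 i v z.1 i i = false := by simp [insF, huv, hzu]
      have e3 : insF x0 i v z.1 i v = x0.1 i v := by simp [insF]
      rw [e2, e3]
      simp only [Bool.toNat_false] at h ⊢
      omega
    · by_cases i2 : i = v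
      · subst i2
        have h := z.2.2 false
        simp only [cc, Bool.false_eq_true, if_false] at h
        rw [nsplit2 _ huv] at h ⊢
        have e : ∑ w with (w ≠ u ∧ w ≠ i), (insF x0 u i z.1 i w).toNat =
            ∑ w with (w ≠ u ∧ w ≠ i), (z.1 w false).toNat := by
          apply sum_congr rfl
          intro w hw
          simp only [mem_filter, mem_univ, true_and] at hw
          simp [insF, i1, hw.1]
        rw [e]
        rw [hzu, hzv] at h
        have e2 : insF x0 u i z.1 i i = false := by simp [insF, i1, hzv]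
        have e3 : insF x0 u i z.1 i u = x0.1 u i := by simp [insF, i1]
        rw [e2, e3]
        simp only [Bool.toNat_false] at h ⊢
        omega
      · have h0 := x0.deg i
        have h1 := z.2.1 i
        simp only [Fintype.sum_bool, rr, i1, i2, or_self, if_false] at h1
        rw [nsplit2 _ huv] at h0 ⊢
        have e : ∑ w with (w ≠ u ∧ w ≠ v), (insF x0 u v z.1 i w).toNat =
            ∑ w with (w ≠ u ∧ w ≠ v), (x0.1 i w).toNat := by
          apply sum_congr rfl
          intro w hw
          simp only [mem_filter, mem_univ, true_and] at hw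
          simp [insF, i1, i2, hw.1, hw.2]
        rw [e]
        have e2 : insF x0 u v z.1 i u = z.1 i true := by simp [insF, i1, i2]
        have e3 : insF x0 u v z.1 i v = z.1 i false := by simp [insF, i1, i2, huv.symm]
        rw [e2, e3]
        rw [x0.symm i u, x0.symm i v] at h0
        omega

/-- insert two stars in `x0` -/
def ins (x0 : SG V d) {u v : V} (huv : u ≠ v) (z : Mat V Bool (rr x0 u v) (cc x0 u v)) : SG V d :=
  ⟨insF x0 u v z.1, ins_valid x0 huv z⟩

theorem ins_val (x0 : SG V d) {u v : V} (huv : u ≠ v) (z : Mat V Bool (rr x0 u v) (cc x0 u v)) :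
    (ins x0 huv z).1 = insF x0 u v z.1 := rfl

/-- extract the two stars -/
def ext (x0 : SG V d) {u v : V} (huv : u ≠ v) (y : SG V d) (hy : Off u v x0 y) :
    Mat V Bool (rr x0 u v) (cc x0 u v) :=
  ⟨fun w i => if w = u ∨ w = v then false else if i then y.1 u w else y.1 v w, by
    constructor
    · intro w
      by_cases hw : w = u ∨ w = v
      · simp [rr, hw]
      · have hw' := hw
        push Not at hw'
        have := off_col huv hy hw'.1 hw'.2
        simp only [hw, if_false, Fintype.sum_bool, rr, if_true, Bool.false_eq_true]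
        omega
    · intro i
      have huv' := off_uv huv hy
      cases i
      · have h := y.deg v
        rw [nsplit2 _ huv] at h ⊢
        simp only [true_or, or_true, if_true, Bool.false_eq_true, if_false, cc]
        have e : ∑ w with (w ≠ u ∧ w ≠ v),
            (if w = u ∨ w = v then false else y.1 v w).toNat =
            ∑ w with (w ≠ u ∧ w ≠ v), (y.1 v w).toNat := by
          apply sum_congr rfl
          intro w hw
          simp only [mem_filter, mem_univ, true_and] at hw
          simp [hw.1, hw.2]
        rw [e]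
        rw [y.diag, y.symm v u, ← huv'] at h
        simp only [Bool.toNat_false] at h ⊢
        omega
      · have h := y.deg u
        rw [nsplit2 _ huv] at h ⊢
        simp only [true_or, or_true, if_true, cc]
        have e : ∑ w with (w ≠ u ∧ w ≠ v),
            (if w = u ∨ w = v then false else y.1 u w).toNat =
            ∑ w with (w ≠ u ∧ w ≠ v), (y.1 u w).toNat := by
          apply sum_congr rfl
          intro w hw
          simp only [mem_filter, mem_univ, true_and] at hw
          simp [hw.1, hw.2]
        rw [e]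
        rw [y.diag, ← huv'] at h
        simp only [Bool.toNat_false] at h ⊢
        omega⟩

theorem off_ins (x0 : SG V d) {u v : V} (huv : u ≠ v)
    (z : Mat V Bool (rr x0 u v) (cc x0 u v)) : Off u v x0 (ins x0 huv z) := by
  intro a b h1 h2 h3 h4
  rw [ins_val]
  simp [insF, h1, h2, h3, h4]

theorem ins_ext (x0 : SG V d) {u v : V} (huv : u ≠ v) (y : SG V d)
    (hy : Off u v x0 y) : ins x0 huv (ext x0 huv y hy) = y := by
  apply ext'
  intro s t
  rw [ins_val]
  have huv' := off_uv huv hy
  by_cases s1 : s = u
  · subst s1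
    by_cases t2 : t = v
    · subst t2; simp [insF, huv']
    · by_cases t1 : t = s
      · subst t1; simp [insF, SwB.ext, huv, y.diag]
      · simp [insF, SwB.ext, t1, t2]
  · by_cases s2 : s = v
    · subst s2
      by_cases t1 : t = u
      · subst t1; simp [insF, s1, huv', y.symm s t]
      · by_cases t2 : t = s
        · subst t2; simp [insF, SwB.ext, s1, y.diag]
        · simp [insF, SwB.ext, s1, t1, t2]
    · by_cases t1 : t = u
      · subst t1; simp [insF, SwB.ext, s1, s2, y.symm s t]
      · by_cases t2 : t = v
        · subst t2; simp [insF, SwB.ext, s1, s2, t1, y.symm s t]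
        · simp [insF, s1, s2, t1, t2, hy s t s1 s2 t1 t2]

theorem ins_inj (x0 : SG V d) {u v : V} (huv : u ≠ v) :
    Function.Injective (ins x0 huv) := by
  intro z z' h
  apply Subtype.ext
  funext w i
  by_cases hw : w = u ∨ w = v
  · rw [z_zero z hw, z_zero z' hw]
  · push Not at hw
    have h1 : (ins x0 huv z).1 = (ins x0 huv z').1 := by rw [h]
    rw [ins_val, ins_val] at h1
    cases i
    · have := congrFun (congrFun h1 w) v
      simpa [insF, hw.1, hw.2, huv.symm] using this
    · have := congrFun (congrFun h1 w) u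
      simpa [insF, hw.1, hw.2] using this

theorem sum_fibre (x0 : SG V d) {u v : V} (huv : u ≠ v) (φ : SG V d → ℝ) :
    ∑ y with Off u v x0 y, φ y = ∑ z, φ (ins x0 huv z) := by
  symm
  apply sum_bij (fun z _ => ins x0 huv z)
  · intro z _
    simp only [mem_filter, mem_univ, true_and]
    exact off_ins x0 huv z
  · intro z _ z' _ h
    exact ins_inj x0 huv h
  · intro y hy
    simp only [mem_filter, mem_univ, true_and] at hy
    exact ⟨SwB.ext x0 huv y hy, mem_univ _, ins_ext x0 huv y hy⟩
  · intro z _
    rfl

theorem card_fibre (x0 : SG V d) {u v : V} (huv : u ≠ v) :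
    (univ.filter (fun y => Off u v x0 y)).card =
      Fintype.card (Mat V Bool (rr x0 u v) (cc x0 u v)) := by
  have := sum_fibre x0 huv (fun _ => (1 : ℝ))
  simp only [sum_const, nsmul_eq_mul, mul_one, card_univ] at this
  exact_mod_cast this

theorem sw_ins (x0 : SG V d) {u v : V} (huv : u ≠ v) {a b : V}
    {z z1 : Mat V Bool (rr x0 u v) (cc x0 u v)} (h : Mat.Off2 a b z z1) (hne : z1 ≠ z) :
    Sw u v a b (ins x0 huv z) (ins x0 huv z1) ∨ Sw u v b a (ins x0 huv z) (ins x0 huv z1) := by
  obtain ⟨hP, hz1⟩ := Two.cls h hne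
  -- `a, b` are different from `u, v` and from each other
  have nz : ∀ w, (∃ i, z.1 w i = true) → w ≠ u ∧ w ≠ v := by
    rintro w ⟨i, hi⟩
    constructor
    · intro h'
      rw [z_zero z (Or.inl h')] at hi; exact absurd hi (by simp)
    · intro h'
      rw [z_zero z (Or.inr h')] at hi; exact absurd hi (by simp)
  have ha : a ≠ u ∧ a ≠ v := by
    rcases hP with ⟨p1, p2, p3, p4⟩ | ⟨p1, p2, p3, p4⟩
    · exact nz a ⟨true, p1⟩
    · exact nz a ⟨false, p2⟩
  have hb : b ≠ u ∧ b ≠ v := by
    rcases hP with ⟨p1, p2, p3, p4⟩ | ⟨p1, p2, p3, p4⟩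
    · exact nz b ⟨false, p2⟩
    · exact nz b ⟨true, p1⟩
  have hab : a ≠ b := by
    rintro rfl
    rcases hP with ⟨p1, p2, p3, p4⟩ | ⟨p1, p2, p3, p4⟩
    · rw [p1] at p3; exact absurd p3 (by simp)
    · rw [p1] at p3; exact absurd p3 (by simp)
  have hdist : Dist u v a b := ⟨huv, hab, ha.1.symm, hb.1.symm, ha.2.symm, hb.2.symm⟩
  have hdist' : Dist u v b a := ⟨huv, hab.symm, hb.1.symm, ha.1.symm, hb.2.symm, ha.2.symm⟩
  have e1 : ∀ w i, z1.1 w i = if w = a ∨ w = b then !(z.1 w i) else z.1 w i := by
    intro w i; rw [hz1]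
  have h1 : (ins x0 huv z1).1 = flip u v a b (ins x0 huv z).1 := by
    funext s t
    rw [ins_val, ins_val]
    unfold flip
    by_cases s1 : s = u
    · subst s1
      by_cases t2 : t = v
      · subst t2; simp [insF, ha.2.symm, hb.2.symm, ha.1.symm, hb.1.symm]
      · simp only [insF, t2, if_true, if_false, e1, true_or, true_and, ha.1.symm, hb.1.symm,
          or_self, and_false, or_false]
    · by_cases s2 : s = v
      · subst s2
        by_cases t1 : t = u
        · subst t1; simp [insF, s1, ha.2.symm, hb.2.symm, ha.1.symm, hb.1.symm]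
        · simp only [insF, s1, t1, if_true, if_false, e1, or_true, true_and, ha.2.symm, hb.2.symm,
            or_self, and_false, or_false]
      · by_cases t1 : t = u
        · subst t1
          simp only [insF, s1, s2, if_true, if_false, e1, true_or, true_and, or_self, false_and,
            false_or]
        · by_cases t2 : t = v
          · subst t2
            simp only [insF, s1, s2, t1, if_true, if_false, e1, or_true, true_and, or_self,
              false_and, false_or]
          · simp [insF, s1, s2, t1, t2]
  rcases hP with ⟨p1, p2, p3, p4⟩ | ⟨p1, p2, p3, p4⟩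
  · left
    refine ⟨hdist, ?_, ?_, ?_, ?_, h1⟩
    · rw [ins_val]; simp [insF, ha.2, p1]
    · rw [ins_val]; simp [insF, huv.symm, hb.1, p2]
    · rw [ins_val]; simp [insF, hb.2, p3]
    · rw [ins_val]; simp [insF, huv.symm, ha.1, p4]
  · right
    refine ⟨hdist', ?_, ?_, ?_, ?_, ?_⟩
    · rw [ins_val]; simp [insF, hb.2, p1]
    · rw [ins_val]; simp [insF, huv.symm, ha.1, p2]
    · rw [ins_val]; simp [insF, ha.2, p3]
    · rw [ins_val]; simp [insF, huv.symm, hb.1, p4]
    · rw [h1]
      funext s t
      unfold flip
      simp only [or_comm (a := t = a), or_comm (a := s = a)]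

/-- the sum over all `y` reached by the switch -/
noncomputable def SS (f : SG V d → ℝ) (u v a b : V) (x : SG V d) : ℝ :=
  ∑ y, (if Sw u v a b x y then (f x - f y) ^ 2 else 0)

theorem SS_nonneg (f : SG V d → ℝ) (u v a b : V) (x : SG V d) : 0 ≤ SS f u v a b x := by
  unfold SS
  apply sum_nonneg
  intro y _
  split_ifs <;> positivity

theorem SS_ge (f : SG V d → ℝ) {u v a b : V} {x y : SG V d}
    (h : Sw u v a b x y) : (f x - f y) ^ 2 ≤ SS f u v a b x := by
  unfold SS
  have := single_le_sum (f := fun y => (if Sw u v a b x y then (f x - f y) ^ 2 else 0))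
    (s := univ) (fun y _ => by split_ifs <;> positivity) (mem_univ y)
  simpa [h] using this

theorem Q_le (f : SG V d → ℝ) (x0 : SG V d) {u v : V} (huv : u ≠ v) (m : ℝ) (a b : V)
    (z : Mat V Bool (rr x0 u v) (cc x0 u v)) :
    (P335.Q a b (fun z => f (ins x0 huv z) - m) z) ^ 2 ≤
      (1 / 4) * (SS f u v a b (ins x0 huv z) + SS f u v b a (ins x0 huv z)) := by
  have n1 := SS_nonneg f u v a b (ins x0 huv z)
  have n2 := SS_nonneg f u v b a (ins x0 huv z)
  by_cases hex : ∃ z1, Mat.Off2 a b z z1 ∧ z1 ≠ z
  · obtain ⟨z1, h1, hne⟩ := hex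
    have hcl : univ.filter (fun y => Mat.Off2 a b z y) = {z, z1} := by
      ext y
      simp only [mem_filter, mem_univ, true_and, mem_insert, mem_singleton]
      constructor
      · intro hy
        by_cases hyz : y = z
        · exact Or.inl hyz
        · right
          apply Subtype.ext
          rw [(Two.cls hy hyz).2, (Two.cls h1 hne).2]
      · rintro (rfl | rfl)
        · exact Two.off2_refl a b _
        · exact h1
    have hQ : P335.Q a b (fun z => f (ins x0 huv z) - m) z =
        (f (ins x0 huv z) - f (ins x0 huv z1)) / 2 := by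
      unfold P335.Q avg
      rw [hcl, sum_pair hne.symm, card_pair hne.symm]
      push_cast
      ring
    rw [hQ]
    rcases sw_ins x0 huv h1 hne with h | h
    · have := SS_ge f h
      nlinarith
    · have := SS_ge f h
      nlinarith
  · have hcl : univ.filter (fun y => Mat.Off2 a b z y) = {z} := by
      ext y
      simp only [mem_filter, mem_univ, true_and, mem_singleton]
      constructor
      · intro hy
        by_contra hyz
        exact hex ⟨y, hy, hyz⟩
      · rintro rfl
        exact Two.off2_refl a b _
    have hQ : P335.Q a b (fun z => f (ins x0 huv z) - m) z = 0 := by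
      unfold P335.Q avg
      rw [hcl, sum_singleton, card_singleton]
      push_cast
      ring
    rw [hQ]
    nlinarith

theorem fibre_bound (f : SG V d → ℝ) (x0 : SG V d) {u v : V} (huv : u ≠ v) :
    ∑ x with Off u v x0 x, (Q u v f x) ^ 2 ≤
      (1 / 4) * ∑ x with Off u v x0 x, ∑ a, ∑ b, SS f u v a b x := by
  set m := avg (Off u v) f x0 with hm
  set g : Mat V Bool (rr x0 u v) (cc x0 u v) → ℝ := fun z => f (ins x0 huv z) - m with hg
  have hg0 : ∑ z, g z = 0 := by
    simp only [hg, sum_sub_distrib, sum_const, card_univ, nsmul_eq_mul]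
    rw [← sum_fibre x0 huv f, hm]
    unfold avg
    rw [← card_fibre x0 huv]
    have hpos : ((univ.filter (fun y => Off u v x0 y)).card : ℝ) ≠ 0 :=
      (cls_card_pos (off_equiv u v) x0).ne'
    rw [mul_div_cancel₀ _ hpos]
    ring
  have h1 := row_poincare g hg0
  have h2 : ∑ x with Off u v x0 x, (Q u v f x) ^ 2 = ∑ z, g z ^ 2 := by
    rw [sum_fibre x0 huv]
    apply sum_congr rfl
    intro z _
    simp only [hg, Q]
    rw [← avg_inv (off_equiv u v) f (off_ins x0 huv z)]
  have h3 : ∑ a, ∑ b, ∑ z, (P335.Q a b g z) ^ 2 ≤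
      ∑ a, ∑ b, ∑ z, (1 / 4) * (SS f u v a b (ins x0 huv z) + SS f u v b a (ins x0 huv z)) := by
    apply sum_le_sum; intro a _
    apply sum_le_sum; intro b _
    apply sum_le_sum; intro z _
    exact Q_le f x0 huv m a b z
  have h4 : ∑ a, ∑ b, ∑ z, (1 / 4) * (SS f u v a b (ins x0 huv z) + SS f u v b a (ins x0 huv z))
      = (1 / 2) * ∑ a, ∑ b, ∑ z, SS f u v a b (ins x0 huv z) := by
    have e1 : ∑ a, ∑ b, ∑ z, SS f u v b a (ins x0 huv z) =
        ∑ a, ∑ b, ∑ z, SS f u v a b (ins x0 huv z) := by
      rw [sum_comm]
    simp only [← mul_sum, sum_add_distrib]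
    rw [e1]
    ring
  have h5 : ∑ x with Off u v x0 x, ∑ a, ∑ b, SS f u v a b x =
      ∑ a, ∑ b, ∑ z, SS f u v a b (ins x0 huv z) := by
    rw [sum_fibre x0 huv, sum_comm]
    apply sum_congr rfl
    intro a _
    rw [sum_comm]
  rw [h2, h5]
  linarith

/-- the edges inside `V \ {u, v}` -/
def key (u v : V) (x : SG V d) : V → V → Bool :=
  fun s t => if s = u ∨ s = v ∨ t = u ∨ t = v then false else x.1 s t

theorem key_iff (u v : V) (x y : SG V d) : key u v y = key u v x ↔ Off u v x y := by
  constructor
  · intro h s t h1 h2 h3 h4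
    have := congrFun (congrFun h s) t
    simpa [key, h1, h2, h3, h4] using this.symm
  · intro h
    funext s t
    by_cases hc : s = u ∨ s = v ∨ t = u ∨ t = v
    · simp [key, hc]
    · have hc' := hc
      push Not at hc'
      simp only [key, hc, if_false]
      exact (h s t hc'.1 hc'.2.1 hc'.2.2.1 hc'.2.2.2).symm

end SwB

variable {V : Type} [Fintype V] [DecidableEq V] {d : V → ℕ}

theorem uv_bound {u v : V} (huv : u ≠ v) (f : SG V d → ℝ) :
    ∑ x, (Q u v f x) ^ 2 ≤ (1 / 4) * ∑ a, ∑ b, ∑ x, ∑ y,
      (if Sw u v a b x y then (f x - f y) ^ 2 else 0) := by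
  have hR : ∑ a, ∑ b, ∑ x, ∑ y, (if Sw u v a b x y then (f x - f y) ^ 2 else 0) =
      ∑ x, ∑ a, ∑ b, SwB.SS f u v a b x := by
    symm
    rw [sum_comm]
    apply sum_congr rfl; intro a _
    rw [sum_comm]
    rfl
  rw [hR, ← sum_fiberwise (s := univ) (g := SwB.key u v) (f := fun x => (Q u v f x) ^ 2),
    ← sum_fiberwise (s := univ) (g := SwB.key u v) (f := fun x => ∑ a, ∑ b, SwB.SS f u v a b x),
    mul_sum]
  apply sum_le_sum
  intro k _
  by_cases hk : ∃ x0 : SG V d, SwB.key u v x0 = k
  · obtain ⟨x0, rfl⟩ := hk
    have : univ.filter (fun x => SwB.key u v x = SwB.key u v x0) =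
        univ.filter (fun x => Off u v x0 x) := by
      ext x
      simp only [mem_filter, mem_univ, true_and]
      exact SwB.key_iff u v x0 x
    rw [this]
    exact SwB.fibre_bound f x0 huv
  · have : univ.filter (fun x : SG V d => SwB.key u v x = k) = ∅ := by
      ext x
      simp only [mem_filter, mem_univ, true_and, notMem_empty, iff_false]
      exact fun h => hk ⟨x, h⟩
    rw [this]
    simp

end Vale.Agent.Lib.P335.SG
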