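import Vale.Agent.Lib.P335.SGFin
import Vale.Agent.Lib.P335.SGSw
import Vale.Agent.Lib.P335.SGPoinc

/-!
# P335 : the switch chain on all simple graphs with given degrees mixes in time `n ^ 6`
-/

open Finset

namespace Vale.Agent.Lib.P335.SG

theorem poincSt : PoincSt := fun _ _ _ _ f hf => poincare f hf

theorem uvSt : UvSt := fun _ _ _ _ _ _ huv f => uv_bound huv f

theorem graph_poincare {n : ℕ} (hn : 4 ≤ n) (d : Fin n → ℕ) (f : Realiz d → ℝ)
    (hf : ∑ G, f G = 0) :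
    ∑ G, f G ^ 2 ≤ (24 * (n.choose 4 : ℝ)) * ∑ G, ∑ H, switchP d G H * (f G - f H) ^ 2 / 2 :=
  graph_poincare_of poincSt uvSt hn d f hf

theorem mixed_all {n : ℕ} (hn : 4 ≤ n) (d : Fin n → ℕ) (G₀ : Realiz d) : mixed d (n ^ 6) :=
  mixed_all_of poincSt uvSt hn d G₀

end Vale.Agent.Lib.P335.SG
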