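import Vale.Agent.Lib.P335.SG

/-!
# P335 : the classes of `Off u v` are slices (module FIBRE)
-/

set_option linter.unusedSectionVars false

open Finset

namespace Vale.Agent.Lib.P335.SG

variable {V : Type} [Fintype V] [DecidableEq V] {d : V → ℕ}

/-- the exclusive columns -/
def FJ (u v : V) (x0 : SG V d) : Type := {w : V // w ≠ u ∧ w ≠ v ∧ x0.1 u w ≠ x0.1 v w}

instance (u v : V) (x0 : SG V d) : Fintype (FJ u v x0) := by unfold FJ; infer_instance
instance (u v : V) (x0 : SG V d) : DecidableEq (FJ u v x0) := by unfold FJ; infer_instance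

/-- restriction to the exclusive columns -/
def fphi (u v : V) (x0 : SG V d) (y : SG V d) : FJ u v x0 → Bool := fun w => y.1 u w.1

/-- number of ones -/
def ones {J : Type} [Fintype J] (b : J → Bool) : ℕ := (univ.filter (fun w => b w = true)).card

/-- the matrix with prescribed `u`-row on the exclusive columns -/
def fmat (u v : V) (x0 : SG V d) (b : FJ u v x0 → Bool) : V → V → Bool := fun s t =>
  if h : t ≠ u ∧ t ≠ v ∧ x0.1 u t ≠ x0.1 v t then
    (if s = u then b ⟨t, h⟩ else if s = v then !(b ⟨t, h⟩) else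
      x0.1 s t)
  else if h : s ≠ u ∧ s ≠ v ∧ x0.1 u s ≠ x0.1 v s then
    (if t = u then b ⟨s, h⟩ else if t = v then !(b ⟨s, h⟩) else x0.1 s t)
  else x0.1 s t

theorem ones_eq_sum {J : Type} [Fintype J] (b : J → Bool) : ones b = ∑ w, (b w).toNat := by
  unfold ones
  rw [card_filter]
  apply sum_congr rfl
  intro w _
  cases b w <;> simp

theorem fmat_uw {u v : V} {x0 : SG V d} (b : FJ u v x0 → Bool) {w : V}
    (h : w ≠ u ∧ w ≠ v ∧ x0.1 u w ≠ x0.1 v w) : fmat u v x0 b u w = b ⟨w, h⟩ := by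
  unfold fmat
  rw [dif_pos h, if_pos rfl]

theorem fmat_vw {u v : V} (huv : u ≠ v) {x0 : SG V d} (b : FJ u v x0 → Bool) {w : V}
    (h : w ≠ u ∧ w ≠ v ∧ x0.1 u w ≠ x0.1 v w) : fmat u v x0 b v w = !(b ⟨w, h⟩) := by
  unfold fmat
  rw [dif_pos h, if_neg huv.symm, if_pos rfl]

theorem fmat_off {u v : V} {x0 : SG V d} (b : FJ u v x0 → Bool) {s t : V}
    (h1 : s ≠ u) (h2 : s ≠ v) (h3 : t ≠ u) (h4 : t ≠ v) : fmat u v x0 b s t = x0.1 s t := by
  unfold fmat
  split_ifs <;> rfl

theorem fmat_ncol {u v : V} {x0 : SG V d} (b : FJ u v x0 → Bool) {s t : V}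
    (h1 : ¬ (s ≠ u ∧ s ≠ v ∧ x0.1 u s ≠ x0.1 v s)) (h2 : ¬ (t ≠ u ∧ t ≠ v ∧ x0.1 u t ≠ x0.1 v t)) :
    fmat u v x0 b s t = x0.1 s t := by
  unfold fmat
  rw [dif_neg h2, dif_neg h1]

theorem fmat_symm {u v : V} (_huv : u ≠ v) {x0 : SG V d} (b : FJ u v x0 → Bool) (s t : V) :
    fmat u v x0 b s t = fmat u v x0 b t s := by
  by_cases ht : t ≠ u ∧ t ≠ v ∧ x0.1 u t ≠ x0.1 v t
  · by_cases hs : s ≠ u ∧ s ≠ v ∧ x0.1 u s ≠ x0.1 v s
    · rw [fmat_off b hs.1 hs.2.1 ht.1 ht.2.1, fmat_off b ht.1 ht.2.1 hs.1 hs.2.1, x0.symm]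
    · unfold fmat
      rw [dif_pos ht, dif_neg hs, dif_pos ht]
      rw [x0.symm s t]
  · by_cases hs : s ≠ u ∧ s ≠ v ∧ x0.1 u s ≠ x0.1 v s
    · unfold fmat
      rw [dif_neg ht, dif_pos hs, dif_pos hs]
      rw [x0.symm s t]
    · rw [fmat_ncol b hs ht, fmat_ncol b ht hs, x0.symm]

/-- splitting a sum over the columns -/
theorem fsplit (u v : V) (x0 : SG V d) (φ : V → ℕ) :
    ∑ w, φ w = ∑ w : FJ u v x0, φ w.1 +
      ∑ w with ¬ (w ≠ u ∧ w ≠ v ∧ x0.1 u w ≠ x0.1 v w), φ w := by
  rw [← sum_filter_add_sum_filter_not univ (fun w => w ≠ u ∧ w ≠ v ∧ x0.1 u w ≠ x0.1 v w)]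
  congr 1
  apply sum_subtype
  intro x
  simp

theorem fmat_valid {u v : V} (huv : u ≠ v) (x0 : SG V d) (b : FJ u v x0 → Bool)
    (hb : ones b = ones (fphi u v x0 x0)) : Valid d (fmat u v x0 b) := by
  refine ⟨fmat_symm huv b, ?_, ?_⟩
  · intro i
    by_cases hi : i ≠ u ∧ i ≠ v ∧ x0.1 u i ≠ x0.1 v i
    · rw [fmat_off b hi.1 hi.2.1 hi.1 hi.2.1, x0.diag]
    · rw [fmat_ncol b hi hi, x0.diag]
  · intro i
    rw [ones_eq_sum, ones_eq_sum] at hb
    by_cases hiu : i = u
    · subst hiu
      rw [← x0.deg i, fsplit i v x0, fsplit i v x0]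
      have hi : ¬ (i ≠ i ∧ i ≠ v ∧ x0.1 i i ≠ x0.1 v i) := fun h => h.1 rfl
      congr 1
      · rw [sum_congr rfl (fun w _ => by rw [fmat_uw b w.2])]
        exact hb
      · apply sum_congr rfl
        intro w hw
        simp only [mem_filter, mem_univ, true_and] at hw
        rw [fmat_ncol b hi hw]
    by_cases hiv : i = v
    · subst hiv
      rw [← x0.deg i, fsplit u i x0, fsplit u i x0]
      have hi : ¬ (i ≠ u ∧ i ≠ i ∧ x0.1 u i ≠ x0.1 i i) := fun h => h.2.1 rfl
      congr 1
      · rw [sum_congr rfl (fun w _ => by rw [fmat_vw huv b w.2])]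
        have e3 : ∑ w : FJ u i x0, (!(b w)).toNat + ∑ w, (b w).toNat = Fintype.card (FJ u i x0) := by
          rw [← sum_add_distrib, ← card_univ, card_eq_sum_ones]
          apply sum_congr rfl
          intro w _
          cases b w <;> simp
        have e4 : ∑ w : FJ u i x0, (x0.1 i w.1).toNat + ∑ w : FJ u i x0, (fphi u i x0 x0 w).toNat =
            Fintype.card (FJ u i x0) := by
          rw [← sum_add_distrib, ← card_univ, card_eq_sum_ones]
          apply sum_congr rfl
          intro w _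
          have := w.2.2.2
          revert this
          unfold fphi
          cases x0.1 u w.1 <;> cases x0.1 i w.1 <;> simp
        change ∑ w : FJ u i x0, (!(b w)).toNat = _
        omega
      · apply sum_congr rfl
        intro w hw
        simp only [mem_filter, mem_univ, true_and] at hw
        rw [fmat_ncol b hi hw]
    · rw [← x0.deg i]
      by_cases hi : i ≠ u ∧ i ≠ v ∧ x0.1 u i ≠ x0.1 v i
      · rw [nsplit2 _ huv, nsplit2 _ huv]
        congr 1
        · rw [fmat_symm huv b i u, fmat_symm huv b i v, fmat_uw b hi, fmat_vw huv b hi, x0.symm i u,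
            x0.symm i v]
          have := hi.2.2
          revert this
          cases x0.1 u i <;> cases x0.1 v i <;> cases b ⟨i, hi⟩ <;> simp
        · apply sum_congr rfl
          intro w hw
          simp only [mem_filter, mem_univ, true_and] at hw
          rw [fmat_off b hi.1 hi.2.1 hw.1 hw.2]
      · apply sum_congr rfl
        intro w _
        by_cases hw : w ≠ u ∧ w ≠ v ∧ x0.1 u w ≠ x0.1 v w
        · rw [fmat_off b hiu hiv hw.1 hw.2.1]
        · rw [fmat_ncol b hi hw]

open Classical in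
/-- the inverse map -/
noncomputable def fpsi (u v : V) (x0 : SG V d) (b : FJ u v x0 → Bool) : SG V d :=
  if h : Valid d (fmat u v x0 b) then mk _ h else x0

theorem fpsi_val {u v : V} (huv : u ≠ v) (x0 : SG V d) (b : FJ u v x0 → Bool)
    (hb : ones b = ones (fphi u v x0 x0)) : (fpsi u v x0 b).1 = fmat u v x0 b := by
  have : fpsi u v x0 b = mk _ (fmat_valid huv x0 b hb) := by
    unfold fpsi
    exact dif_pos _
  rw [this, mk_val]

theorem fpsi_off {u v : V} (huv : u ≠ v) (x0 : SG V d) (b : FJ u v x0 → Bool)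
    (hb : ones b = ones (fphi u v x0 x0)) : Off u v x0 (fpsi u v x0 b) := by
  intro s t h1 h2 h3 h4
  rw [fpsi_val huv x0 b hb, fmat_off b h1 h2 h3 h4]

theorem fphi_fpsi {u v : V} (huv : u ≠ v) (x0 : SG V d) (b : FJ u v x0 → Bool)
    (hb : ones b = ones (fphi u v x0 x0)) : fphi u v x0 (fpsi u v x0 b) = b := by
  funext w
  unfold fphi
  rw [fpsi_val huv x0 b hb, fmat_uw b w.2]
  rfl

/-- on a class, the exclusive columns are the same -/
theorem fexcl {u v : V} (huv : u ≠ v) {x0 y : SG V d} (h : Off u v x0 y) {w : V} (h1 : w ≠ u)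
    (h2 : w ≠ v) : (x0.1 u w ≠ x0.1 v w ↔ y.1 u w ≠ y.1 v w) := by
  have := off_col huv h h1 h2
  revert this
  cases x0.1 u w <;> cases x0.1 v w <;> cases y.1 u w <;> cases y.1 v w <;> simp

theorem fnonexcl {u v : V} (huv : u ≠ v) {x0 y : SG V d} (h : Off u v x0 y) {w : V} (h1 : w ≠ u)
    (h2 : w ≠ v) (h3 : x0.1 u w = x0.1 v w) : x0.1 u w = y.1 u w ∧ x0.1 v w = y.1 v w := by
  have := off_col huv h h1 h2
  revert this h3
  cases x0.1 u w <;> cases x0.1 v w <;> cases y.1 u w <;> cases y.1 v w <;> simp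

theorem fphi_ones {u v : V} (huv : u ≠ v) {x0 y : SG V d} (h : Off u v x0 y) :
    ones (fphi u v x0 y) = ones (fphi u v x0 x0) := by
  rw [ones_eq_sum, ones_eq_sum]
  have h1 := x0.deg u
  have h2 := y.deg u
  rw [fsplit u v x0] at h1 h2
  have h3 : ∑ w with ¬ (w ≠ u ∧ w ≠ v ∧ x0.1 u w ≠ x0.1 v w), (x0.1 u w).toNat =
      ∑ w with ¬ (w ≠ u ∧ w ≠ v ∧ x0.1 u w ≠ x0.1 v w), (y.1 u w).toNat := by
    apply sum_congr rfl
    intro w hw
    simp only [mem_filter, mem_univ, true_and] at hw
    by_cases hwu : w = u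
    · rw [hwu, x0.diag, y.diag]
    by_cases hwv : w = v
    · rw [hwv, off_uv huv h]
    · have h4 : x0.1 u w = x0.1 v w := by
        by_contra hc
        exact hw ⟨hwu, hwv, hc⟩
      rw [(fnonexcl huv h hwu hwv h4).1]
  unfold fphi
  omega

theorem fpsi_fphi {u v : V} (huv : u ≠ v) {x0 y : SG V d} (h : Off u v x0 y) :
    fpsi u v x0 (fphi u v x0 y) = y := by
  have hb := fphi_ones huv h
  apply ext'
  have key : ∀ s t, (s = u ∨ s = v) → (fpsi u v x0 (fphi u v x0 y)).1 s t = y.1 s t := by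
    intro s t hs
    rw [fpsi_val huv x0 _ hb]
    by_cases ht : t ≠ u ∧ t ≠ v ∧ x0.1 u t ≠ x0.1 v t
    · rcases hs with rfl | rfl
      · rw [fmat_uw _ ht]; rfl
      · rw [fmat_vw huv _ ht]
        have := (fexcl huv h ht.1 ht.2.1).1 ht.2.2
        show (!(y.1 u t)) = y.1 s t
        revert this
        cases y.1 u t <;> cases y.1 s t <;> simp
    · have hs' : ¬ (s ≠ u ∧ s ≠ v ∧ x0.1 u s ≠ x0.1 v s) := by
        rintro ⟨a1, a2, -⟩
        rcases hs with hs | hs
        · exact a1 hs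
        · exact a2 hs
      rw [fmat_ncol _ hs' ht]
      by_cases htu : t = u
      · subst htu
        rcases hs with rfl | rfl
        · rw [x0.diag, y.diag]
        · rw [x0.symm, y.symm, off_uv huv h]
      by_cases htv : t = v
      · subst htv
        rcases hs with rfl | rfl
        · exact off_uv huv h
        · rw [x0.diag, y.diag]
      have h4 : x0.1 u t = x0.1 v t := by
        by_contra hc
        exact ht ⟨htu, htv, hc⟩
      have h5 := fnonexcl huv h htu htv h4
      rcases hs with rfl | rfl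
      · exact h5.1
      · exact h5.2
  intro s t
  by_cases hs : s = u ∨ s = v
  · exact key s t hs
  by_cases ht : t = u ∨ t = v
  · rw [(fpsi u v x0 (fphi u v x0 y)).symm s t, y.symm s t]
    exact key t s ht
  push Not at hs ht
  rw [← fpsi_off huv x0 _ hb s t hs.1 hs.2 ht.1 ht.2, h s t hs.1 hs.2 ht.1 ht.2]

/-- transport of sums over a class to sums over the slice -/
theorem class_sum {u v : V} (huv : u ≠ v) (x0 : SG V d) (P : SG V d → Prop) [DecidablePred P]
    (P' : (FJ u v x0 → Bool) → Prop) [DecidablePred P'] (g : SG V d → ℝ) (G : (FJ u v x0 → Bool) → ℝ)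
    (hP : ∀ y, Off u v x0 y → (P y ↔ P' (fphi u v x0 y)))
    (hg : ∀ y, Off u v x0 y → P y → g y = G (fphi u v x0 y)) :
    ∑ y with (Off u v x0 y ∧ P y), g y =
      ∑ b with (ones b = ones (fphi u v x0 x0) ∧ P' b), G b := by
  apply sum_bij' (i := fun y _ => fphi u v x0 y) (j := fun b _ => fpsi u v x0 b)
  · intro y hy
    simp only [mem_filter, mem_univ, true_and] at hy ⊢
    exact ⟨fphi_ones huv hy.1, (hP y hy.1).1 hy.2⟩
  · intro b hb
    simp only [mem_filter, mem_univ, true_and] at hb ⊢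
    have h1 := fpsi_off huv x0 b hb.1
    refine ⟨h1, (hP _ h1).2 ?_⟩
    rw [fphi_fpsi huv x0 b hb.1]
    exact hb.2
  · intro y hy
    simp only [mem_filter, mem_univ, true_and] at hy
    exact fpsi_fphi huv hy.1
  · intro b hb
    simp only [mem_filter, mem_univ, true_and] at hb
    exact fphi_fpsi huv x0 b hb.1
  · intro y hy
    simp only [mem_filter, mem_univ, true_and] at hy
    exact hg y hy.1 hy.2


/-- the slice inequality, in the form used here -/
def SliceIneq : Prop := ∀ (J : Type) [Fintype J] [DecidableEq J] (a : ℕ) (F : (J → Bool) → ℝ),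
  (∑ x with ones x = a, F x = 0) →
  ∑ w, ∑ z, (∑ x with (ones x = a ∧ x w ≠ x z), F x) ^ 2 /
      ((univ.filter (fun x : J → Bool => ones x = a ∧ x w ≠ x z)).card : ℝ) ≤
    (1 / 4) * ∑ w, ∑ z, ∑ x with ones x = a, (F x - F (x ∘ Equiv.swap w z)) ^ 2

theorem sum_FJ {u v : V} {x0 : SG V d} (φ : V → ℝ)
    (h : ∀ w, ¬ (w ≠ u ∧ w ≠ v ∧ x0.1 u w ≠ x0.1 v w) → φ w = 0) :
    ∑ w, φ w = ∑ w : FJ u v x0, φ w.1 := by
  have h1 : ∑ w, φ w = ∑ w with (w ≠ u ∧ w ≠ v ∧ x0.1 u w ≠ x0.1 v w), φ w := by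
    rw [sum_filter]
    apply sum_congr rfl
    intro w _
    split_ifs with hw
    · rfl
    · exact h w hw
  rw [h1]
  apply sum_subtype
  intro x
  simp

theorem sum_FJ2 {u v : V} {x0 : SG V d} (φ : V → V → ℝ)
    (h : ∀ w z, ¬ ((w ≠ u ∧ w ≠ v ∧ x0.1 u w ≠ x0.1 v w) ∧
      (z ≠ u ∧ z ≠ v ∧ x0.1 u z ≠ x0.1 v z)) → φ w z = 0) :
    ∑ w, ∑ z, φ w z = ∑ w : FJ u v x0, ∑ z : FJ u v x0, φ w.1 z.1 := by
  rw [sum_FJ (u := u) (v := v) (x0 := x0) (fun w => ∑ z, φ w z)]
  · apply sum_congr rfl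
    intro w _
    exact sum_FJ _ (fun z hz => h _ _ (fun hh => hz hh.2))
  · intro w hw
    apply sum_eq_zero
    intro z _
    exact h _ _ (fun hh => hw hh.1)

theorem D_imp {u v w z : V} (hd : Dist u v w z) {x0 y : SG V d} (h : Off u v x0 y)
    (hD : D u v w z y) : (w ≠ u ∧ w ≠ v ∧ x0.1 u w ≠ x0.1 v w) ∧
      (z ≠ u ∧ z ≠ v ∧ x0.1 u z ≠ x0.1 v z) := by
  obtain ⟨h1, h2, h3, h4, h5, h6⟩ := hd
  obtain ⟨d1, d2, d3⟩ := hD
  refine ⟨⟨h3.symm, h5.symm, (fexcl h1 h h3.symm h5.symm).2 ?_⟩,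
    ⟨h4.symm, h6.symm, (fexcl h1 h h4.symm h6.symm).2 ?_⟩⟩
  · rw [d2]; cases y.1 u w <;> simp
  · rw [d1, d3]; cases y.1 u w <;> simp

theorem D_iff {u v : V} (huv : u ≠ v) {x0 y : SG V d} (h : Off u v x0 y) (w z : FJ u v x0) :
    D u v w.1 z.1 y ↔ fphi u v x0 y w ≠ fphi u v x0 y z := by
  have e1 := (fexcl huv h w.2.1 w.2.2.1).1 w.2.2.2
  have e2 := (fexcl huv h z.2.1 z.2.2.1).1 z.2.2.2
  unfold D fphi
  revert e1 e2
  cases y.1 u w.1 <;> cases y.1 v w.1 <;> cases y.1 u z.1 <;> cases y.1 v z.1 <;> simp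

theorem T_off {u v w z : V} (hd : Dist u v w z) (y : SG V d) : Off u v y (T u v w z y) := by
  intro s t h1 h2 h3 h4
  by_cases hD : D u v w z y
  · rw [T_val hd hD]
    unfold flip
    rw [if_neg]
    rintro (⟨hs, -⟩ | ⟨ht, -⟩)
    · rcases hs with hs | hs
      · exact h1 hs
      · exact h2 hs
    · rcases ht with ht | ht
      · exact h3 ht
      · exact h4 ht
  · rw [T_of_not hD]

theorem dist_of {u v : V} (huv : u ≠ v) {x0 : SG V d} {w z : FJ u v x0} (hwz : w ≠ z) :
    Dist u v w.1 z.1 :=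
  ⟨huv, fun h => hwz (Subtype.ext h), w.2.1.symm, z.2.1.symm, w.2.2.1.symm, z.2.2.1.symm⟩

theorem fphi_T {u v : V} (huv : u ≠ v) {x0 y : SG V d} (h : Off u v x0 y) {w z : FJ u v x0}
    (hwz : w ≠ z) : fphi u v x0 (T u v w.1 z.1 y) = fphi u v x0 y ∘ Equiv.swap w z := by
  have hd := dist_of huv hwz
  funext t
  by_cases hD : D u v w.1 z.1 y
  · have hD' := (D_iff huv h w z).1 hD
    have e : fphi u v x0 (T u v w.1 z.1 y) t = flip u v w.1 z.1 y.1 u t.1 := by
      unfold fphi; rw [T_val hd hD]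
    rw [e]
    show _ = fphi u v x0 y (Equiv.swap w z t)
    by_cases htw : t = w
    · subst htw
      rw [Equiv.swap_apply_left]
      unfold flip
      rw [if_pos (Or.inl ⟨Or.inl rfl, Or.inl rfl⟩)]
      revert hD'
      unfold fphi
      cases y.1 u t.1 <;> cases y.1 u z.1 <;> simp
    by_cases htz : t = z
    · subst htz
      rw [Equiv.swap_apply_right]
      unfold flip
      rw [if_pos (Or.inl ⟨Or.inl rfl, Or.inr rfl⟩)]
      revert hD'
      unfold fphi
      cases y.1 u w.1 <;> cases y.1 u t.1 <;> simp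
    · rw [Equiv.swap_apply_of_ne_of_ne htw htz]
      unfold flip
      rw [if_neg]
      · rfl
      · rintro (⟨-, ht⟩ | ⟨ht, -⟩)
        · rcases ht with ht | ht
          · exact htw (Subtype.ext ht)
          · exact htz (Subtype.ext ht)
        · rcases ht with ht | ht
          · exact t.2.1 ht
          · exact t.2.2.1 ht
  · rw [T_of_not hD]
    have hD' : fphi u v x0 y w = fphi u v x0 y z := by
      by_contra hc
      exact hD ((D_iff huv h w z).2 hc)
    show _ = fphi u v x0 y (Equiv.swap w z t)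
    by_cases htw : t = w
    · subst htw; rw [Equiv.swap_apply_left]; exact hD'
    by_cases htz : t = z
    · subst htz; rw [Equiv.swap_apply_right]; exact hD'.symm
    · rw [Equiv.swap_apply_of_ne_of_ne htw htz]

/-- the inequality on one class -/
theorem class_ineq (hS : SliceIneq) {u v : V} (huv : u ≠ v) (f : SG V d → ℝ) (x0 : SG V d) :
    ∑ w, ∑ z, (if Dist u v w z then (∑ y with (Off u v x0 y ∧ D u v w z y), Q u v f y) ^ 2 /
      ((univ.filter (fun y => Off u v x0 y ∧ D u v w z y)).card : ℝ) else 0) ≤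
    ∑ w, ∑ z, (if Dist u v w z then ∑ y with Off u v x0 y, ((f y - f (T u v w z y)) / 2) ^ 2
      else 0) := by
  set a := ones (fphi u v x0 x0) with ha
  set F : (FJ u v x0 → Bool) → ℝ := fun b => Q u v f (fpsi u v x0 b) with hF
  have hFphi : ∀ y, Off u v x0 y → F (fphi u v x0 y) = Q u v f y := by
    intro y hy
    rw [hF]
    show Q u v f (fpsi u v x0 (fphi u v x0 y)) = _
    rw [fpsi_fphi huv hy]
  have h0 : ∑ b with ones b = a, F b = 0 := by
    have h1 := class_sum huv x0 (fun _ => True) (fun _ => True) (Q u v f) F (fun y _ => Iff.rfl)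
      (fun y hy _ => (hFphi y hy).symm)
    simp only [and_true] at h1
    rw [← h1]
    have h2 : ∀ y, Off u v x0 y → Q u v f y = f y - avg (Off u v) f x0 := by
      intro y hy
      unfold Q
      rw [avg_inv (off_equiv u v) f hy]
    have h3 : ∑ y with Off u v x0 y, Q u v f y = ∑ y with Off u v x0 y, (f y - avg (Off u v) f x0) := by
      apply sum_congr rfl
      intro y hy
      simp only [mem_filter, mem_univ, true_and] at hy
      exact h2 y hy
    rw [h3, sum_sub_distrib, sum_const, nsmul_eq_mul]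
    unfold avg
    have := cls_card_pos (off_equiv (d := d) u v) x0
    field_simp
    ring
  have key := hS (FJ u v x0) a F h0
  rw [sum_FJ2 (u := u) (v := v) (x0 := x0), sum_FJ2 (u := u) (v := v) (x0 := x0)]
  · refine le_trans (le_of_eq ?_) (le_trans key (le_of_eq ?_))
    · apply sum_congr rfl
      intro w _
      apply sum_congr rfl
      intro z _
      by_cases hwz : w = z
      · subst hwz
        rw [if_neg (fun h : Dist u v w.1 w.1 => h.2.1 rfl)]
        simp
      · rw [if_pos (dist_of huv hwz)]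
        have e1 := class_sum huv x0 (D u v w.1 z.1) (fun b => b w ≠ b z) (Q u v f) F
          (fun y hy => D_iff huv hy w z) (fun y hy _ => (hFphi y hy).symm)
        have e2 := class_sum huv x0 (D u v w.1 z.1) (fun b => b w ≠ b z) (fun _ => 1) (fun _ => 1)
          (fun y hy => D_iff huv hy w z) (fun y hy _ => rfl)
        simp only [sum_const, nsmul_eq_mul, mul_one] at e2
        rw [e1, e2]
    · rw [mul_sum]
      apply sum_congr rfl
      intro w _
      rw [mul_sum]
      apply sum_congr rfl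
      intro z _
      by_cases hwz : w = z
      · subst hwz
        rw [if_neg (fun h : Dist u v w.1 w.1 => h.2.1 rfl)]
        simp
      · rw [if_pos (dist_of huv hwz), mul_sum]
        have e1 := class_sum huv x0 (fun _ => True) (fun _ => True)
          (fun y => ((f y - f (T u v w.1 z.1 y)) / 2) ^ 2)
          (fun b => 1 / 4 * (F b - F (b ∘ Equiv.swap w z)) ^ 2) (fun y _ => Iff.rfl) (by
            intro y hy _
            have hT := T_off (dist_of huv hwz) y
            have hyT := (off_equiv u v).trans hy hT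
            show ((f y - f (T u v w.1 z.1 y)) / 2) ^ 2 =
              1 / 4 * (F (fphi u v x0 y) - F (fphi u v x0 y ∘ Equiv.swap w z)) ^ 2
            rw [hFphi y hy, ← fphi_T huv hy hwz, hFphi _ hyT]
            unfold Q
            rw [avg_inv (off_equiv u v) f hT]
            ring)
        simp only [and_true] at e1
        rw [e1]
  · intro w z hwz
    split_ifs with hd
    · apply sum_eq_zero
      intro y hy
      simp only [mem_filter, mem_univ, true_and] at hy
      rw [T_of_not (fun hD => hwz (D_imp hd hy hD))]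
      simp
    · rfl
  · intro w z hwz
    split_ifs with hd
    · have : (univ.filter (fun y => Off u v x0 y ∧ D u v w z y)) = ∅ := by
        apply filter_false_of_mem
        rintro y - ⟨h1, h2⟩
        exact hwz (D_imp hd h1 h2)
      rw [this]
      simp
    · rfl

theorem sum_avg {Ω : Type} [Fintype Ω] {s : Ω → Ω → Prop} [DecidableRel s] (hs : Equivalence s)
    (h : Ω → ℝ) : ∑ x, avg s h x = ∑ x, h x := by
  have h1 := avg_sym hs h (fun _ => 1)
  have h2 : ∀ x, avg s (fun _ => (1 : ℝ)) x = 1 := fun x => avg_of_inv hs _ _ (fun _ _ => rfl)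
  simp only [h2, mul_one] at h1
  exact h1

theorem A_eq {u v : V} (w z : V) (f : SG V d → ℝ) :
    A u v w z f = ∑ x0, (((univ.filter (fun y => Off u v x0 y)).card : ℝ))⁻¹ *
      ((∑ y with (Off u v x0 y ∧ D u v w z y), Q u v f y) ^ 2 /
      ((univ.filter (fun y => Off u v x0 y ∧ D u v w z y)).card : ℝ)) := by
  unfold A
  rw [sum_filter, ← sum_avg (off_equiv u v)]
  apply sum_congr rfl
  intro x0 _
  unfold avg
  rw [div_eq_inv_mul]
  congr 1
  rw [← sum_filter, filter_filter]
  have h1 : ∀ x ∈ univ.filter (fun y => Off u v x0 y ∧ D u v w z y),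
      (mD u v w z (Q u v f) x) ^ 2 =
      ((∑ y with (Off u v x0 y ∧ D u v w z y), Q u v f y) /
      ((univ.filter (fun y => Off u v x0 y ∧ D u v w z y)).card : ℝ)) ^ 2 := by
    intro x hx
    simp only [mem_filter, mem_univ, true_and] at hx
    have h2 : (univ.filter (fun y => Off u v x y ∧ D u v w z y)) =
        univ.filter (fun y => Off u v x0 y ∧ D u v w z y) := by
      ext y
      simp only [mem_filter, mem_univ, true_and]
      constructor
      · rintro ⟨a1, a2⟩
        exact ⟨(off_equiv u v).trans hx.1 a1, a2⟩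
      · rintro ⟨a1, a2⟩
        exact ⟨(off_equiv u v).trans ((off_equiv u v).symm hx.1) a1, a2⟩
    unfold mD
    rw [h2]
  rw [sum_congr rfl h1, sum_const, nsmul_eq_mul]
  rcases eq_or_ne (((univ.filter (fun y => Off u v x0 y ∧ D u v w z y)).card : ℝ)) 0 with h3 | h3
  · rw [h3]; simp
  · field_simp

theorem N_eq {u v : V} (w z : V) (f : SG V d → ℝ) :
    N u v w z f = ∑ x0, (((univ.filter (fun y => Off u v x0 y)).card : ℝ))⁻¹ *
      ∑ y with Off u v x0 y, ((f y - f (T u v w z y)) / 2) ^ 2 := by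
  unfold N
  rw [← sum_avg (off_equiv u v)]
  apply sum_congr rfl
  intro x0 _
  unfold avg
  rw [div_eq_inv_mul]

theorem fibre_ineq_of (hS : SliceIneq) {u v : V} (huv : u ≠ v) (f : SG V d → ℝ) :
    ∑ w, ∑ z, (if Dist u v w z then A u v w z f else 0) ≤
      ∑ w, ∑ z, (if Dist u v w z then N u v w z f else 0) := by
  have e1 : ∑ w, ∑ z, (if Dist u v w z then A u v w z f else 0) =
      ∑ x0, (((univ.filter (fun y => Off u v x0 y)).card : ℝ))⁻¹ * ∑ w, ∑ z,
        (if Dist u v w z then (∑ y with (Off u v x0 y ∧ D u v w z y), Q u v f y) ^ 2 /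
      ((univ.filter (fun y => Off u v x0 y ∧ D u v w z y)).card : ℝ) else 0) := by
    have : ∀ w z, (if Dist u v w z then A u v w z f else 0) = ∑ x0,
        (((univ.filter (fun y => Off u v x0 y)).card : ℝ))⁻¹ * (if Dist u v w z then
        (∑ y with (Off u v x0 y ∧ D u v w z y), Q u v f y) ^ 2 /
      ((univ.filter (fun y => Off u v x0 y ∧ D u v w z y)).card : ℝ) else 0) := by
      intro w z
      split_ifs with hd
      · exact A_eq w z f
      · simp
    simp only [this]
    rw [sum_congr rfl (fun w _ => sum_comm), sum_comm]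
    apply sum_congr rfl
    intro x0 _
    rw [mul_sum]
    apply sum_congr rfl
    intro w _
    rw [mul_sum]
  have e2 : ∑ w, ∑ z, (if Dist u v w z then N u v w z f else 0) =
      ∑ x0, (((univ.filter (fun y => Off u v x0 y)).card : ℝ))⁻¹ * ∑ w, ∑ z,
        (if Dist u v w z then ∑ y with Off u v x0 y, ((f y - f (T u v w z y)) / 2) ^ 2
      else 0) := by
    have : ∀ w z, (if Dist u v w z then N u v w z f else 0) = ∑ x0,
        (((univ.filter (fun y => Off u v x0 y)).card : ℝ))⁻¹ * (if Dist u v w z then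
        ∑ y with Off u v x0 y, ((f y - f (T u v w z y)) / 2) ^ 2 else 0) := by
      intro w z
      split_ifs with hd
      · exact N_eq w z f
      · simp
    simp only [this]
    rw [sum_congr rfl (fun w _ => sum_comm), sum_comm]
    apply sum_congr rfl
    intro x0 _
    rw [mul_sum]
    apply sum_congr rfl
    intro w _
    rw [mul_sum]
  rw [e1, e2]
  apply sum_le_sum
  intro x0 _
  apply mul_le_mul_of_nonneg_left (class_ineq hS huv f x0)
  positivity

end Vale.Agent.Lib.P335.SG
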