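import Vale.Agent.Lib.P335.SG
import Vale.Agent.Lib.P335.Graph2

/-!
# P335 : from symmetric matrices to the switch chain on all simple graphs with given degrees
-/

set_option linter.unusedSectionVars false
set_option linter.unusedSimpArgs false
set_option linter.unusedVariables false

open Finset

namespace Vale.Agent.Lib.P335.SG

section fin
variable {n : ℕ}

open Classical in
/-- adjacency matrix -/
noncomputable def adjB (G : SimpleGraph (Fin n)) : Fin n → Fin n → Bool := fun i j => decide (G.Adj i j)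

theorem adjB_true (G : SimpleGraph (Fin n)) (i j : Fin n) : adjB G i j = true ↔ G.Adj i j := by
  unfold adjB; simp

theorem adjB_false (G : SimpleGraph (Fin n)) (i j : Fin n) : adjB G i j = false ↔ ¬ G.Adj i j := by
  unfold adjB; simp

theorem adjN_adjB (G : SimpleGraph (Fin n)) (i j : Fin n) : (adjB G i j).toNat = adjN G i j := by
  unfold adjN
  by_cases h : G.Adj i j
  · rw [if_pos h, (adjB_true G i j).mpr h]; rfl
  · rw [if_neg h, (adjB_false G i j).mpr h]; rfl

theorem adjB_valid (d : Fin n → ℕ) (G : Realiz d) : Valid d (adjB G.1) := by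
  refine ⟨?_, ?_, ?_⟩
  · intro i j
    by_cases h : G.1.Adj i j
    · rw [(adjB_true G.1 i j).mpr h, (adjB_true G.1 j i).mpr h.symm]
    · rw [(adjB_false G.1 i j).mpr h, (adjB_false G.1 j i).mpr (fun h' => h h'.symm)]
  · intro i
    rw [adjB_false]
    exact G.1.irrefl
  · intro i
    rw [← G.2 i, deg_sum]
    exact sum_congr rfl (fun j _ => adjN_adjB _ _ _)

/-- the adjacency matrix of a realization -/
noncomputable def toSG (d : Fin n → ℕ) (G : Realiz d) : SG (Fin n) d := mk (adjB G.1) (adjB_valid d G)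

theorem toSG_true (d : Fin n → ℕ) (G : Realiz d) (i j : Fin n) :
    (toSG d G).1 i j = true ↔ G.1.Adj i j := adjB_true G.1 i j

theorem toSG_false (d : Fin n → ℕ) (G : Realiz d) (i j : Fin n) :
    (toSG d G).1 i j = false ↔ ¬ G.1.Adj i j := adjB_false G.1 i j

/-- the graph of a symmetric matrix -/
def ofB (x : Fin n → Fin n → Bool) (hs : ∀ i j, x i j = x j i) (hd : ∀ i, x i i = false) :
    SimpleGraph (Fin n) where
  Adj i j := x i j = true
  symm := ⟨fun i j h => by rw [hs j i]; exact h⟩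
  loopless := ⟨fun i h => by rw [hd i] at h; exact absurd h (by simp)⟩

theorem toSG_bij (d : Fin n → ℕ) : Function.Bijective (toSG d) := by
  classical
  constructor
  · intro G H h
    apply Subtype.ext
    ext i j
    rw [← toSG_true d G, ← toSG_true d H, h]
  · intro x
    have hG : adjB (ofB x.1 x.2.1 x.2.2.1) = x.1 := by
      funext i j
      cases h : x.1 i j
      · rw [adjB_false]
        show ¬ (x.1 i j = true)
        rw [h]; simp
      · rw [adjB_true]
        exact h
    refine ⟨⟨ofB x.1 x.2.1 x.2.2.1, ?_⟩, ?_⟩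
    · intro i
      rw [deg_sum, ← x.2.2.2 i]
      apply sum_congr rfl
      intro j _
      rw [← adjN_adjB, hG]
    · apply ext'
      intro i j
      exact congrFun (congrFun hG i) j

theorem mem_pair2 (i w u v a b : Fin n) :
    s(i, w) ∈ ({s(u, a), s(v, b)} : Finset (Sym2 (Fin n))) ↔
      ((i = u ∧ w = a) ∨ (i = a ∧ w = u)) ∨ ((i = v ∧ w = b) ∨ (i = b ∧ w = v)) := by
  simp only [mem_insert, mem_singleton, Sym2.eq_iff]

theorem sw_propose (d : Fin n → ℕ) (G H : Realiz d) (u v a b : Fin n)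
    (h : Sw u v a b (toSG d G) (toSG d H)) :
    ∃ S F F', S.card = 4 ∧ IsPM S F ∧ IsPM S F' ∧ F ≠ F' ∧ H.1 = propose G.1 F F' := by
  classical
  obtain ⟨⟨huv, hab, hua, hub, hva, hvb⟩, h1, h2, h3, h4, h5⟩ := h
  have hF : IsPM ({u, a, v, b} : Finset (Fin n)) {s(u, a), s(v, b)} :=
    isPM_pair hua huv hub hva.symm hab hvb
  have hF' : IsPM ({u, a, v, b} : Finset (Fin n)) {s(u, b), s(v, a)} := by
    have : ({u, a, v, b} : Finset (Fin n)) = {u, b, v, a} := by
      ext t; simp only [mem_insert, mem_singleton]; tauto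
    rw [this]
    exact isPM_pair hub huv hua hvb.symm hab.symm hva
  refine ⟨_, _, _, ?_, hF, hF', ?_, ?_⟩
  · rw [card_insert_of_notMem, card_insert_of_notMem, card_insert_of_notMem, card_singleton]
    · simpa using hvb
    · simp only [mem_insert, mem_singleton, not_or]
      exact ⟨hva.symm, hab⟩
    · simp only [mem_insert, mem_singleton, not_or]
      exact ⟨hua, huv, hub⟩
  · intro hcon
    have : s(u, a) ∈ ({s(u, b), s(v, a)} : Finset (Sym2 (Fin n))) := by rw [← hcon]; simp
    simp only [mem_insert, mem_singleton, Sym2.eq_iff] at this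
    rcases this with (⟨_, h⟩ | ⟨h, _⟩) | (⟨h, _⟩ | ⟨h, _⟩)
    · exact hab h
    · exact hub h
    · exact huv h
    · exact hua h
  · obtain ⟨H', hH'⟩ := exists_propose d G hF hF'
    rw [← hH']
    have hc : (∀ e ∈ ({s(u, a), s(v, b)} : Finset (Sym2 (Fin n))), e ∈ G.1.edgeSet) ∧
        (∀ e ∈ ({s(u, b), s(v, a)} : Finset (Sym2 (Fin n))), e ∉ G.1.edgeSet) := by
      constructor
      · intro e he
        simp only [mem_insert, mem_singleton] at he
        rcases he with rfl | rfl
        · rw [SimpleGraph.mem_edgeSet, ← toSG_true d G]; exact h1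
        · rw [SimpleGraph.mem_edgeSet, ← toSG_true d G]; exact h2
      · intro e he
        simp only [mem_insert, mem_singleton] at he
        rcases he with rfl | rfl
        · rw [SimpleGraph.mem_edgeSet, ← toSG_false d G]; exact h3
        · rw [SimpleGraph.mem_edgeSet, ← toSG_false d G]; exact h4
    have hE := edgeSet_propose hF' G.1 hc
    rw [← hH'] at hE
    have h1' : (toSG d G).1 a u = true := by rw [(toSG d G).symm]; exact h1
    have h2' : (toSG d G).1 b v = true := by rw [(toSG d G).symm]; exact h2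
    have h3' : (toSG d G).1 b u = false := by rw [(toSG d G).symm]; exact h3
    have h4' : (toSG d G).1 a v = false := by rw [(toSG d G).symm]; exact h4
    ext i w
    rw [← SimpleGraph.mem_edgeSet (G := H'.1), hE, ← toSG_true d H, h5]
    simp only [Set.mem_union, Set.mem_sdiff, mem_coe, mem_pair2, SimpleGraph.mem_edgeSet,
      ← toSG_true d G]
    unfold flip
    by_cases hcase : ((i = u ∨ i = v) ∧ (w = a ∨ w = b)) ∨ ((w = u ∨ w = v) ∧ (i = a ∨ i = b))
    · rw [if_pos hcase]
      rcases hcase with ⟨rfl | rfl, rfl | rfl⟩ | ⟨rfl | rfl, rfl | rfl⟩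
      · simp [h1, huv, hab, hua, hub, hva, hvb]
      · simp [h3, huv, hab, hua, hub, hva, hvb, hab.symm]
      · simp [h4, huv, hab, hua, hub, hva, hvb, huv.symm]
      · simp [h2, huv, hab, hua, hub, hva, hvb, huv.symm, hab.symm]
      · simp [h1', huv, hab, hua, hub, hva, hvb, hua.symm, hva.symm]
      · simp [h3', huv, hab, hua, hub, hva, hvb, hub.symm, hvb.symm, hab.symm]
      · simp [h4', huv, hab, hua, hub, hva, hvb, hua.symm, hva.symm, huv.symm]
      · simp [h2', huv, hab, hua, hub, hva, hvb, hub.symm, hvb.symm, hab.symm, huv.symm]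
    · rw [if_neg hcase]
      have n1 : ¬ (((i = u ∧ w = a) ∨ (i = a ∧ w = u)) ∨ ((i = v ∧ w = b) ∨ (i = b ∧ w = v))) := by
        intro hh
        apply hcase
        rcases hh with (⟨p, q⟩ | ⟨p, q⟩) | (⟨p, q⟩ | ⟨p, q⟩)
        · exact Or.inl ⟨Or.inl p, Or.inl q⟩
        · exact Or.inr ⟨Or.inl q, Or.inl p⟩
        · exact Or.inl ⟨Or.inr p, Or.inr q⟩
        · exact Or.inr ⟨Or.inr q, Or.inr p⟩
      have n2 : ¬ (((i = u ∧ w = b) ∨ (i = b ∧ w = u)) ∨ ((i = v ∧ w = a) ∨ (i = a ∧ w = v))) := by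
        intro hh
        apply hcase
        rcases hh with (⟨p, q⟩ | ⟨p, q⟩) | (⟨p, q⟩ | ⟨p, q⟩)
        · exact Or.inl ⟨Or.inl p, Or.inr q⟩
        · exact Or.inr ⟨Or.inl q, Or.inr p⟩
        · exact Or.inl ⟨Or.inr p, Or.inl q⟩
        · exact Or.inr ⟨Or.inr q, Or.inl p⟩
      constructor
      · intro hx
        exact Or.inl ⟨hx, n1⟩
      · rintro (⟨hx, -⟩ | hx)
        · exact hx
        · exact absurd hx n2

end fin

/-! ### counting the labels of a switch -/

theorem quad_count {V : Type} [Fintype V] [DecidableEq V] {d : V → ℕ} (x y : SG V d) (k p : ℝ)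
    (hk : 0 ≤ k) (hp : 0 ≤ p) (hP : ∀ u v a b, Sw u v a b x y → 1 ≤ p) :
    ∑ u, ∑ v, ∑ a, ∑ b, (if Sw u v a b x y then k else 0) ≤ 8 * (p * k) := by
  classical
  have e1 : ∑ u, ∑ v, ∑ a, ∑ b, (if Sw u v a b x y then k else 0) =
      ∑ q : V × V × V × V, (if Sw q.1 q.2.1 q.2.2.1 q.2.2.2 x y then k else 0) := by
    simp only [Fintype.sum_prod_type]
  rw [e1, ← sum_filter, sum_const, nsmul_eq_mul]
  by_cases hex : ∃ u v a b, Sw u v a b x y
  · obtain ⟨u0, v0, a0, b0, h0⟩ := hex
    have hp1 := hP _ _ _ _ h0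
    have hsub : (univ.filter (fun q : V × V × V × V => Sw q.1 q.2.1 q.2.2.1 q.2.2.2 x y)) ⊆
        {(u0, v0, a0, b0), (u0, b0, a0, v0), (a0, v0, u0, b0), (a0, b0, u0, v0),
          (v0, u0, b0, a0), (v0, a0, b0, u0), (b0, u0, v0, a0), (b0, a0, v0, u0)} := by
      rintro ⟨u, v, a, b⟩ hq
      simp only [mem_filter, mem_univ, true_and] at hq
      obtain ⟨⟨huv, hab, hua, hub, hva, hvb⟩, h1, h2, h3, h4, h5⟩ := hq
      obtain ⟨⟨kuv, kab, kua, kub, kva, kvb⟩, k1, k2, k3, k4, k5⟩ := h0
      have k3' : x.1 b0 u0 = false := by rw [x.symm]; exact k3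
      have k4' : x.1 a0 v0 = false := by rw [x.symm]; exact k4
      have key : ∀ s t, x.1 s t = true → y.1 s t = false →
          ((s = u0 ∧ t = a0) ∨ (s = a0 ∧ t = u0)) ∨ ((s = v0 ∧ t = b0) ∨ (s = b0 ∧ t = v0)) := by
        intro s t hx hy
        rw [k5] at hy
        unfold flip at hy
        by_cases hc : ((s = u0 ∨ s = v0) ∧ (t = a0 ∨ t = b0)) ∨ ((t = u0 ∨ t = v0) ∧ (s = a0 ∨ s = b0))
        · rcases hc with ⟨rfl | rfl, rfl | rfl⟩ | ⟨rfl | rfl, rfl | rfl⟩
          · exact Or.inl (Or.inl ⟨rfl, rfl⟩)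
          · rw [k3] at hx; exact absurd hx (by simp)
          · rw [k4] at hx; exact absurd hx (by simp)
          · exact Or.inr (Or.inl ⟨rfl, rfl⟩)
          · exact Or.inl (Or.inr ⟨rfl, rfl⟩)
          · rw [k3'] at hx; exact absurd hx (by simp)
          · rw [k4'] at hx; exact absurd hx (by simp)
          · exact Or.inr (Or.inr ⟨rfl, rfl⟩)
        · rw [if_neg hc, hx] at hy
          exact absurd hy (by simp)
      have y1 : y.1 u a = false := by
        rw [h5]; unfold flip; rw [if_pos (Or.inl ⟨Or.inl rfl, Or.inl rfl⟩), h1]; rfl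
      have y2 : y.1 v b = false := by
        rw [h5]; unfold flip; rw [if_pos (Or.inl ⟨Or.inr rfl, Or.inr rfl⟩), h2]; rfl
      have q1 := key u a h1 y1
      have q2 := key v b h2 y2
      simp only [mem_insert, mem_singleton, Prod.mk.injEq]
      rcases q1 with (⟨rfl, rfl⟩ | ⟨rfl, rfl⟩) | (⟨rfl, rfl⟩ | ⟨rfl, rfl⟩) <;>
        rcases q2 with (⟨rfl, rfl⟩ | ⟨rfl, rfl⟩) | (⟨rfl, rfl⟩ | ⟨rfl, rfl⟩) <;>
        first
          | exact absurd rfl huv
          | exact absurd rfl hab
          | exact absurd rfl hua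
          | exact absurd rfl hub
          | exact absurd rfl hva
          | exact absurd rfl hvb
          | simp
    have hcard : (univ.filter (fun q : V × V × V × V => Sw q.1 q.2.1 q.2.2.1 q.2.2.2 x y)).card ≤ 8 := by
      refine (card_le_card hsub).trans ?_
      refine (card_insert_le _ _).trans (Nat.succ_le_succ ?_)
      refine (card_insert_le _ _).trans (Nat.succ_le_succ ?_)
      refine (card_insert_le _ _).trans (Nat.succ_le_succ ?_)
      refine (card_insert_le _ _).trans (Nat.succ_le_succ ?_)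
      exact card_le_four
    have h6 : ((univ.filter (fun q : V × V × V × V => Sw q.1 q.2.1 q.2.2.1 q.2.2.2 x y)).card : ℝ) ≤ 8 := by
      exact_mod_cast hcard
    have h7 : k ≤ p * k := by nlinarith
    nlinarith
  · have : (univ.filter (fun q : V × V × V × V => Sw q.1 q.2.1 q.2.2.1 q.2.2.2 x y)) = ∅ := by
      ext q
      simp only [mem_filter, mem_univ, true_and, notMem_empty, iff_false]
      exact fun h => hex ⟨_, _, _, _, h⟩
    rw [this]
    simp only [card_empty, Nat.cast_zero, zero_mul]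
    positivity

/-- a row is determined by the rest -/
theorem off_self_fin {V : Type} [Fintype V] [DecidableEq V] {d : V → ℕ} {u : V} {x y : SG V d}
    (h : Off u u x y) : x = y := by
  have hr : ∀ w, x.1 w u = y.1 w u := by
    intro w
    by_cases hw : w = u
    · subst hw; rw [x.diag, y.diag]
    have h1 := x.deg w
    have h2 := y.deg w
    rw [← add_sum_erase univ (fun s => (x.1 w s).toNat) (mem_univ u)] at h1
    rw [← add_sum_erase univ (fun s => (y.1 w s).toNat) (mem_univ u)] at h2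
    have h3 : ∑ s ∈ univ.erase u, (x.1 w s).toNat = ∑ s ∈ univ.erase u, (y.1 w s).toNat := by
      apply sum_congr rfl
      intro s hs
      rw [h w s hw hw (ne_of_mem_erase hs) (ne_of_mem_erase hs)]
    have h4 : (x.1 w u).toNat = (y.1 w u).toNat := by omega
    revert h4
    cases x.1 w u <;> cases y.1 w u <;> simp
  apply ext'
  intro a b
  by_cases ha : a = u
  · subst ha; rw [x.symm, y.symm]; exact hr b
  by_cases hb : b = u
  · subst hb; exact hr a
  exact h a b ha ha hb hb

theorem Q_self0 {V : Type} [Fintype V] [DecidableEq V] {d : V → ℕ} (u : V) (f : SG V d → ℝ)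
    (x : SG V d) : Q u u f x = 0 := by
  unfold Q
  rw [avg_of_inv (off_equiv u u) f x (fun y h => by rw [off_self_fin h])]
  ring

/-! ### Poincare inequality and mixing -/

/-- statement of `poincare` -/
def PoincSt : Prop := ∀ (V : Type) [Fintype V] [DecidableEq V] (d : V → ℕ) (f : SG V d → ℝ),
  ∑ x, f x = 0 → ∑ x, f x ^ 2 ≤ (1 / 2) * ∑ u, ∑ v, ∑ x, (Q u v f x) ^ 2

/-- statement of `uv_bound` -/
def UvSt : Prop := ∀ (V : Type) [Fintype V] [DecidableEq V] (d : V → ℕ) (u v : V) (_ : u ≠ v)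
  (f : SG V d → ℝ), ∑ x, (Q u v f x) ^ 2 ≤ (1 / 4) * ∑ a, ∑ b, ∑ x, ∑ y,
      (if Sw u v a b x y then (f x - f y) ^ 2 else 0)

theorem graph_poincare_of (hP : PoincSt) (hU : UvSt) {n : ℕ} (hn : 4 ≤ n) (d : Fin n → ℕ)
    (f : Realiz d → ℝ) (hf : ∑ G, f G = 0) :
    ∑ G, f G ^ 2 ≤ (24 * (n.choose 4 : ℝ)) * ∑ G, ∑ H, switchP d G H * (f G - f H) ^ 2 / 2 := by
  classical
  set e : Realiz d ≃ SG (Fin n) d := Equiv.ofBijective _ (toSG_bij d) with he
  have hC : (0 : ℝ) < n.choose 4 := by
    have := Nat.choose_pos hn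
    exact_mod_cast this
  set g : SG (Fin n) d → ℝ := fun x => f (e.symm x) with hg
  have h0 := hP (Fin n) d g (by rw [hg, Equiv.sum_comp e.symm f]; exact hf)
  have h00 : ∑ u, ∑ v, ∑ x, (Q u v g x) ^ 2 ≤ ∑ u, ∑ v, ((1 / 4) * ∑ a, ∑ b, ∑ x, ∑ y,
      (if Sw u v a b x y then (g x - g y) ^ 2 else 0)) := by
    apply sum_le_sum; intro u _
    apply sum_le_sum; intro v _
    by_cases huv : u = v
    · subst huv
      have : ∑ x, (Q u u g x) ^ 2 = 0 := by
        apply sum_eq_zero; intro x _; rw [Q_self0]; ring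
      rw [this]
      apply mul_nonneg (by norm_num)
      apply sum_nonneg; intro a _
      apply sum_nonneg; intro b _
      apply sum_nonneg; intro x _
      apply sum_nonneg; intro y _
      split_ifs
      · exact sq_nonneg _
      · exact le_refl _
    · exact hU (Fin n) d u v huv g
  simp only [← mul_sum] at h00
  have h1 : ∑ x, g x ^ 2 ≤ (1 / 8) * ∑ u, ∑ v, ∑ a, ∑ b, ∑ x, ∑ y,
      (if Sw u v a b x y then (g x - g y) ^ 2 else 0) := by linarith
  rw [hg, Equiv.sum_comp e.symm (fun G => f G ^ 2), sum6] at h1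
  have h2 : ∑ x, ∑ y, ∑ u, ∑ v, ∑ a, ∑ b,
      (if Sw u v a b x y then (f (e.symm x) - f (e.symm y)) ^ 2 else 0) =
      ∑ G, ∑ H, ∑ u, ∑ v, ∑ a, ∑ b,
      (if Sw u v a b (e G) (e H) then (f G - f H) ^ 2 else 0) := by
    rw [← Equiv.sum_comp e]
    apply sum_congr rfl; intro G _
    rw [← Equiv.sum_comp e]
    apply sum_congr rfl; intro H _
    simp only [Equiv.symm_apply_apply]
  rw [h2] at h1
  have h3 : ∑ G, ∑ H, ∑ u, ∑ v, ∑ a, ∑ b,
      (if Sw u v a b (e G) (e H) then (f G - f H) ^ 2 else 0) ≤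
      ∑ G, ∑ H, 8 * ((12 * (n.choose 4 : ℝ) * switchP d G H) * (f G - f H) ^ 2) := by
    apply sum_le_sum; intro G _
    apply sum_le_sum; intro H _
    apply quad_count _ _ _ _ (sq_nonneg _)
    · have := switchP_nonneg d G H
      positivity
    · intro u v a b hsw
      obtain ⟨S, F, F', hS, hF, hF', hne, hH⟩ := sw_propose d G H u v a b hsw
      have h5 := switchP_ge d G H hS hF hF' hne hH
      rw [div_le_iff₀ (by positivity)] at h5
      linarith
  have h4 : ∑ G, ∑ H, 8 * ((12 * (n.choose 4 : ℝ) * switchP d G H) * (f G - f H) ^ 2) =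
      8 * ((24 * (n.choose 4 : ℝ)) * ∑ G, ∑ H, switchP d G H * (f G - f H) ^ 2 / 2) := by
    simp only [mul_sum]
    apply sum_congr rfl; intro G _
    apply sum_congr rfl; intro H _
    ring
  rw [h4] at h3
  linarith

theorem mixed_all_of (hP : PoincSt) (hU : UvSt) {n : ℕ} (hn : 4 ≤ n) (d : Fin n → ℕ)
    (G₀ : Realiz d) : mixed d (n ^ 6) := by
  classical
  intro G
  have : Nonempty (Realiz d) := ⟨G₀⟩
  have hC : (0 : ℝ) < n.choose 4 := by
    have := Nat.choose_pos hn
    exact_mod_cast this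
  have hn' : (4 : ℝ) ≤ n := by exact_mod_cast hn
  have key := mixing (switchP d) (switchP_symm d) (switchP_row hn d) (switchP_nonneg d)
    (switchP_lazy d) (24 * (n.choose 4 : ℝ)) (by positivity)
    (fun f hf => graph_poincare_of hP hU hn d f hf) (n ^ 6) (by
      have hcard : (Fintype.card (Realiz d) : ℝ) ≤ 2 ^ (n ^ 2) := by
        exact_mod_cast card_realiz d
      have hpos : (0 : ℝ) < Fintype.card (Realiz d) := by
        exact_mod_cast Fintype.card_pos
      have h1 : Real.log (4 * Fintype.card (Realiz d)) ≤ ((n : ℝ) ^ 2 + 2) * Real.log 2 := by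
        have : (4 : ℝ) * Fintype.card (Realiz d) ≤ 2 ^ (n ^ 2 + 2) := by
          rw [pow_add]; linarith
        refine (Real.log_le_log (by positivity) this).trans (le_of_eq ?_)
        rw [Real.log_pow]
        push_cast
        ring
      have h2 : Real.log 2 ≤ 0.7 := by
        have := Real.log_two_lt_d9
        linarith
      have h3 : ((n : ℝ) ^ 2 + 2) * Real.log 2 ≤ ((n : ℝ) ^ 2 + 2) * 0.7 :=
        mul_le_mul_of_nonneg_left h2 (by positivity)
      have h24 : 24 * (n.choose 4 : ℝ) ≤ (n : ℝ) ^ 4 := by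
        have := choose_four n
        linarith
      have h4 : (24 * (n.choose 4 : ℝ)) * Real.log (4 * Fintype.card (Realiz d)) ≤
          ((n : ℝ) ^ 4) * (((n : ℝ) ^ 2 + 2) * 0.7) := by
        have hlog : 0 ≤ Real.log (4 * Fintype.card (Realiz d)) := by
          apply Real.log_nonneg
          have : (1 : ℝ) ≤ Fintype.card (Realiz d) := by
            exact_mod_cast Fintype.card_pos
          linarith
        exact mul_le_mul h24 (h1.trans h3) hlog (by positivity)
      refine h4.trans ?_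
      push_cast
      have h5 : ((n : ℝ) ^ 2 + 2) * 0.7 ≤ (n : ℝ) ^ 2 := by nlinarith
      calc (n : ℝ) ^ 4 * (((n : ℝ) ^ 2 + 2) * 0.7) ≤ (n : ℝ) ^ 4 * ((n : ℝ) ^ 2) :=
            mul_le_mul_of_nonneg_left h5 (by positivity)
        _ = (n : ℝ) ^ 6 := by ring) G
  exact key

end Vale.Agent.Lib.P335.SG
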