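import Vale.Agent.Lib.P335.SG

/-!
# P335 : assembly of the Poincare inequality for two-vertex resampling (conditional forms)

`disj_of` : the disjoint sum is nonnegative, from the pair inequality and the fibre inequality.
`combi2` : bookkeeping of the sum over two pairs. `poincare_of` : the Poincare inequality, from the
disjoint sum, the three vertex lemma and connectivity.
-/

set_option linter.unusedSectionVars false

open Finset

namespace Vale.Agent.Lib.P335.SG

theorem combi2 {R : Type} [Fintype R] [DecidableEq R] (B : R → R → R → R → ℝ)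
    (h1 : ∀ u v u' v', B u v u' v' = B v u u' v') (h2 : ∀ u v u' v', B u v u' v' = B u v v' u')
    (h3 : ∀ u v u' v', B u v u' v' = B u' v' u v) (h0 : ∀ u u' v', B u u u' v' = 0)
    (hd : 0 ≤ ∑ u, ∑ v, ∑ w, ∑ z, (if Dist u v w z then B u v w z else 0))
    (ht : ∀ u v w, u ≠ v → u ≠ w → v ≠ w → 0 ≤ B u v u w + B u v v w + B u w v w) :
    2 * ∑ u, ∑ v, B u v u v ≤ ∑ u, ∑ v, ∑ u', ∑ v', B u v u' v' := by
  have key := combi (fun u v u' v' => if Dist u v u' v' then 0 else B u v u' v')
    (by
      intro u v u' v'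
      have e : Dist u v u' v' ↔ Dist v u u' v' := by
        unfold Dist
        constructor
        · rintro ⟨a, b, c, d, e, f⟩
          exact ⟨a.symm, b, e, f, c, d⟩
        · rintro ⟨a, b, c, d, e, f⟩
          exact ⟨a.symm, b, e, f, c, d⟩
      by_cases h : Dist u v u' v'
      · rw [if_pos h, if_pos (e.mp h)]
      · rw [if_neg h, if_neg (fun h' => h (e.mpr h')), h1])
    (by
      intro u v u' v'
      have e : Dist u v u' v' ↔ Dist u v v' u' := by
        unfold Dist
        constructor
        · rintro ⟨a, b, c, d, e, f⟩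
          exact ⟨a, b.symm, d, c, f, e⟩
        · rintro ⟨a, b, c, d, e, f⟩
          exact ⟨a, b.symm, d, c, f, e⟩
      by_cases h : Dist u v u' v'
      · rw [if_pos h, if_pos (e.mp h)]
      · rw [if_neg h, if_neg (fun h' => h (e.mpr h')), h2])
    (by
      intro u v u' v'
      have e : Dist u v u' v' ↔ Dist u' v' u v := by
        unfold Dist
        constructor
        · rintro ⟨a, b, c, d, e, f⟩
          exact ⟨b, a, c.symm, e.symm, d.symm, f.symm⟩
        · rintro ⟨a, b, c, d, e, f⟩
          exact ⟨b, a, c.symm, e.symm, d.symm, f.symm⟩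
      by_cases h : Dist u v u' v'
      · rw [if_pos h, if_pos (e.mp h)]
      · rw [if_neg h, if_neg (fun h' => h (e.mpr h')), h3])
    (by
      intro u u' v'
      rw [if_neg (fun h => h.1 rfl), h0])
    (by
      intro u v u' v' a b c d
      by_cases h : Dist u v u' v'
      · rw [if_pos h]
      · rw [if_neg h]
        by_cases huv : u = v
        · rw [huv, h0]
        · have huv' : u' = v' := by
            by_contra hcon
            exact h ⟨huv, hcon, a, b, c, d⟩
          rw [h3, huv', h0])
    (by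
      intro u v w a b c
      rw [if_neg (fun h => h.2.2.1 rfl), if_neg (fun h => h.2.2.2.2.1 rfl),
        if_neg (fun h => h.2.2.2.2.2 rfl)]
      exact ht u v w a b c)
  have e1 : ∑ u, ∑ v, (if Dist u v u v then (0 : ℝ) else B u v u v) = ∑ u, ∑ v, B u v u v :=
    sum_congr rfl (fun u _ => sum_congr rfl (fun v _ => if_neg (fun h => h.2.2.1 rfl)))
  have e2 : ∑ u, ∑ v, ∑ u', ∑ v', (if Dist u v u' v' then (0 : ℝ) else B u v u' v') =
      ∑ u, ∑ v, ∑ u', ∑ v', B u v u' v' -
        ∑ u, ∑ v, ∑ w, ∑ z, (if Dist u v w z then B u v w z else 0) := by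
    simp only [← sum_sub_distrib]
    refine sum_congr rfl (fun u _ => sum_congr rfl (fun v _ => sum_congr rfl (fun u' _ =>
      sum_congr rfl (fun v' _ => ?_))))
    split_ifs <;> ring
  simp only [e1, e2] at key
  linarith

variable {V : Type} [Fintype V] [DecidableEq V] {d : V → ℕ}

/-- the disjoint sum is nonnegative -/
theorem disj_of (f : SG V d → ℝ)
    (hpair : ∀ u v w z : V, Dist u v w z →
      N u v w z f - (1 / 2) * A u v w z f - (1 / 2) * A w z u v f ≤ ∑ x, Q u v f x * Q w z f x)
    (hfib : ∀ u v : V, u ≠ v → ∑ w, ∑ z, (if Dist u v w z then A u v w z f else 0) ≤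
      ∑ w, ∑ z, (if Dist u v w z then N u v w z f else 0)) :
    0 ≤ ∑ u, ∑ v, ∑ w, ∑ z, (if Dist u v w z then ∑ x, Q u v f x * Q w z f x else 0) := by
  have s1 : ∑ u : V, ∑ v : V, ∑ w : V, ∑ z : V, (if Dist u v w z then A u v w z f else 0) ≤
      ∑ u : V, ∑ v : V, ∑ w : V, ∑ z : V, (if Dist u v w z then N u v w z f else 0) := by
    refine sum_le_sum (fun u _ => sum_le_sum (fun v _ => ?_))
    by_cases huv : u = v
    · have e : ∀ w z, ¬ Dist u v w z := fun w z h => h.1 huv
      simp [e]
    · exact hfib u v huv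
  have s2 : ∑ u : V, ∑ v : V, ∑ w : V, ∑ z : V, (if Dist u v w z then A w z u v f else 0) =
      ∑ u : V, ∑ v : V, ∑ w : V, ∑ z : V, (if Dist u v w z then A u v w z f else 0) := by
    have e : ∀ u v w z : V, Dist u v w z ↔ Dist w z u v := by
      intro u v w z
      unfold Dist
      constructor
      · rintro ⟨a, b, c, d, e, f⟩
        exact ⟨b, a, c.symm, e.symm, d.symm, f.symm⟩
      · rintro ⟨a, b, c, d, e, f⟩
        exact ⟨b, a, c.symm, e.symm, d.symm, f.symm⟩
    have e1 : ∀ u v w z : V, (if Dist u v w z then A w z u v f else 0) =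
        (if Dist w z u v then A w z u v f else 0) := by
      intro u v w z
      by_cases h : Dist u v w z
      · rw [if_pos h, if_pos ((e _ _ _ _).mp h)]
      · rw [if_neg h, if_neg (fun h' => h ((e _ _ _ _).mpr h'))]
    have e2 : ∑ u : V, ∑ v : V, ∑ w : V, ∑ z : V, (if Dist u v w z then A w z u v f else 0) =
        ∑ u : V, ∑ v : V, ∑ w : V, ∑ z : V, (if Dist w z u v then A w z u v f else 0) :=
      sum_congr rfl (fun u _ => sum_congr rfl (fun v _ => sum_congr rfl (fun w _ =>
        sum_congr rfl (fun z _ => e1 u v w z))))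
    rw [e2]
    -- reorder the sums
    have r1 : ∀ φ : V → V → V → V → ℝ, ∑ u, ∑ v, ∑ w, ∑ z, φ w z u v = ∑ u, ∑ v, ∑ w, ∑ z, φ u v w z := by
      intro φ
      have b1 : ∑ u, ∑ v, ∑ w, ∑ z, φ w z u v = ∑ p : V × V, ∑ q : V × V, φ q.1 q.2 p.1 p.2 := by
        rw [Fintype.sum_prod_type]
        refine sum_congr rfl (fun u _ => sum_congr rfl (fun v _ => ?_))
        rw [Fintype.sum_prod_type]
      have b2 : ∑ u, ∑ v, ∑ w, ∑ z, φ u v w z = ∑ p : V × V, ∑ q : V × V, φ p.1 p.2 q.1 q.2 := by
        rw [Fintype.sum_prod_type]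
        refine sum_congr rfl (fun u _ => sum_congr rfl (fun v _ => ?_))
        rw [Fintype.sum_prod_type]
      rw [b1, b2, sum_comm]
    exact r1 (fun u v w z => if Dist u v w z then A u v w z f else 0)
  have s3 : ∑ u : V, ∑ v : V, ∑ w : V, ∑ z : V, (if Dist u v w z then
        (N u v w z f - (1 / 2) * A u v w z f - (1 / 2) * A w z u v f) else 0) ≤
      ∑ u, ∑ v, ∑ w, ∑ z, (if Dist u v w z then ∑ x, Q u v f x * Q w z f x else 0) := by
    refine sum_le_sum (fun u _ => sum_le_sum (fun v _ => sum_le_sum (fun w _ =>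
      sum_le_sum (fun z _ => ?_))))
    by_cases h : Dist u v w z
    · rw [if_pos h, if_pos h]
      exact hpair u v w z h
    · rw [if_neg h, if_neg h]
  have s4 : ∑ u : V, ∑ v : V, ∑ w : V, ∑ z : V, (if Dist u v w z then
        (N u v w z f - (1 / 2) * A u v w z f - (1 / 2) * A w z u v f) else 0) =
      ∑ u : V, ∑ v : V, ∑ w : V, ∑ z : V, (if Dist u v w z then N u v w z f else 0) -
      (1 / 2) * (∑ u : V, ∑ v : V, ∑ w : V, ∑ z : V, (if Dist u v w z then A u v w z f else 0)) -
      (1 / 2) * (∑ u : V, ∑ v : V, ∑ w : V, ∑ z : V, (if Dist u v w z then A w z u v f else 0)) := by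
    simp only [mul_sum, ← sum_sub_distrib]
    refine sum_congr rfl (fun u _ => sum_congr rfl (fun v _ => sum_congr rfl (fun w _ =>
      sum_congr rfl (fun z _ => ?_))))
    split_ifs <;> ring
  rw [s4, s2] at s3
  linarith

theorem Q_comm (u v : V) (f : SG V d → ℝ) (x : SG V d) : Q u v f x = Q v u f x := by
  unfold Q avg
  have : (univ.filter (fun y => Off u v x y)) = univ.filter (fun y => Off v u x y) := by
    ext y
    simp only [mem_filter, mem_univ, true_and]
    exact ⟨off_comm, off_comm⟩
  rw [this]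

/-- the class of `Off u u` is a point -/
theorem off_self {u : V} {x y : SG V d} (h : Off u u x y) : x = y := by
  have col : ∀ w, w ≠ u → x.1 w u = y.1 w u := by
    intro w hw
    have h1 := x.deg w
    have h2 := y.deg w
    rw [← add_sum_erase univ (fun s => (x.1 w s).toNat) (mem_univ u)] at h1
    rw [← add_sum_erase univ (fun s => (y.1 w s).toNat) (mem_univ u)] at h2
    have h3 : ∑ s ∈ univ.erase u, (x.1 w s).toNat = ∑ s ∈ univ.erase u, (y.1 w s).toNat := by
      apply sum_congr rfl
      intro s hs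
      rw [h w s hw hw (ne_of_mem_erase hs) (ne_of_mem_erase hs)]
    have h4 : (x.1 w u).toNat = (y.1 w u).toNat := by omega
    revert h4
    cases x.1 w u <;> cases y.1 w u <;> simp
  apply ext'
  intro a b
  by_cases ha : a = u
  · by_cases hb : b = u
    · rw [ha, hb, x.diag, y.diag]
    · rw [ha, x.symm u b, y.symm u b]
      exact col b hb
  · by_cases hb : b = u
    · rw [hb]
      exact col a ha
    · exact h a b ha ha hb hb

theorem Q_self (u : V) (f : SG V d → ℝ) (x : SG V d) : Q u u f x = 0 := by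
  unfold Q
  rw [avg_of_inv (off_equiv u u) f x (fun y h => by rw [off_self h])]
  ring

/-- the linear map `Q_{uv}` -/
noncomputable def QL (u v : V) : (SG V d → ℝ) →ₗ[ℝ] (SG V d → ℝ) :=
  LinearMap.id - avgL (Off u v)

theorem QL_apply (u v : V) (f : SG V d → ℝ) (x : SG V d) : QL u v f x = Q u v f x := rfl

theorem QL_sym (u v : V) (f g : SG V d → ℝ) :
    ∑ x, QL u v f x * g x = ∑ x, f x * QL u v g x := by
  have h := avg_sym (off_equiv (d := d) u v) f g
  simp only [QL_apply, Q]
  have e1 : ∑ x, (f x - avg (Off u v) f x) * g x =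
      ∑ x, f x * g x - ∑ x, avg (Off u v) f x * g x := by
    rw [← sum_sub_distrib]; apply sum_congr rfl; intro x _; ring
  have e2 : ∑ x, f x * (g x - avg (Off u v) g x) =
      ∑ x, f x * g x - ∑ x, f x * avg (Off u v) g x := by
    rw [← sum_sub_distrib]; apply sum_congr rfl; intro x _; ring
  rw [e1, e2, h]

theorem Q_proj (u v : V) (f : SG V d → ℝ) : ∑ x, Q u v f x * f x = ∑ x, Q u v f x ^ 2 :=
  (avg_proj (off_equiv (d := d) u v) f).symm

/-- Poincare inequality for two-vertex resampling, from its three ingredients -/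
theorem poincare_of
    (hdisj : ∀ f : SG V d → ℝ,
      0 ≤ ∑ u, ∑ v, ∑ w, ∑ z, (if Dist u v w z then ∑ x, Q u v f x * Q w z f x else 0))
    (hthree : ∀ (f : SG V d → ℝ) (i j k : V), i ≠ j → i ≠ k → j ≠ k →
      0 ≤ ∑ x, (Q i j f x * Q i k f x + Q i j f x * Q j k f x + Q i k f x * Q j k f x))
    (hconn : ∀ f : SG V d → ℝ, (∀ u v x y, u ≠ v → Off u v x y → f x = f y) → ∀ x y, f x = f y)
    (f : SG V d → ℝ) (hf : ∑ x, f x = 0) :
    ∑ x, f x ^ 2 ≤ (1 / 2) * ∑ u, ∑ v, ∑ x, (Q u v f x) ^ 2 := by
  set A : (SG V d → ℝ) →ₗ[ℝ] (SG V d → ℝ) := ∑ u, ∑ v, QL u v with hA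
  have hAx : ∀ g x, A g x = ∑ u, ∑ v, Q u v g x := by
    intro g x
    simp only [hA, LinearMap.sum_apply, Finset.sum_apply, QL_apply]
  have hsym : ∀ g h, ∑ x, A g x * h x = ∑ x, g x * A h x := by
    intro g h
    simp only [hAx, sum_mul, mul_sum]
    rw [sum_comm]
    conv_rhs => rw [sum_comm]
    apply sum_congr rfl
    intro u _
    rw [sum_comm]
    conv_rhs => rw [sum_comm]
    apply sum_congr rfl
    intro v _
    exact QL_sym u v g h
  have hen : ∀ g, ∑ x, A g x * g x = ∑ u, ∑ v, ∑ x, (Q u v g x) ^ 2 := by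
    intro g
    simp only [hAx, sum_mul]
    rw [sum_comm]
    apply sum_congr rfl
    intro u _
    rw [sum_comm]
    apply sum_congr rfl
    intro v _
    exact Q_proj u v g
  have hpos : ∀ g, 0 ≤ ∑ x, A g x * g x := by
    intro g
    rw [hen]
    exact sum_nonneg (fun u _ => sum_nonneg (fun v _ => sum_nonneg (fun x _ => sq_nonneg _)))
  have hsq : ∀ g, 2 * ∑ x, A g x * g x ≤ ∑ x, (A g x) ^ 2 := by
    intro g
    have hc := combi2 (fun u v u' v' => ∑ x, Q u v g x * Q u' v' g x)
      (fun u v u' v' => sum_congr rfl (fun x _ => by rw [Q_comm u v]))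
      (fun u v u' v' => sum_congr rfl (fun x _ => by rw [Q_comm u' v']))
      (fun u v u' v' => sum_congr rfl (fun x _ => mul_comm _ _))
      (fun u u' v' => by simp [Q_self])
      (hdisj g)
      (fun u v w h1 h2 h3 => by
        have := hthree g u v w h1 h2 h3
        simp only [sum_add_distrib] at this
        exact this)
    have e1 : ∑ x, A g x * g x = ∑ u, ∑ v, ∑ x, Q u v g x * Q u v g x := by
      rw [hen]
      exact sum_congr rfl (fun u _ => sum_congr rfl (fun v _ => sum_congr rfl
        (fun x _ => by ring)))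
    have e2 : ∑ x, (A g x) ^ 2 = ∑ u, ∑ v, ∑ u', ∑ v', ∑ x, Q u v g x * Q u' v' g x := by
      have : ∀ x, (A g x) ^ 2 = ∑ u, ∑ v, ∑ u', ∑ v', Q u v g x * Q u' v' g x := by
        intro x
        rw [hAx, sq, sum_mul]
        apply sum_congr rfl
        intro u _
        rw [sum_mul]
        apply sum_congr rfl
        intro v _
        rw [mul_sum]
        apply sum_congr rfl
        intro u' _
        rw [mul_sum]
      rw [sum_congr rfl (fun x _ => this x), sum_comm]
      apply sum_congr rfl
      intro u _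
      rw [sum_comm]
      apply sum_congr rfl
      intro v _
      rw [sum_comm]
      apply sum_congr rfl
      intro u' _
      rw [sum_comm]
    rw [e1, e2]
    exact hc
  have hker : ∀ g, A g = 0 → ∑ x, f x * g x = 0 := by
    intro g hg
    have h0 : ∑ u, ∑ v, ∑ x, (Q u v g x) ^ 2 = 0 := by
      rw [← hen, hg]; simp
    have hq : ∀ u v x, Q u v g x = 0 := by
      intro u v x
      have h1 := (sum_eq_zero_iff_of_nonneg (fun u _ => sum_nonneg
        (fun v _ => sum_nonneg (fun x _ => sq_nonneg (Q u v g x))))).mp h0 u (mem_univ u)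
      have h2 := (sum_eq_zero_iff_of_nonneg
        (fun v _ => sum_nonneg (fun x _ => sq_nonneg (Q u v g x)))).mp h1 v (mem_univ v)
      have h3 := (sum_eq_zero_iff_of_nonneg
        (fun x _ => sq_nonneg (Q u v g x))).mp h2 x (mem_univ x)
      exact pow_eq_zero_iff (two_ne_zero) |>.mp h3
    have hc : ∀ x y, g x = g y := by
      apply hconn
      intro u v x y _ hxy
      have a1 : g x = avg (Off u v) g x := sub_eq_zero.mp (hq u v x)
      have a2 : g y = avg (Off u v) g y := sub_eq_zero.mp (hq u v y)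
      rw [a1, a2, avg_inv (off_equiv u v) g hxy]
    rcases isEmpty_or_nonempty (SG V d) with he | ⟨⟨x0⟩⟩
    · simp
    · have : ∑ x, f x * g x = (∑ x, f x) * g x0 := by
        rw [sum_mul]
        exact sum_congr rfl (fun x _ => by rw [hc x x0])
      rw [this, hf, zero_mul]
  have := spec_gap A hsym 2 (by norm_num) hpos hsq f hker
  rw [hen] at this
  linarith

end Vale.Agent.Lib.P335.SG
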