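import Vale.Agent.Lib.P335.Base

/-!
# P335 : couplings for three rows
-/

set_option linter.unusedSectionVars false

open Finset

namespace Vale.Agent.Lib.P335

/-- Biregular double counting: `T ⊆` target class, `A` the other class; every `y' ∈ T` has `cn`
neighbours, every `y ∈ A` has `m` neighbours. -/
theorem biregular {Ω ι : Type} [Fintype Ω] [DecidableEq Ω] (A T : Finset Ω) (hA : A.Nonempty)
    (C D : Ω → Finset ι) (H : Ω → ι → Ω) (cn m : ℕ)
    (hC : ∀ y ∈ T, (C y).card = cn) (hD : ∀ y ∈ A, (D y).card = m) (hpos : ∀ y ∈ T, (C y).Nonempty)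
    (h1 : ∀ y ∈ T, ∀ e ∈ C y, H y e ∈ A ∧ e ∈ D (H y e) ∧ H (H y e) e = y)
    (h2 : ∀ y ∈ A, ∀ e ∈ D y, H y e ∈ T ∧ e ∈ C (H y e) ∧ H (H y e) e = y)
    (h : Ω → ℝ) (B : ℝ) (hB : ∀ y ∈ T, ∀ e ∈ C y, |h y - h (H y e)| ≤ B) :
    |∑ y ∈ T, h y - (T.card : ℝ) * ((∑ y ∈ A, h y) / (A.card : ℝ))| ≤ (T.card : ℝ) * B := by
  rcases T.eq_empty_or_nonempty with hT | hT
  · subst hT; simp
  obtain ⟨y0, hy0⟩ := hT
  have hcn : 0 < cn := by rw [← hC y0 hy0]; exact card_pos.mpr (hpos y0 hy0)
  have hAc : (0 : ℝ) < (A.card : ℝ) := by exact_mod_cast card_pos.mpr hA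
  have key : ∀ g : Ω → ℝ, ∑ y ∈ T, ∑ e ∈ C y, g (H y e) = (m : ℝ) * ∑ y ∈ A, g y := by
    intro g
    have e1 : ∑ y ∈ T, ∑ e ∈ C y, g (H y e) = ∑ y ∈ A, ∑ e ∈ D y, g y := by
      rw [sum_sigma', sum_sigma']
      apply sum_bij' (i := fun p _ => (⟨H p.1 p.2, p.2⟩ : Σ _ : Ω, ι))
        (j := fun p _ => (⟨H p.1 p.2, p.2⟩ : Σ _ : Ω, ι))
      · rintro ⟨y, e⟩ hy
        simp only [mem_sigma] at hy ⊢
        exact ⟨(h1 y hy.1 e hy.2).1, (h1 y hy.1 e hy.2).2.1⟩
      · rintro ⟨y, e⟩ hy
        simp only [mem_sigma] at hy ⊢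
        exact ⟨(h2 y hy.1 e hy.2).1, (h2 y hy.1 e hy.2).2.1⟩
      · rintro ⟨y, e⟩ hy
        simp only [mem_sigma] at hy
        simp only [(h1 y hy.1 e hy.2).2.2]
      · rintro ⟨y, e⟩ hy
        simp only [mem_sigma] at hy
        simp only [(h2 y hy.1 e hy.2).2.2]
      · rintro ⟨y, e⟩ hy
        rfl
    rw [e1, mul_sum]
    apply sum_congr rfl
    intro y hy
    rw [sum_const, hD y hy, nsmul_eq_mul]
  have hcount : (T.card : ℝ) * cn = m * A.card := by
    have := key (fun _ => 1)
    simp only [sum_const, nsmul_eq_mul, mul_one] at this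
    rw [← this]
    rw [sum_congr rfl (fun y hy => by rw [hC y hy])]
    rw [sum_const, nsmul_eq_mul]
  have hcnR : (0 : ℝ) < cn := by exact_mod_cast hcn
  have e2 : (cn : ℝ) * (∑ y ∈ T, h y - (T.card : ℝ) * ((∑ y ∈ A, h y) / (A.card : ℝ))) =
      ∑ y ∈ T, ∑ e ∈ C y, (h y - h (H y e)) := by
    have e3 : ∑ y ∈ T, ∑ e ∈ C y, (h y - h (H y e)) = (cn : ℝ) * ∑ y ∈ T, h y - m * ∑ y ∈ A, h y := by
      rw [← key h, mul_sum, ← sum_sub_distrib]
      apply sum_congr rfl
      intro y hy
      rw [sum_sub_distrib, sum_const, hC y hy, nsmul_eq_mul]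
    rw [e3]
    have : (cn : ℝ) * ((T.card : ℝ) * ((∑ y ∈ A, h y) / (A.card : ℝ))) = m * ∑ y ∈ A, h y := by
      have : (cn : ℝ) * ((T.card : ℝ) * ((∑ y ∈ A, h y) / (A.card : ℝ))) =
          ((T.card : ℝ) * cn) * (∑ y ∈ A, h y) / (A.card : ℝ) := by ring
      rw [this, hcount]
      field_simp
    rw [mul_sub, this]
  have e4 : |∑ y ∈ T, ∑ e ∈ C y, (h y - h (H y e))| ≤ (T.card : ℝ) * (cn * B) := by
    refine (abs_sum_le_sum_abs _ _).trans ?_
    rw [← nsmul_eq_mul]
    apply sum_le_card_nsmul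
    intro y hy
    refine (abs_sum_le_sum_abs _ _).trans ?_
    rw [← hC y hy, ← nsmul_eq_mul]
    apply sum_le_card_nsmul
    intro e he
    exact hB y hy e he
  rw [← e2, abs_mul, abs_of_pos hcnR] at e4
  have e5 : (cn : ℝ) * |∑ y ∈ T, h y - (T.card : ℝ) * ((∑ y ∈ A, h y) / (A.card : ℝ))| ≤
      cn * ((T.card : ℝ) * B) := by
    refine e4.trans (le_of_eq ?_); ring
  exact le_of_mul_le_mul_left e5 hcnR

section three

variable {R W : Type} [Fintype R] [Fintype W] [DecidableEq R] [DecidableEq W]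
  {r : R → ℕ} {c : W → ℕ}

/-- `x` and `y` agree off the three rows -/
def Off3 (i j k : R) (x y : Mat R W r c) : Prop := ∀ t, t ≠ i → t ≠ j → t ≠ k → x.1 t = y.1 t

/-- number of ones of the column `w` in the three rows -/
def s3 (i j k : R) (x : Mat R W r c) (w : W) : ℕ :=
  (x.1 i w).toNat + (x.1 j w).toNat + (x.1 k w).toNat

theorem s3_eq {i j k : R} (hij : i ≠ j) (hik : i ≠ k) (hjk : j ≠ k) {x y : Mat R W r c}
    (h : Off3 i j k x y) (w : W) : s3 i j k x w = s3 i j k y w := by
  have h1 := colsum3 (x := x.1) (y := y.1) hij hik hjk w (fun t a b d => by rw [h t a b d])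
  have h2 := x.2.2 w
  have h3 := y.2.2 w
  unfold s3
  omega

/-- a move in row `i`: an exchange of `p` (present) and `q` (absent) -/
def Mv (i j k : R) (p q : W) (x y : Mat R W r c) : Prop :=
  Off3 i j k x y ∧ x.1 i p = true ∧ x.1 i q = false ∧ y.1 i = x.1 i ∘ Equiv.swap p q

/-- move with equal column sums -/
def MA (i j k : R) (x y : Mat R W r c) : Prop :=
  ∃ p q, Mv i j k p q x y ∧ s3 i j k x p = s3 i j k x q

/-- move with different column sums -/
def MB (i j k : R) (x y : Mat R W r c) : Prop :=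
  ∃ p q, Mv i j k p q x y ∧ s3 i j k x p ≠ s3 i j k x q

theorem off3_swap {i j k : R} {x y : Mat R W r c} (h : Off3 i j k x y) : Off3 i k j x y :=
  fun t a b d => h t a d b

theorem off3_rot {i j k : R} {x y : Mat R W r c} (h : Off3 i j k x y) : Off3 j k i x y :=
  fun t a b d => h t d a b

theorem off3_symm {i j k : R} {x y : Mat R W r c} (h : Off3 i j k x y) : Off3 i j k y x :=
  fun t a b d => (h t a b d).symm

theorem off3_trans {i j k : R} {x y z : Mat R W r c} (h : Off3 i j k x y) (h' : Off3 i j k y z) :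
    Off3 i j k x z :=
  fun t a b d => (h t a b d).trans (h' t a b d)

theorem s3_swap (i j k : R) (x : Mat R W r c) (w : W) : s3 i k j x w = s3 i j k x w := by
  unfold s3; ring

theorem mA_swap {i j k : R} {x y : Mat R W r c} (h : MA i j k x y) : MA i k j x y := by
  obtain ⟨p, q, ⟨h1, h2, h3, h4⟩, h5⟩ := h
  exact ⟨p, q, ⟨off3_swap h1, h2, h3, h4⟩, by rw [s3_swap i j k x p, s3_swap i j k x q]; exact h5⟩

theorem mB_swap {i j k : R} {x y : Mat R W r c} (h : MB i j k x y) : MB i k j x y := by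
  obtain ⟨p, q, ⟨h1, h2, h3, h4⟩, h5⟩ := h
  exact ⟨p, q, ⟨off3_swap h1, h2, h3, h4⟩, by rw [s3_swap i j k x p, s3_swap i j k x q]; exact h5⟩

theorem mv_symm {i j k : R} {p q : W} {x y : Mat R W r c} (h : Mv i j k p q x y) :
    Mv i j k q p y x := by
  obtain ⟨h1, h2, h3, h4⟩ := h
  refine ⟨off3_symm h1, ?_, ?_, ?_⟩
  · rw [h4]; simp [h2]
  · rw [h4]; simp [h3]
  · rw [h4]; funext w; simp [Equiv.swap_comm q p]

/-- general three-row permutation -/
def perm3 (i j k : R) (σ τ υ : Equiv.Perm W) (x : R → W → Bool) : R → W → Bool :=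
  fun t => if t = i then x t ∘ σ else if t = j then x t ∘ τ else if t = k then x t ∘ υ else x t

theorem valid_perm3 (x : Mat R W r c) {i j k : R} (hij : i ≠ j) (hik : i ≠ k) (hjk : j ≠ k)
    (σ τ υ : Equiv.Perm W)
    (h : ∀ w, (x.1 i (σ w)).toNat + (x.1 j (τ w)).toNat + (x.1 k (υ w)).toNat = s3 i j k x w) :
    Valid r c (perm3 i j k σ τ υ x.1) := by
  constructor
  · intro t
    unfold perm3
    split_ifs
    · rw [rowsum_comp]; exact x.2.1 t
    · rw [rowsum_comp]; exact x.2.1 t
    · rw [rowsum_comp]; exact x.2.1 t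
    · exact x.2.1 t
  · intro w
    have h1 := colsum3 (x := x.1) (y := perm3 i j k σ τ υ x.1) hij hik hjk w
      (fun t h1 h2 h3 => by simp [perm3, h1, h2, h3])
    have h2 : (perm3 i j k σ τ υ x.1 i w) = x.1 i (σ w) := by simp [perm3]
    have h3 : (perm3 i j k σ τ υ x.1 j w) = x.1 j (τ w) := by simp [perm3, hij.symm]
    have h4 : (perm3 i j k σ τ υ x.1 k w) = x.1 k (υ w) := by simp [perm3, hik.symm, hjk.symm]
    have h5 := x.2.2 w
    have h6 := h w
    unfold s3 at h6
    rw [h2, h3, h4] at h1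
    omega

/-- the three-row permutation as an operation on matrices -/
noncomputable def act (i j k : R) (σ τ υ : Equiv.Perm W) (x : Mat R W r c) : Mat R W r c :=
  upd x (perm3 i j k σ τ υ x.1)

theorem act_val (x : Mat R W r c) {i j k : R} (hij : i ≠ j) (hik : i ≠ k) (hjk : j ≠ k)
    (σ τ υ : Equiv.Perm W)
    (h : ∀ w, (x.1 i (σ w)).toNat + (x.1 j (τ w)).toNat + (x.1 k (υ w)).toNat = s3 i j k x w) :
    (act i j k σ τ υ x).1 = perm3 i j k σ τ υ x.1 :=
  upd_val (valid_perm3 x hij hik hjk σ τ υ h)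

theorem perm3_i (i j k : R) (σ τ υ : Equiv.Perm W) (x : R → W → Bool) :
    perm3 i j k σ τ υ x i = x i ∘ σ := by simp [perm3]

theorem perm3_j {i j : R} (hij : i ≠ j) (k : R) (σ τ υ : Equiv.Perm W) (x : R → W → Bool) :
    perm3 i j k σ τ υ x j = x j ∘ τ := by simp [perm3, hij.symm]

theorem perm3_k {i j k : R} (hik : i ≠ k) (hjk : j ≠ k) (σ τ υ : Equiv.Perm W)
    (x : R → W → Bool) : perm3 i j k σ τ υ x k = x k ∘ υ := by simp [perm3, hik.symm, hjk.symm]

theorem perm3_off {i j k t : R} (h1 : t ≠ i) (h2 : t ≠ j) (h3 : t ≠ k) (σ τ υ : Equiv.Perm W)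
    (x : R → W → Bool) : perm3 i j k σ τ υ x t = x t := by simp [perm3, h1, h2, h3]

theorem perm3_invol {i j k : R} (hij : i ≠ j) (hik : i ≠ k) (hjk : j ≠ k) (σ τ υ : Equiv.Perm W)
    (hσ : ∀ w, σ (σ w) = w) (hτ : ∀ w, τ (τ w) = w) (hυ : ∀ w, υ (υ w) = w)
    (x : R → W → Bool) : perm3 i j k σ τ υ (perm3 i j k σ τ υ x) = x := by
  funext t w
  by_cases h1 : t = i
  · subst h1; rw [perm3_i]; simp only [Function.comp, perm3_i, hσ]
  by_cases h2 : t = j
  · subst h2; rw [perm3_j hij]; simp only [Function.comp, perm3_j hij, hτ]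
  by_cases h3 : t = k
  · subst h3; rw [perm3_k hik hjk]; simp only [Function.comp, perm3_k hik hjk, hυ]
  rw [perm3_off h1 h2 h3, perm3_off h1 h2 h3]

theorem swap_invol (p q : W) (w : W) : Equiv.swap p q (Equiv.swap p q w) = w := by simp

theorem comp_swap_same {ρ : W → Bool} {p q : W} (h : ρ p = ρ q) : ρ ∘ Equiv.swap p q = ρ := by
  funext w
  by_cases hp : w = p
  · subst hp; simp [h]
  by_cases hq : w = q
  · subst hq; simp [h]
  simp [Equiv.swap_apply_of_ne_of_ne hp hq]

/-- the class of `x` when rows `j, k` are resampled -/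
def cls (j k : R) (x : Mat R W r c) : Finset (Mat R W r c) := univ.filter (fun y => Mat.Off2 j k x y)

theorem mem_cls {j k : R} {x y : Mat R W r c} : y ∈ cls j k x ↔ Mat.Off2 j k x y := by
  simp [cls]

theorem cls_nonempty (j k : R) (x : Mat R W r c) : (cls j k x).Nonempty :=
  ⟨x, mem_cls.mpr (fun _ _ _ => rfl)⟩

theorem avg_eq_cls (j k : R) (h : Mat R W r c → ℝ) (x : Mat R W r c) :
    avg (Mat.Off2 j k) h x = (∑ y ∈ cls j k x, h y) / ((cls j k x).card : ℝ) := rfl

theorem off3_of_cls {i j k : R} {x y : Mat R W r c} (h : Mat.Off2 j k x y) : Off3 i j k x y :=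
  fun t _ h2 h3 => h t h2 h3

/-- the change of `f` (depending on row `j` and the rows off `i,j,k` only) under an operation which
swaps `p, q` in row `j` -/
theorem diff_same {i j k : R} {f : Mat R W r c → ℝ}
    (hf : ∀ y y', Mat.Off2 i k y y' → f y = f y') {y z : Mat R W r c} (hoff : Off3 i j k y z)
    (hj : z.1 j = y.1 j) : f y = f z := by
  apply hf
  intro t h1 h2
  by_cases h3 : t = j
  · rw [h3, hj]
  · exact hoff t h1 h3 h2

theorem alpha_step {i j k : R} (hij : i ≠ j) (hik : i ≠ k) (hjk : j ≠ k) {x x' : Mat R W r c}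
    (hx : MA i j k x x') (f g : Mat R W r c → ℝ)
    (hf : ∀ y y', Mat.Off2 i k y y' → f y = f y') (hg : ∀ y y', Mat.Off2 i j y y' → g y = g y')
    (a : ℝ) (hfa : ∀ y y', MA j i k y y' → |f y - f y'| ≤ a)
    (hga : ∀ y y', MA k i j y y' → |g y - g y'| ≤ a) :
    |avg (Mat.Off2 j k) (fun y => f y + g y) x' - avg (Mat.Off2 j k) (fun y => f y + g y) x| ≤ a := by
  obtain ⟨p, q, ⟨hoff, hp, hq, hx'⟩, hs⟩ := hx
  have hpq : p ≠ q := by rintro rfl; rw [hp] at hq; exact absurd hq (by simp)
  have hx'p : x'.1 i p = false := by rw [hx']; simp [hq]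
  have hx'q : x'.1 i q = true := by rw [hx']; simp [hp]
  set σ := Equiv.swap p q with hσ
  have hσσ : ∀ w, σ (σ w) = w := swap_invol p q
  have hsσ : ∀ y : Mat R W r c, Off3 i j k x y → ∀ w, s3 i j k y (σ w) = s3 i j k y w := by
    intro y hy w
    have e : ∀ w, s3 i j k y w = s3 i j k x w := fun w => (s3_eq hij hik hjk hy w).symm
    rw [e, e]
    by_cases h1 : w = p
    · subst h1; simp [hσ, hs]
    by_cases h2 : w = q
    · subst h2; simp [hσ, hs]
    rw [hσ, Equiv.swap_apply_of_ne_of_ne h1 h2]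
  have hact : ∀ y : Mat R W r c, Off3 i j k x y →
      (act i j k σ σ σ y).1 = perm3 i j k σ σ σ y.1 :=
    fun y hy => act_val y hij hik hjk σ σ σ (fun w => hsσ y hy w)
  have hoffact : ∀ y : Mat R W r c, Off3 i j k x y → Off3 i j k x (act i j k σ σ σ y) := by
    intro y hy t h1 h2 h3
    rw [hact y hy, perm3_off h1 h2 h3]
    exact hy t h1 h2 h3
  have hact2 : ∀ y : Mat R W r c, Off3 i j k x y → act i j k σ σ σ (act i j k σ σ σ y) = y := by
    intro y hy
    apply Subtype.ext
    rw [hact _ (hoffact y hy), hact y hy, perm3_invol hij hik hjk σ σ σ hσσ hσσ hσσ]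
  have hmem : ∀ y : Mat R W r c, Mat.Off2 j k x' y → Mat.Off2 j k x (act i j k σ σ σ y) := by
    intro y hy t h1 h2
    have hy3 : Off3 i j k x y := off3_trans hoff (off3_of_cls hy)
    rw [hact y hy3]
    by_cases h3 : t = i
    · subst h3
      rw [perm3_i, ← hy t hij hik, hx']
      funext w
      simp [hσ]
    · rw [perm3_off h3 h1 h2]
      exact hy3 t h3 h1 h2
  have hmem' : ∀ y : Mat R W r c, Mat.Off2 j k x y → Mat.Off2 j k x' (act i j k σ σ σ y) := by
    intro y hy t h1 h2
    have hy3 : Off3 i j k x y := off3_of_cls hy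
    rw [hact y hy3]
    by_cases h3 : t = i
    · subst h3
      rw [perm3_i, ← hy t hij hik, hx']
    · rw [perm3_off h3 h1 h2, ← hoff t h3 h1 h2]
      exact hy t h1 h2
  have main := biregular (cls j k x) (cls j k x') (cls_nonempty j k x) (fun _ => {()})
    (fun _ => {()}) (fun y _ => act i j k σ σ σ y) 1 1 (by simp) (by simp) (by simp)
    (fun y hy e _ => by
      rw [mem_cls] at hy
      exact ⟨mem_cls.mpr (hmem y hy), by simp, hact2 y (off3_trans hoff (off3_of_cls hy))⟩)
    (fun y hy e _ => by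
      rw [mem_cls] at hy
      exact ⟨mem_cls.mpr (hmem' y hy), by simp, hact2 y (off3_of_cls hy)⟩)
    (fun y => f y + g y) a
    (fun y hy e _ => by
      rw [mem_cls] at hy
      have hy3 : Off3 i j k x y := off3_trans hoff (off3_of_cls hy)
      have hz := hact y hy3
      set z := act i j k σ σ σ y with hzdef
      have hyz : Off3 i j k y z := off3_trans (off3_symm hy3) (hoffact y hy3)
      have hzj : z.1 j = y.1 j ∘ σ := by rw [hz, perm3_j hij]
      have hzk : z.1 k = y.1 k ∘ σ := by rw [hz, perm3_k hik hjk]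
      have hip : y.1 i p = false := by rw [← hy i hij hik]; exact hx'p
      have hiq : y.1 i q = true := by rw [← hy i hij hik]; exact hx'q
      have hsum : s3 i j k y p = s3 i j k y q := by
        have e : ∀ w, s3 i j k y w = s3 i j k x w := fun w => (s3_eq hij hik hjk hy3 w).symm
        rw [e, e, hs]
      have hsum' := hsum
      unfold s3 at hsum
      rw [hip, hiq] at hsum
      have hyz' : Off3 i k j y z := off3_swap hyz
      -- case analysis on rows j and k
      cases hjp : y.1 j p <;> cases hjq : y.1 j q <;> cases hkp : y.1 k p <;>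
        cases hkq : y.1 k q <;> rw [hjp, hjq, hkp, hkq] at hsum <;> simp at hsum
      all_goals first
        | (have e1 : f y = f z := diff_same (i := i) (j := j) (k := k) hf hyz
              (by rw [hzj]; exact comp_swap_same (by rw [hjp, hjq]))
           have e2 : |g y - g z| ≤ a := hga y z ⟨p, q, ⟨off3_rot (off3_rot hyz), hkp, hkq, hzk⟩, by
              unfold s3 at hsum' ⊢; omega⟩
           rw [e1]; simpa using e2)
        | (have e1 : g y = g z := diff_same (i := i) (j := k) (k := j) hg hyz'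
              (by rw [hzk]; exact comp_swap_same (by rw [hkp, hkq]))
           have e2 : |f y - f z| ≤ a := hfa y z ⟨p, q, ⟨off3_swap (off3_rot hyz), hjp, hjq, hzj⟩, by
              unfold s3 at hsum' ⊢; omega⟩
           rw [e1]; simpa using e2))
  rw [avg_eq_cls, avg_eq_cls]
  have hpos : (0 : ℝ) < ((cls j k x').card : ℝ) := by
    exact_mod_cast card_pos.mpr (cls_nonempty j k x')
  have e : (∑ y ∈ cls j k x', (f y + g y)) / ((cls j k x').card : ℝ)
      - (∑ y ∈ cls j k x, (f y + g y)) / ((cls j k x).card : ℝ)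
      = (∑ y ∈ cls j k x', (f y + g y) - ((cls j k x').card : ℝ) *
        ((∑ y ∈ cls j k x, (f y + g y)) / ((cls j k x).card : ℝ))) / ((cls j k x').card : ℝ) := by
    field_simp
  rw [e, abs_div, abs_of_pos hpos, div_le_iff₀ hpos, mul_comm a]
  exact main

theorem bool_one {u v w : Bool} (hu : u = true) (h : 1 = u.toNat + v.toNat + w.toNat) :
    v = false ∧ w = false := by
  subst hu; revert h; cases v <;> cases w <;> simp

theorem bool_two {u v w : Bool} (hu : u = false) (h : 2 = u.toNat + v.toNat + w.toNat) :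
    v = true ∧ w = true := by
  subst hu; revert h; cases v <;> cases w <;> simp

/-- type 1 of the beta coupling -/
theorem beta_type1 {i j k : R} (hij : i ≠ j) (hik : i ≠ k) (hjk : j ≠ k) {x x' : Mat R W r c}
    {p q : W} (hx : Mv i j k p q x x') (hsp : s3 i j k x p = 1) (hsq : s3 i j k x q = 2)
    (f g : Mat R W r c → ℝ)
    (hg : ∀ y y', Mat.Off2 i j y y' → g y = g y')
    (a b : ℝ) (ha : 0 ≤ a) (hfb : ∀ y y', MB j i k y y' → |f y - f y'| ≤ b) :
    |∑ y ∈ (cls j k x').filter (fun y => y.1 j p = true ∧ y.1 j q = false), (f y + g y) -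
      (((cls j k x').filter (fun y => y.1 j p = true ∧ y.1 j q = false)).card : ℝ) *
        ((∑ y ∈ cls j k x, (f y + g y)) / ((cls j k x).card : ℝ))| ≤
      (((cls j k x').filter (fun y => y.1 j p = true ∧ y.1 j q = false)).card : ℝ) * (a + b) := by
  obtain ⟨hoff, hp, hq, hx'⟩ := hx
  have hpq : p ≠ q := by rintro rfl; rw [hp] at hq; exact absurd hq (by simp)
  have hx'p : x'.1 i p = false := by rw [hx']; simp [hq]
  have hx'q : x'.1 i q = true := by rw [hx']; simp [hp]
  set σ := Equiv.swap p q with hσ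
  have hσσ : ∀ w, σ (σ w) = w := swap_invol p q
  have h11 : ∀ w : W, (1 : Equiv.Perm W) ((1 : Equiv.Perm W) w) = w := fun w => rfl
  -- validity
  have hval : ∀ y : Mat R W r c, y.1 i p = y.1 j q → y.1 i q = y.1 j p →
      (act i j k σ σ 1 y).1 = perm3 i j k σ σ 1 y.1 := by
    intro y h1 h2
    apply act_val y hij hik hjk
    intro w
    unfold s3
    by_cases hwp : w = p
    · subst hwp; simp only [hσ, Equiv.swap_apply_left, Equiv.Perm.one_apply]; rw [h1, h2]; omega
    by_cases hwq : w = q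
    · subst hwq; simp only [hσ, Equiv.swap_apply_right, Equiv.Perm.one_apply]; rw [h1, h2]; omega
    rw [hσ, Equiv.swap_apply_of_ne_of_ne hwp hwq]; rfl
  -- entries
  have hT : ∀ y ∈ (cls j k x').filter (fun y => y.1 j p = true ∧ y.1 j q = false),
      y.1 i p = false ∧ y.1 i q = true ∧ y.1 j p = true ∧ y.1 j q = false ∧
        Off3 i j k x y ∧ Mat.Off2 j k x' y := by
    intro y hy
    rw [mem_filter, mem_cls] at hy
    exact ⟨by rw [← hy.1 i hij hik]; exact hx'p, by rw [← hy.1 i hij hik]; exact hx'q, hy.2.1,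
      hy.2.2, off3_trans hoff (off3_of_cls hy.1), hy.1⟩
  have hA : ∀ y ∈ cls j k x, y.1 i p = true ∧ y.1 i q = false ∧ y.1 j p = false ∧
      y.1 j q = true ∧ Off3 i j k x y ∧ Mat.Off2 j k x y := by
    intro y hy
    rw [mem_cls] at hy
    have hy3 : Off3 i j k x y := off3_of_cls hy
    have h1 : y.1 i p = true := by rw [← hy i hij hik]; exact hp
    have h2 : y.1 i q = false := by rw [← hy i hij hik]; exact hq
    have h3 := s3_eq hij hik hjk hy3 p
    have h4 := s3_eq hij hik hjk hy3 q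
    rw [hsp] at h3
    rw [hsq] at h4
    unfold s3 at h3 h4
    exact ⟨h1, h2, (bool_one h1 h3).1, (bool_two h2 h4).1, hy3, hy⟩
  apply biregular (cls j k x) _ (cls_nonempty j k x) (fun _ => {()})
    (fun _ => {()}) (fun y _ => act i j k σ σ 1 y) 1 1 (by simp) (by simp) (by simp)
  · intro y hy e _
    obtain ⟨h1, h2, h3, h4, h5, h6⟩ := hT y hy
    have hv := hval y (by rw [h1, h4]) (by rw [h2, h3])
    have hz3 : Off3 i j k x (act i j k σ σ 1 y) := by
      intro t a1 a2 a3
      rw [hv, perm3_off a1 a2 a3]; exact h5 t a1 a2 a3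
    refine ⟨mem_cls.mpr ?_, by simp, ?_⟩
    · intro t a1 a2
      by_cases a3 : t = i
      · subst a3
        rw [hv, perm3_i, ← h6 t hij hik, hx']
        funext w; simp [hσ]
      · exact hz3 t a3 a1 a2
    · apply Subtype.ext
      rw [hval _ (by rw [hv, perm3_i, perm3_j hij]; simp [hσ, h2, h3])
        (by rw [hv, perm3_i, perm3_j hij]; simp [hσ, h1, h4]), hv,
        perm3_invol hij hik hjk σ σ 1 hσσ hσσ h11]
  · intro y hy e _
    obtain ⟨h1, h2, h3, h4, h5, h6⟩ := hA y hy
    have hv := hval y (by rw [h1, h4]) (by rw [h2, h3])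
    refine ⟨?_, by simp, ?_⟩
    · rw [mem_filter, mem_cls]
      refine ⟨?_, ?_, ?_⟩
      · intro t a1 a2
        rw [hv]
        by_cases a3 : t = i
        · subst a3
          rw [perm3_i, ← h6 t hij hik, hx']
        · rw [perm3_off a3 a1 a2, ← hoff t a3 a1 a2]
          exact h6 t a1 a2
      · rw [hv, perm3_j hij]; simp [hσ, h4]
      · rw [hv, perm3_j hij]; simp [hσ, h3]
    · apply Subtype.ext
      rw [hval _ (by rw [hv, perm3_i, perm3_j hij]; simp [hσ, h2, h3])
        (by rw [hv, perm3_i, perm3_j hij]; simp [hσ, h1, h4]), hv,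
        perm3_invol hij hik hjk σ σ 1 hσσ hσσ h11]
  · intro y hy e _
    obtain ⟨h1, h2, h3, h4, h5, h6⟩ := hT y hy
    have hv := hval y (by rw [h1, h4]) (by rw [h2, h3])
    set z := act i j k σ σ 1 y with hz
    have hyz : Off3 i j k y z := by
      intro t a1 a2 a3
      rw [hv, perm3_off a1 a2 a3]
    have e1 : g y = g z := by
      apply hg
      intro t a1 a2
      by_cases a3 : t = k
      · subst a3; rw [hv, perm3_k hik hjk]; rfl
      · exact hyz t a1 a2 a3
    have e2 : |f y - f z| ≤ b := hfb y z ⟨p, q, ⟨off3_swap (off3_rot hyz), h3, h4, by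
      rw [hv, perm3_j hij]⟩, by
      have h7 := s3_eq hij hik hjk h5 p
      have h8 := s3_eq hij hik hjk h5 q
      rw [hsp] at h7
      rw [hsq] at h8
      unfold s3 at h7 h8 ⊢
      omega⟩
    have e3 : f y + g y - (f z + g z) = f y - f z := by rw [e1]; ring
    rw [e3]; linarith

theorem card_row (y : Mat R W r c) (k : R) :
    (univ.filter (fun e => y.1 k e = true)).card = r k := by
  rw [← y.2.1 k, card_filter]
  apply sum_congr rfl
  intro e _
  cases y.1 k e <;> simp

/-- the number of columns in row `k` and not in row `j` -/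
theorem card_diff_row (i j k : R) (y : Mat R W r c) :
    (univ.filter (fun e => y.1 k e = true ∧ y.1 j e = false)).card =
      r k - (univ.filter (fun e => s3 i j k y e = (y.1 i e).toNat + 2)).card := by
  have h1 : (univ.filter (fun e => y.1 k e = true ∧ y.1 j e = false)).card +
      (univ.filter (fun e => s3 i j k y e = (y.1 i e).toNat + 2)).card = r k := by
    rw [← card_row y k, ← card_union_of_disjoint]
    · congr 1
      ext e
      simp only [mem_union, mem_filter, mem_univ, true_and]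
      unfold s3
      cases y.1 i e <;> cases y.1 j e <;> cases y.1 k e <;> simp
    · rw [disjoint_filter]
      intro e _ h
      unfold s3
      rw [h.1, h.2]
      cases y.1 i e <;> simp
  omega

/-- type 3 of the beta coupling -/
theorem beta_type3 {i j k : R} (hij : i ≠ j) (hik : i ≠ k) (hjk : j ≠ k) {x x' : Mat R W r c}
    {p q : W} (hx : Mv i j k p q x x') (hsp : s3 i j k x p = 1) (hsq : s3 i j k x q = 2)
    (f g : Mat R W r c → ℝ)
    (a b : ℝ) (hfa : ∀ y y', MA j i k y y' → |f y - f y'| ≤ a)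
    (hga : ∀ y y', MA k i j y y' → |g y - g y'| ≤ a)
    (hfb : ∀ y y', MB j i k y y' → |f y - f y'| ≤ b)
    (hgb : ∀ y y', MB k i j y y' → |g y - g y'| ≤ b) :
    |∑ y ∈ (cls j k x').filter (fun y => y.1 j p = true ∧ y.1 j q = true), (f y + g y) -
      (((cls j k x').filter (fun y => y.1 j p = true ∧ y.1 j q = true)).card : ℝ) *
        ((∑ y ∈ cls j k x, (f y + g y)) / ((cls j k x).card : ℝ))| ≤
      (((cls j k x').filter (fun y => y.1 j p = true ∧ y.1 j q = true)).card : ℝ) * (a + b) := by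
  obtain ⟨hoff, hp, hq, hx'⟩ := hx
  have hpq : p ≠ q := by rintro rfl; rw [hp] at hq; exact absurd hq (by simp)
  have hx'p : x'.1 i p = false := by rw [hx']; simp [hq]
  have hx'q : x'.1 i q = true := by rw [hx']; simp [hp]
  set H : Mat R W r c → W → Mat R W r c := fun y e =>
    act i j k (Equiv.swap p q) (Equiv.swap p e) (Equiv.swap q e) y with hH
  -- validity
  have hval : ∀ (y : Mat R W r c) (e : W), e ≠ p → e ≠ q →
      (y.1 i q).toNat + (y.1 j e).toNat = (y.1 i p).toNat + (y.1 j p).toNat →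
      (y.1 i p).toNat + (y.1 k e).toNat = (y.1 i q).toNat + (y.1 k q).toNat →
      (y.1 j p).toNat + (y.1 k q).toNat = (y.1 j e).toNat + (y.1 k e).toNat →
      (H y e).1 = perm3 i j k (Equiv.swap p q) (Equiv.swap p e) (Equiv.swap q e) y.1 := by
    intro y e hep heq h1 h2 h3
    apply act_val y hij hik hjk
    intro w
    unfold s3
    by_cases hwp : w = p
    · subst hwp
      rw [Equiv.swap_apply_left, Equiv.swap_apply_left, Equiv.swap_apply_of_ne_of_ne hpq hep.symm]
      omega
    by_cases hwq : w = q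
    · subst hwq
      rw [Equiv.swap_apply_right, Equiv.swap_apply_left,
        Equiv.swap_apply_of_ne_of_ne hpq.symm heq.symm]
      omega
    by_cases hwe : w = e
    · subst hwe
      rw [Equiv.swap_apply_right, Equiv.swap_apply_right, Equiv.swap_apply_of_ne_of_ne hep heq]
      omega
    rw [Equiv.swap_apply_of_ne_of_ne hwp hwq, Equiv.swap_apply_of_ne_of_ne hwp hwe,
      Equiv.swap_apply_of_ne_of_ne hwq hwe]
  have hT : ∀ y ∈ (cls j k x').filter (fun y => y.1 j p = true ∧ y.1 j q = true),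
      y.1 i p = false ∧ y.1 i q = true ∧ y.1 j p = true ∧ y.1 j q = true ∧
        y.1 k p = false ∧ y.1 k q = false ∧ Off3 i j k x y ∧ Mat.Off2 j k x' y := by
    intro y hy
    rw [mem_filter, mem_cls] at hy
    have hy3 : Off3 i j k x y := off3_trans hoff (off3_of_cls hy.1)
    have h1 : y.1 i p = false := by rw [← hy.1 i hij hik]; exact hx'p
    have h2 : y.1 i q = true := by rw [← hy.1 i hij hik]; exact hx'q
    have h3 := s3_eq hij hik hjk hy3 p
    have h4 := s3_eq hij hik hjk hy3 q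
    rw [hsp] at h3
    rw [hsq] at h4
    unfold s3 at h3 h4
    rw [h1, hy.2.1] at h3
    rw [h2, hy.2.2] at h4
    refine ⟨h1, h2, hy.2.1, hy.2.2, ?_, ?_, hy3, hy.1⟩
    · cases h : y.1 k p
      · rfl
      · rw [h] at h3; simp at h3
    · cases h : y.1 k q
      · rfl
      · rw [h] at h4; simp at h4
  have hA : ∀ y ∈ cls j k x, y.1 i p = true ∧ y.1 i q = false ∧ y.1 j p = false ∧
      y.1 j q = true ∧ y.1 k p = false ∧ y.1 k q = true ∧ Off3 i j k x y ∧ Mat.Off2 j k x y := by
    intro y hy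
    rw [mem_cls] at hy
    have hy3 : Off3 i j k x y := off3_of_cls hy
    have h1 : y.1 i p = true := by rw [← hy i hij hik]; exact hp
    have h2 : y.1 i q = false := by rw [← hy i hij hik]; exact hq
    have h3 := s3_eq hij hik hjk hy3 p
    have h4 := s3_eq hij hik hjk hy3 q
    rw [hsp] at h3
    rw [hsq] at h4
    unfold s3 at h3 h4
    exact ⟨h1, h2, (bool_one h1 h3).1, (bool_two h2 h4).1, (bool_one h1 h3).2, (bool_two h2 h4).2,
      hy3, hy⟩
  have hvalT : ∀ y ∈ (cls j k x').filter (fun y => y.1 j p = true ∧ y.1 j q = true), ∀ e,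
      y.1 k e = true → y.1 j e = false → e ≠ p ∧ e ≠ q ∧
      (H y e).1 = perm3 i j k (Equiv.swap p q) (Equiv.swap p e) (Equiv.swap q e) y.1 := by
    intro y hy e he1 he2
    obtain ⟨h1, h2, h3, h4, h5, h6, h7, h8⟩ := hT y hy
    have hep : e ≠ p := by rintro rfl; rw [h5] at he1; exact absurd he1 (by simp)
    have heq : e ≠ q := by rintro rfl; rw [h6] at he1; exact absurd he1 (by simp)
    exact ⟨hep, heq, hval y e hep heq (by rw [h1, h2, h3, he2]; rfl)
      (by rw [h1, h2, h6, he1]; rfl) (by rw [h3, h6, he1, he2]; rfl)⟩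
  have hvalA : ∀ y ∈ cls j k x, ∀ e,
      y.1 j e = true → y.1 k e = false → e ≠ p ∧ e ≠ q ∧
      (H y e).1 = perm3 i j k (Equiv.swap p q) (Equiv.swap p e) (Equiv.swap q e) y.1 := by
    intro y hy e he1 he2
    obtain ⟨h1, h2, h3, h4, h5, h6, h7, h8⟩ := hA y hy
    have hep : e ≠ p := by rintro rfl; rw [h3] at he1; exact absurd he1 (by simp)
    have heq : e ≠ q := by rintro rfl; rw [h6] at he2; exact absurd he2 (by simp)
    exact ⟨hep, heq, hval y e hep heq (by rw [h1, h2, h3, he1]; rfl)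
      (by rw [h1, h2, h6, he2]; rfl) (by rw [h3, h6, he1, he2]; rfl)⟩
  have h1T : ∀ y ∈ (cls j k x').filter (fun y => y.1 j p = true ∧ y.1 j q = true), ∀ e,
      y.1 k e = true → y.1 j e = false → H y e ∈ cls j k x ∧ ((H y e).1 j e = true ∧
        (H y e).1 k e = false) := by
    intro y hy e he1 he2
    obtain ⟨h1, h2, h3, h4, h5, h6, h7, h8⟩ := hT y hy
    obtain ⟨hep, heq, hv⟩ := hvalT y hy e he1 he2
    refine ⟨mem_cls.mpr ?_, ?_, ?_⟩
    · intro t a1 a2
      rw [hv]
      by_cases a3 : t = i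
      · subst a3
        rw [perm3_i, ← h8 t hij hik, hx']
        funext w; simp
      · rw [perm3_off a3 a1 a2]
        exact h7 t a3 a1 a2
    · rw [hv, perm3_j hij]; simp [h3]
    · rw [hv, perm3_k hik hjk]; simp [h6]
  have h1A : ∀ y ∈ cls j k x, ∀ e, y.1 j e = true → y.1 k e = false →
      H y e ∈ (cls j k x').filter (fun y => y.1 j p = true ∧ y.1 j q = true) ∧
      ((H y e).1 k e = true ∧ (H y e).1 j e = false) := by
    intro y hy e he1 he2
    obtain ⟨h1, h2, h3, h4, h5, h6, h7, h8⟩ := hA y hy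
    obtain ⟨hep, heq, hv⟩ := hvalA y hy e he1 he2
    refine ⟨?_, ?_, ?_⟩
    · rw [mem_filter, mem_cls]
      refine ⟨?_, ?_, ?_⟩
      · intro t a1 a2
        rw [hv]
        by_cases a3 : t = i
        · subst a3
          rw [perm3_i, ← h8 t hij hik, hx']
        · rw [perm3_off a3 a1 a2, ← hoff t a3 a1 a2]
          exact h8 t a1 a2
      · rw [hv, perm3_j hij]; simp [he1]
      · rw [hv, perm3_j hij]
        simp only [Function.comp]
        rw [Equiv.swap_apply_of_ne_of_ne hpq.symm heq.symm, h4]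
    · rw [hv, perm3_k hik hjk]; simp [h6]
    · rw [hv, perm3_j hij]; simp [h3]
  have hK1 : ∀ y ∈ cls j k x,
      (univ.filter (fun e => s3 i j k y e = (y.1 i e).toNat + 2)).card =
        (univ.filter (fun e => s3 i j k x e = (x.1 i e).toNat + 2)).card := by
    intro y hy
    obtain ⟨h1, h2, h3, h4, h5, h6, h7, h8⟩ := hA y hy
    congr 1
    ext e
    simp only [mem_filter, mem_univ, true_and]
    rw [s3_eq hij hik hjk h7 e, h8 i hij hik]
  have hK2 : ∀ y ∈ (cls j k x').filter (fun y => y.1 j p = true ∧ y.1 j q = true),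
      (univ.filter (fun e => s3 i j k y e = (y.1 i e).toNat + 2)).card =
        (univ.filter (fun e => s3 i j k x e = (x'.1 i e).toNat + 2)).card := by
    intro y hy
    obtain ⟨h1, h2, h3, h4, h5, h6, h7, h8⟩ := hT y hy
    congr 1
    ext e
    simp only [mem_filter, mem_univ, true_and]
    rw [s3_eq hij hik hjk h7 e, h8 i hij hik]
  have hKlt : (univ.filter (fun e => s3 i j k x e = (x'.1 i e).toNat + 2)).card <
      (univ.filter (fun e => s3 i j k x e = (x.1 i e).toNat + 2)).card := by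
    apply card_lt_card
    rw [ssubset_iff_of_subset]
    · refine ⟨q, ?_, ?_⟩
      · simp [hsq, hq]
      · simp [hsq, hx'q]
    · intro e he
      simp only [mem_filter, mem_univ, true_and] at he ⊢
      have hep : e ≠ p := by rintro rfl; rw [hsp] at he; omega
      have heq : e ≠ q := by rintro rfl; rw [hsq, hx'q] at he; simp at he
      rw [he, hx', Function.comp, Equiv.swap_apply_of_ne_of_ne hep heq]
  have hKle : (univ.filter (fun e => s3 i j k x e = (x.1 i e).toNat + 2)).card ≤ r k := by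
    rw [← card_row x k]
    apply card_le_card
    intro e he
    simp only [mem_filter, mem_univ, true_and] at he ⊢
    unfold s3 at he
    revert he
    cases x.1 i e <;> cases x.1 j e <;> cases x.1 k e <;> simp
  apply biregular (cls j k x) _ (cls_nonempty j k x)
    (fun y => univ.filter (fun e => y.1 k e = true ∧ y.1 j e = false))
    (fun y => univ.filter (fun e => y.1 j e = true ∧ y.1 k e = false)) H
    (r k - (univ.filter (fun e => s3 i j k x e = (x'.1 i e).toNat + 2)).card)
    (r j - (univ.filter (fun e => s3 i j k x e = (x.1 i e).toNat + 2)).card)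
  · intro y hy
    rw [card_diff_row i j k, hK2 y hy]
  · intro y hy
    rw [card_diff_row i k j]
    have e1 : ∀ e, s3 i k j y e = s3 i j k y e := fun e => by unfold s3; ring
    simp only [e1]
    rw [hK1 y hy]
  · intro y hy
    rw [← card_pos, card_diff_row i j k, hK2 y hy]
    omega
  · intro y hy e he
    simp only [mem_filter, mem_univ, true_and] at he
    have h9 := h1T y hy e he.1 he.2
    refine ⟨h9.1, by simp only [mem_filter, mem_univ, true_and]; exact h9.2, ?_⟩
    obtain ⟨hep, heq, hv⟩ := hvalT y hy e he.1 he.2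
    obtain ⟨-, -, hv'⟩ := hvalA _ h9.1 e h9.2.1 h9.2.2
    apply Subtype.ext
    rw [hv', hv, perm3_invol hij hik hjk _ _ _ (swap_invol _ _) (swap_invol _ _) (swap_invol _ _)]
  · intro y hy e he
    simp only [mem_filter, mem_univ, true_and] at he
    have h9 := h1A y hy e he.1 he.2
    refine ⟨h9.1, by simp only [mem_filter, mem_univ, true_and]; exact h9.2, ?_⟩
    obtain ⟨hep, heq, hv⟩ := hvalA y hy e he.1 he.2
    obtain ⟨-, -, hv'⟩ := hvalT _ h9.1 e h9.2.1 h9.2.2
    apply Subtype.ext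
    rw [hv', hv, perm3_invol hij hik hjk _ _ _ (swap_invol _ _) (swap_invol _ _) (swap_invol _ _)]
  · intro y hy e he
    simp only [mem_filter, mem_univ, true_and] at he
    obtain ⟨h1, h2, h3, h4, h5, h6, h7, h8⟩ := hT y hy
    obtain ⟨hep, heq, hv⟩ := hvalT y hy e he.1 he.2
    set z := H y e with hz
    have hyz : Off3 i j k y z := by
      intro t a1 a2 a3
      rw [hv, perm3_off a1 a2 a3]
    have hmf : Mv j i k p e y z := ⟨off3_swap (off3_rot hyz), h3, he.2, by
      rw [hv, perm3_j hij]⟩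
    have hmg : Mv k i j e q y z := ⟨off3_rot (off3_rot hyz), he.1, h6, by
      rw [hv, perm3_k hik hjk, Equiv.swap_comm]⟩
    have hp7 := s3_eq hij hik hjk h7 p
    have hq7 := s3_eq hij hik hjk h7 q
    rw [hsp] at hp7
    rw [hsq] at hq7
    have htri : |f y + g y - (f z + g z)| ≤ |f y - f z| + |g y - g z| := by
      have : f y + g y - (f z + g z) = (f y - f z) + (g y - g z) := by ring
      rw [this]; exact abs_add_le _ _
    cases hie : y.1 i e
    · -- column sum one
      have a1 : |f y - f z| ≤ a := hfa y z ⟨p, e, hmf, by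
        unfold s3 at hp7 ⊢
        rw [hie, he.1, he.2]
        simp only [Bool.toNat_true, Bool.toNat_false]
        omega⟩
      have a2 : |g y - g z| ≤ b := hgb y z ⟨e, q, hmg, by
        unfold s3 at hq7 ⊢
        rw [hie, he.1, he.2]
        simp only [Bool.toNat_true, Bool.toNat_false]
        omega⟩
      linarith
    · have a1 : |f y - f z| ≤ b := hfb y z ⟨p, e, hmf, by
        unfold s3 at hp7 ⊢
        rw [hie, he.1, he.2]
        simp only [Bool.toNat_true, Bool.toNat_false]
        omega⟩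
      have a2 : |g y - g z| ≤ a := hga y z ⟨e, q, hmg, by
        unfold s3 at hq7 ⊢
        rw [hie, he.1, he.2]
        simp only [Bool.toNat_true, Bool.toNat_false]
        omega⟩
      linarith

end three

end Vale.Agent.Lib.P335
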