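import Vale.Agent.Lib.P335.Three

/-!
# P335 : the contraction for three rows
-/

set_option linter.unusedSectionVars false

open Finset

namespace Vale.Agent.Lib.P335

section three2

variable {R W : Type} [Fintype R] [Fintype W] [DecidableEq R] [DecidableEq W]
  {r : R → ℕ} {c : W → ℕ}

theorem cls_swap (j k : R) (x : Mat R W r c) : cls k j x = cls j k x := by
  ext y
  rw [mem_cls, mem_cls]
  exact ⟨off2_comm, off2_comm⟩

theorem beta_step0 {i j k : R} (hij : i ≠ j) (hik : i ≠ k) (hjk : j ≠ k) {x x' : Mat R W r c}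
    {p q : W} (hx : Mv i j k p q x x') (hsp : s3 i j k x p = 1) (hsq : s3 i j k x q = 2)
    (f g : Mat R W r c → ℝ)
    (hf : ∀ y y', Mat.Off2 i k y y' → f y = f y') (hg : ∀ y y', Mat.Off2 i j y y' → g y = g y')
    (a b : ℝ) (ha : 0 ≤ a) (hfa : ∀ y y', MA j i k y y' → |f y - f y'| ≤ a)
    (hga : ∀ y y', MA k i j y y' → |g y - g y'| ≤ a)
    (hfb : ∀ y y', MB j i k y y' → |f y - f y'| ≤ b)
    (hgb : ∀ y y', MB k i j y y' → |g y - g y'| ≤ b) :
    |avg (Mat.Off2 j k) (fun y => f y + g y) x' - avg (Mat.Off2 j k) (fun y => f y + g y) x|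
      ≤ a + b := by
  have hx2 : Mv i k j p q x x' := ⟨off3_swap hx.1, hx.2.1, hx.2.2.1, hx.2.2.2⟩
  have hsp2 : s3 i k j x p = 1 := by rw [s3_swap i j k x p]; exact hsp
  have hsq2 : s3 i k j x q = 2 := by rw [s3_swap i j k x q]; exact hsq
  have t1 := beta_type1 hij hik hjk hx hsp hsq f g hg a b ha hfb
  have t2 := beta_type1 hik hij hjk.symm hx2 hsp2 hsq2 g f hf a b ha hgb
  have t3 := beta_type3 hij hik hjk hx hsp hsq f g a b hfa hga hfb hgb
  have t4 := beta_type3 hik hij hjk.symm hx2 hsp2 hsq2 g f a b hga hfa hgb hfb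
  rw [cls_swap j k x', cls_swap j k x] at t2 t4
  have hcomm : (fun y => g y + f y) = fun y => f y + g y := by funext y; ring
  have hsumc : ∀ s : Finset (Mat R W r c), ∑ y ∈ s, (g y + f y) = ∑ y ∈ s, (f y + g y) :=
    fun s => sum_congr rfl (fun y _ => add_comm _ _)
  rw [hsumc, hsumc] at t2 t4
  -- entries of the elements of the target class
  have hx'p : x'.1 i p = false := by rw [hx.2.2.2]; simp [hx.2.2.1]
  have hx'q : x'.1 i q = true := by rw [hx.2.2.2]; simp [hx.2.1]
  have hent : ∀ y ∈ cls j k x', (y.1 k p = !y.1 j p) ∧ (y.1 k q = !y.1 j q) := by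
    intro y hy
    rw [mem_cls] at hy
    have hy3 : Off3 i j k x y := off3_trans hx.1 (off3_of_cls hy)
    have h1 : y.1 i p = false := by rw [← hy i hij hik]; exact hx'p
    have h2 : y.1 i q = true := by rw [← hy i hij hik]; exact hx'q
    have h3 := s3_eq hij hik hjk hy3 p
    have h4 := s3_eq hij hik hjk hy3 q
    rw [hsp] at h3
    rw [hsq] at h4
    unfold s3 at h3 h4
    rw [h1] at h3
    rw [h2] at h4
    constructor
    · revert h3; cases y.1 j p <;> cases y.1 k p <;> simp
    · revert h4; cases y.1 j q <;> cases y.1 k q <;> simp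
  have f2 : (cls j k x').filter (fun y => y.1 k p = true ∧ y.1 k q = false) =
      (cls j k x').filter (fun y => ¬ y.1 j p = true ∧ y.1 j q = true) := by
    apply filter_congr
    intro y hy
    rw [(hent y hy).1, (hent y hy).2]
    cases y.1 j p <;> cases y.1 j q <;> simp
  have f4 : (cls j k x').filter (fun y => y.1 k p = true ∧ y.1 k q = true) =
      (cls j k x').filter (fun y => ¬ y.1 j p = true ∧ ¬ y.1 j q = true) := by
    apply filter_congr
    intro y hy
    rw [(hent y hy).1, (hent y hy).2]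
    cases y.1 j p <;> cases y.1 j q <;> simp
  have f1 : (cls j k x').filter (fun y => y.1 j p = true ∧ y.1 j q = false) =
      (cls j k x').filter (fun y => y.1 j p = true ∧ ¬ y.1 j q = true) := by
    apply filter_congr
    intro y hy
    cases y.1 j p <;> cases y.1 j q <;> simp
  rw [f1] at t1
  rw [f2] at t2
  rw [f4] at t4
  set h : Mat R W r c → ℝ := fun y => f y + g y with hh
  have hsplit : ∀ φ : Mat R W r c → ℝ, ∑ y ∈ cls j k x', φ y =
      (∑ y ∈ (cls j k x').filter (fun y => y.1 j p = true ∧ y.1 j q = true), φ y +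
      ∑ y ∈ (cls j k x').filter (fun y => y.1 j p = true ∧ ¬ y.1 j q = true), φ y) +
      (∑ y ∈ (cls j k x').filter (fun y => ¬ y.1 j p = true ∧ y.1 j q = true), φ y +
      ∑ y ∈ (cls j k x').filter (fun y => ¬ y.1 j p = true ∧ ¬ y.1 j q = true), φ y) := by
    intro φ
    rw [← sum_filter_add_sum_filter_not (cls j k x') (fun y => y.1 j p = true) φ,
      ← sum_filter_add_sum_filter_not ((cls j k x').filter (fun y => y.1 j p = true))
        (fun y => y.1 j q = true) φ,
      ← sum_filter_add_sum_filter_not ((cls j k x').filter (fun y => ¬ y.1 j p = true))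
        (fun y => y.1 j q = true) φ, filter_filter, filter_filter, filter_filter, filter_filter]
  set n1 := ((cls j k x').filter (fun y => y.1 j p = true ∧ ¬ y.1 j q = true)).card with hn1
  set n2 := ((cls j k x').filter (fun y => ¬ y.1 j p = true ∧ y.1 j q = true)).card with hn2
  set n3 := ((cls j k x').filter (fun y => y.1 j p = true ∧ y.1 j q = true)).card with hn3
  set n4 := ((cls j k x').filter (fun y => ¬ y.1 j p = true ∧ ¬ y.1 j q = true)).card with hn4
  have hcard : ((cls j k x').card : ℝ) = (n3 + n1) + (n2 + n4) := by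
    have := hsplit (fun _ => 1)
    simp only [sum_const, nsmul_eq_mul, mul_one] at this
    exact this
  have hs := hsplit h
  rw [avg_eq_cls, avg_eq_cls]
  have hpos : (0 : ℝ) < ((cls j k x').card : ℝ) := by
    exact_mod_cast card_pos.mpr (cls_nonempty j k x')
  set m : ℝ := (∑ y ∈ cls j k x, h y) / ((cls j k x).card : ℝ) with hm
  have e : (∑ y ∈ cls j k x', h y) / ((cls j k x').card : ℝ) - m
      = (∑ y ∈ cls j k x', h y - ((cls j k x').card : ℝ) * m) / ((cls j k x').card : ℝ) := by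
    field_simp
  rw [e, abs_div, abs_of_pos hpos, div_le_iff₀ hpos]
  rw [hs, hcard]
  rw [abs_le] at t1 t2 t3 t4 ⊢
  constructor
  · nlinarith [t1.1, t2.1, t3.1, t4.1]
  · nlinarith [t1.2, t2.2, t3.2, t4.2]

theorem beta_step {i j k : R} (hij : i ≠ j) (hik : i ≠ k) (hjk : j ≠ k) {x x' : Mat R W r c}
    (hx : MB i j k x x') (f g : Mat R W r c → ℝ)
    (hf : ∀ y y', Mat.Off2 i k y y' → f y = f y') (hg : ∀ y y', Mat.Off2 i j y y' → g y = g y')
    (a b : ℝ) (ha : 0 ≤ a) (hfa : ∀ y y', MA j i k y y' → |f y - f y'| ≤ a)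
    (hga : ∀ y y', MA k i j y y' → |g y - g y'| ≤ a)
    (hfb : ∀ y y', MB j i k y y' → |f y - f y'| ≤ b)
    (hgb : ∀ y y', MB k i j y y' → |g y - g y'| ≤ b) :
    |avg (Mat.Off2 j k) (fun y => f y + g y) x' - avg (Mat.Off2 j k) (fun y => f y + g y) x|
      ≤ a + b := by
  obtain ⟨p, q, hmv, hne⟩ := hx
  have hx'p : x'.1 i p = false := by rw [hmv.2.2.2]; simp [hmv.2.2.1]
  have hx'q : x'.1 i q = true := by rw [hmv.2.2.2]; simp [hmv.2.1]
  have hp3 := s3_eq hij hik hjk hmv.1 p
  have hq3 := s3_eq hij hik hjk hmv.1 q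
  have a1 : 1 ≤ s3 i j k x p := by unfold s3; rw [hmv.2.1]; simp; omega
  have a2 : s3 i j k x' p ≤ 2 := by
    unfold s3; rw [hx'p]; cases x'.1 j p <;> cases x'.1 k p <;> simp
  have a3 : 1 ≤ s3 i j k x' q := by unfold s3; rw [hx'q]; simp; omega
  have a4 : s3 i j k x q ≤ 2 := by
    unfold s3; rw [hmv.2.2.1]; cases x.1 j q <;> cases x.1 k q <;> simp
  have hcases : (s3 i j k x p = 1 ∧ s3 i j k x q = 2) ∨ (s3 i j k x p = 2 ∧ s3 i j k x q = 1) := by
    omega
  rcases hcases with ⟨h1, h2⟩ | ⟨h1, h2⟩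
  · exact beta_step0 hij hik hjk hmv h1 h2 f g hf hg a b ha hfa hga hfb hgb
  · rw [abs_sub_comm]
    exact beta_step0 hij hik hjk (mv_symm hmv) (by omega) (by omega) f g hf hg a b ha hfa hga hfb hgb

end three2

end Vale.Agent.Lib.P335
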